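import Vale.Agent.P233.H103.Heat
import Vale.Agent.P233.H66.Time3
import Vale.Agent.P233.H53.Stat
import Vale.Agent.P233.H715.TestI

/-! # P242 / H254 / E1a : time derivative of `s ↦ I (P_s σ * Γ (P_{t-s} f) (P_{t-s} g))` and the
gradient estimate with the Laplacian term -/

set_option linter.all false

open MeasureTheory Filter Topology Set
open scoped ENNReal NNReal

noncomputable section

namespace Vale.Agent.P242.H254

open Vale.Agent.P233

variable {M : Type*} [MeasurableSpace M] {m : Measure M} {C : Calc m}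

section DW
variable (hC : IsGamma C) {f g : M →ₘ[m] ℝ} {s t : ℝ}
include hC

/-- derivative of `r ↦ P_r f` in the Sobolev norm, at positive times -/
theorem DW_P (hf : MemLp f 2 m) (ht : 0 < t) :
    C.DW (fun r => C.P r f) (C.lap (C.P t f)) (Ici (t / 2)) t := by
  have hD := hC.toIsDir
  have h0 : 0 < t / 2 := by positivity
  refine ⟨fun r hr => hD.sub_mem (hD.P_mem (lt_of_lt_of_le h0 hr) hf) (hD.P_mem ht hf),
    IsGamma.P_lap_mem hC ht hf, ?_⟩
  have h1 := hD.P_derivW h0.le (hD.P_isLap h0 hf) (IsGamma.P_lap_mem hC h0 hf)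
  have h3 : C.lap (C.P t f) = C.P (t / 2) (C.lap (C.P (t / 2) f)) := by
    have := hD.P_lap_add h0.le h0 hf
    rwa [add_halves] at this
  have h4 : Tendsto (fun r => r - t / 2) (𝓝[Ici (t / 2) \ {t}] t)
      (𝓝[Set.Ici 0 \ {t / 2}] (t / 2)) := by
    rw [tendsto_nhdsWithin_iff]
    constructor
    · have h5 : Tendsto (fun s : ℝ => s - t / 2) (𝓝 t) (𝓝 (t - t / 2)) :=
        (continuous_id.sub continuous_const).tendsto t
      rw [sub_half] at h5
      exact h5.mono_left nhdsWithin_le_nhds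
    · filter_upwards [self_mem_nhdsWithin] with r hr
      refine ⟨by have := hr.1; simp only [Set.mem_Ici] at this ⊢; linarith, ?_⟩
      simp only [Set.mem_singleton_iff]
      intro h6
      exact hr.2 (by simp only [Set.mem_singleton_iff]; linarith)
  refine (h1.comp h4).congr' ?_
  filter_upwards [self_mem_nhdsWithin] with r hr
  have hr1 : t / 2 ≤ r := hr.1
  simp only [Function.comp]
  have e1 : r - t / 2 - t / 2 = r - t := by ring
  have e2 : r - t / 2 + t / 2 = r := by ring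
  rw [hD.P_P (by linarith) h0.le hf, hD.P_P h0.le h0.le hf, ← h3, e1, e2, add_halves]

/-- reversal of time -/
theorem DW_rev {u : ℝ → M →ₘ[m] ℝ} {u' : M →ₘ[m] ℝ} {S T : Set ℝ}
    (h : C.DW u u' T (t - s)) (hS : ∀ r ∈ S, t - r ∈ T) :
    C.DW (fun r => u (t - r)) (-u') S s := by
  have hD := hC.toIsDir
  refine ⟨fun r hr => h.mem _ (hS r hr), hD.neg_mem h.mem', ?_⟩
  have h4 : Tendsto (fun r => t - r) (𝓝[S \ {s}] s) (𝓝[T \ {t - s}] (t - s)) := by
    rw [tendsto_nhdsWithin_iff]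
    constructor
    · have h5 : Tendsto (fun r : ℝ => t - r) (𝓝 s) (𝓝 (t - s)) :=
        (continuous_const.sub continuous_id).tendsto s
      exact h5.mono_left nhdsWithin_le_nhds
    · filter_upwards [self_mem_nhdsWithin] with r hr
      refine ⟨hS r hr.1, ?_⟩
      simp only [Set.mem_singleton_iff]
      intro h6
      exact hr.2 (by simp only [Set.mem_singleton_iff]; linarith)
  refine (h.lim.comp h4).congr' ?_
  filter_upwards [self_mem_nhdsWithin] with r hr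
  simp only [Function.comp]
  have e1 : (t - r - (t - s))⁻¹ = -(r - s)⁻¹ := by
    rw [← inv_neg]; congr 1; ring
  have e2 : (r - s)⁻¹ • (u (t - r) - u (t - s)) - -u'
      = -((t - r - (t - s))⁻¹ • (u (t - r) - u (t - s)) - u') := by
    rw [e1, neg_smul]; abel
  rw [e2, hD.nrm2_neg]
  exact hD.sub_mem (hC.smul_mem _ _ (h.mem _ (hS r hr.1))) h.mem'

end DW

section deriv
variable (hC : IsGamma C) {κ : ℝ} (hB : C.BEi κ) {f g σ : M →ₘ[m] ℝ} {s t : ℝ}
include hC hB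

/-- bound of the gradients of `P_r f` for `r ≥ a > 0` -/
theorem BdG_P {a T : ℝ} (ha : 0 < a) (hf : MemLp f 2 m) (hft : MemLp f ∞ m) {S : Set ℝ}
    (hS : ∀ r ∈ S, a ≤ r ∧ r ≤ T) : C.BdG (fun r => C.P r f) S := by
  obtain ⟨L, hL⟩ := mem_top_iff.1 hft
  refine ⟨Real.exp (2 * |κ| * T) * L ^ 2 / (2 * a), fun r hr => ?_⟩
  obtain ⟨h1, h2⟩ := hS r hr
  have hr0 : 0 < r := lt_of_lt_of_le ha h1
  filter_upwards [IsGamma.P_gradB hC hB hr0 hf hL] with x hx
  refine hx.trans ?_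
  have h3 : Real.exp (2 * |κ| * r) ≤ Real.exp (2 * |κ| * T) := by
    apply Real.exp_le_exp.2
    have := abs_nonneg κ
    nlinarith
  gcongr

/-- derivative of `s ↦ ∫ P_s σ Γ(P_{t-s} f, P_{t-s} g)` -/
theorem hasDeriv_PG (hσ : MemLp σ 2 m) (hσt : MemLp σ ∞ m) (hf : MemLp f 2 m)
    (hft : MemLp f ∞ m) (hg : MemLp g 2 m) (hgt : MemLp g ∞ m) (hs : 0 < s) (hst : s < t) :
    HasDerivAt (fun r => I (C.P r σ * C.Γ (C.P (t - r) f) (C.P (t - r) g)))
      (2 * C.NN κ (C.P (t - s) f) (C.P (t - s) g) (C.P s σ)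
        + 2 * κ * I (C.P s σ * C.Γ (C.P (t - s) f) (C.P (t - s) g))) s := by
  have hD := hC.toIsDir
  set S : Set ℝ := Ioo (s / 2) ((s + t) / 2) with hSdef
  have hsS : s ∈ S := ⟨by linarith, by linarith⟩
  have hts : 0 < t - s := by linarith
  have hrev : ∀ r ∈ S, t - r ∈ Ici ((t - s) / 2) := fun r hr => by
    have := hr.2; simp only [mem_Ici]; linarith
  have hrev' : ∀ r ∈ S, (t - s) / 2 ≤ t - r ∧ t - r ≤ t := fun r hr => by
    have := hr.2; have := hr.1; constructor <;> linarith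
  have da : DL2 (fun r => C.P r σ) (C.lap (C.P s σ)) S s :=
    hD.DW_DL2 (IsDir.DW_mono (DW_P hC hσ hs) fun r hr => hr.1.le)
  obtain ⟨B, hBσ⟩ := mem_top_iff.1 hσt
  have ba : BdS (fun r => C.P r σ) S := ⟨B, fun r hr => hD.P_bdd (by
    have := hr.1; linarith) hσ hBσ⟩
  have db := DW_rev hC (DW_P hC hf hts) hrev
  have dc := DW_rev hC (DW_P hC hg hts) hrev
  have bb : C.BdG (fun r => C.P (t - r) f) S := by
    obtain ⟨K, hK⟩ := BdG_P hC hB (a := (t - s) / 2) (T := t) (by linarith) hf hft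
      (S := Icc ((t - s) / 2) t) (fun r hr => hr)
    exact ⟨K, fun r hr => hK _ (hrev' r hr)⟩
  have bc : C.BdG (fun r => C.P (t - r) g) S := by
    obtain ⟨K, hK⟩ := BdG_P hC hB (a := (t - s) / 2) (T := t) (by linarith) hg hgt
      (S := Icc ((t - s) / 2) t) (fun r hr => hr)
    exact ⟨K, fun r hr => hK _ (hrev' r hr)⟩
  have h := hD.I_aΓ da ba db dc hsS (hD.P_mem hts hf) (hD.P_mem hts hg) bb bc
  have h2 := h.hasDerivAt (Ioo_mem_nhds hsS.1 hsS.2)
  refine h2.congr_deriv ?_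
  have uT := IsGamma.P_test_pos hC hB hts hf hft
  have vT := IsGamma.P_test_pos hC hB hts hg hgt
  set u := C.P (t - s) f with hu
  set v := C.P (t - s) g with hv
  have lu := IsGamma.P_lap_mem hC hts hf
  have lv := IsGamma.P_lap_mem hC hts hg
  rw [← hu] at lu
  rw [← hv] at lv
  have hA : C.P s σ ∈ C.A := ⟨hD.P_mem hs hσ, hD.P_memTop hs.le hσ hσt⟩
  have uW := (hC.test_A uT).1
  have vW := (hC.test_A vT).1
  have hΓ := (hC.Γ_mem hB uT vT)
  have p1 : I (C.Γ (C.Γ u v) (C.P s σ)) = -I (C.lap (C.P s σ) * C.Γ u v) := by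
    rw [hC.symm _ hΓ.1 _ hA.1]
    exact (hD.P_isLap hs hσ).2.2 _ hΓ.1
  have e1 : C.Γ (-C.lap u) v = -C.Γ (C.lap u) v := by
    have := hC.smul_left (-1) _ lu _ vW
    simpa using this
  have e2 : C.Γ u (-C.lap v) = -C.Γ u (C.lap v) := by
    have := hD.Γ_smul_right (-1) uW lv
    simpa using this
  have m1 : MemLp (C.P s σ * C.Γ u (C.lap v) : M →ₘ[m] ℝ) 1 m :=
    mem_mul_top hA.2 (hC.Γ_mem1 uW lv)
  have m2 : MemLp (C.P s σ * C.Γ v (C.lap u) : M →ₘ[m] ℝ) 1 m :=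
    mem_mul_top hA.2 (hC.Γ_mem1 vW lu)
  unfold Calc.NN
  rw [p1, e1, e2, mul_neg, mul_neg, I_neg, I_neg, mul_add (C.P s σ), I_add m1 m2,
    hC.symm _ lu _ vW]
  ring

omit hB in
/-- continuity of `s ↦ ∫ P_s σ Γ(P_{t-s} f, P_{t-s} g)`, also at the end points -/
theorem continuous_PG (hσ : MemLp σ 2 m) (hσt : MemLp σ ∞ m) (hf : f ∈ C.W) (hg : g ∈ C.W) :
    Continuous fun s => I (C.P s σ * C.Γ (C.P (t - s) f) (C.P (t - s) g)) := by
  have hD := hC.toIsDir
  obtain ⟨B, hB⟩ := mem_top_iff.1 hσt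
  have hPB : ∀ r, ∀ᵐ x ∂m, |C.P r σ x| ≤ B := fun r => by
    have := hD.P_bdd (abs_nonneg r) hσ hB
    rwa [hD.P_abs r hσ] at this
  rw [continuous_iff_continuousAt]
  intro s
  refine tendsto_of_seq_tendsto fun r hr => ?_
  have h2 : Tendsto (fun n => t - r n) atTop (𝓝 (t - s)) := tendsto_const_nhds.sub hr
  have a1 : T2 (fun n => C.P (r n) σ) (C.P s σ) :=
    ⟨fun n => hD.P_mem2 _ hσ, hD.P_mem2 _ hσ, (hD.P_cont hσ s).comp hr⟩
  have a2 := a1.tm ⟨B, fun n => hPB _⟩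
  have b1 : C.TW (fun n => C.P (t - r n) f) (C.P (t - s) f) :=
    ⟨fun n => hD.P_memW _ hf, hD.P_memW _ hf, (hD.P_contW hf (t - s)).comp h2⟩
  have b2 : C.TW (fun n => C.P (t - r n) g) (C.P (t - s) g) :=
    ⟨fun n => hD.P_memW _ hg, hD.P_memW _ hg, (hD.P_contW hg (t - s)).comp h2⟩
  exact (a2.mul1 (hD.TW_Γ1 b1 b2)).I_lim

/-- Jensen's inequality, weak form -/
theorem jensen_weak (ht : 0 < t) (hf : MemLp f 2 m) (hft : MemLp f ∞ m) (h0 : 0 ≤ σ)
    (hσ : MemLp σ 2 m) (hσt : MemLp σ ∞ m) :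
    I (σ * C.P t f ^ 2) ≤ I (C.P t σ * f ^ 2) := by
  have hD := hC.toIsDir
  have hmv := Convex.mul_sub_le_image_sub_of_le_deriv (convex_Icc 0 t)
    (f := fun s => I (C.P s σ * C.P (t - s) f ^ 2))
    (hD.continuous_PP hσ hf hft).continuousOn
    (fun s hs => by
      rw [interior_Icc] at hs
      exact (hD.hasDeriv_PP hσ hσt hf hft hs.1 hs.2).differentiableAt.differentiableWithinAt)
    (C := 0)
    (fun s hs => by
      rw [interior_Icc] at hs
      rw [(hD.hasDeriv_PP hσ hσt hf hft hs.1 hs.2).deriv]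
      have hts : 0 < t - s := by linarith [hs.2]
      exact mul_nonneg zero_le_two (I_nonneg (mul_nonneg (hD.P_nonneg hs.1.le hσ h0)
        (hC.nonneg _ (hD.P_mem hts hf))))) 0 (Set.left_mem_Icc.2 ht.le) t
      (Set.right_mem_Icc.2 ht.le) ht.le
  simp only [sub_self, sub_zero, zero_mul] at hmv
  rw [hD.P_zero_time hf, hD.P_zero_time hσ] at hmv
  linarith

end deriv

section BE
variable (hC : IsGamma C) {κ N : ℝ} (hN : 0 < N) (hBE : C.BE κ N) {f g σ φ u : M →ₘ[m] ℝ}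
  {s t T : ℝ}
include hC hN hBE

/-- the Bochner inequality with the dimension term for `NN` -/
theorem NN_ge (hu : u ∈ C.Test) (hφ : φ ∈ C.A) (h0 : 0 ≤ φ) :
    N⁻¹ * I (φ * C.lap u ^ 2) ≤ C.NN κ u u φ := by
  have hB := hC.bei hN hBE
  have h1 := hC.bochner_weakN hN hBE hu hφ h0
  obtain ⟨n1, n2, n3, n4⟩ := hC.NN_int1 hB hu hu hφ
  have n4' : MemLp (φ * C.lap u ^ 2 : M →ₘ[m] ℝ) 1 m := by rw [sq]; exact n4
  have e : φ * (C.Γ u (C.lap u) + κ • C.Γ u u + N⁻¹ • C.lap u ^ 2)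
      = (2 : ℝ)⁻¹ • (φ * (C.Γ u (C.lap u) + C.Γ u (C.lap u))) + κ • (φ * C.Γ u u)
        + N⁻¹ • (φ * C.lap u ^ 2) := by algebra
  rw [e, I_add (mem_add (mem_smul _ n2) (mem_smul _ n3)) (mem_smul _ n4'),
    I_add (mem_smul _ n2) (mem_smul _ n3), I_smul, I_smul, I_smul] at h1
  unfold Calc.NN
  linarith only [h1]

variable [SigmaFinite m]

/-- the Laplacians of the heat flow: `∫ σ (Δ P_t f)² ≤ ∫ P_s σ (Δ P_{t-s} f)²` -/
theorem lapP_jensen (hs : 0 < s) (hst : s < t) (hf : MemLp f 2 m) (hft : MemLp f ∞ m)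
    (h0 : 0 ≤ σ) (hσ : MemLp σ 2 m) (hσt : MemLp σ ∞ m) :
    I (σ * C.lap (C.P t f) ^ 2) ≤ I (C.P s σ * C.lap (C.P (t - s) f) ^ 2) := by
  have hD := hC.toIsDir
  have hts : 0 < t - s := by linarith
  have uT := H715.P_testI_pos hC hN hBE hts hf hft
  have h1 := hD.P_lap_add hs.le hts hf
  have e : s + (t - s) = t := by ring
  rw [e] at h1
  rw [h1]
  exact jensen_weak hC (hC.bei hN hBE) hs (hD.P_isLap hts hf).2.1 uT.2 h0 hσ hσt

/-- **gradient estimate with the Laplacian term** -/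
theorem gradLap_weak (ht : 0 < t) (hf : f ∈ C.A) (h0 : 0 ≤ σ)
    (hσ : MemLp σ 2 m) (hσt : MemLp σ ∞ m) :
    I (σ * C.Γ (C.P t f) (C.P t f))
      + 2 * t / N * Real.exp (-(2 * |κ| * t)) * I (σ * C.lap (C.P t f) ^ 2)
      ≤ Real.exp (-(2 * κ * t)) * I (C.P t σ * C.Γ f f) := by
  have hD := hC.toIsDir
  have hB := hC.bei hN hBE
  have hf2 := hC.memLp _ hf.1
  set L := I (σ * C.lap (C.P t f) ^ 2) with hL
  have hL0 : 0 ≤ L := I_nonneg (mul_nonneg h0 (sq_nonneg' _))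
  set F : ℝ → ℝ := fun s => I (C.P s σ * C.Γ (C.P (t - s) f) (C.P (t - s) f)) with hF
  have hder : ∀ s ∈ Set.Ioo 0 t, HasDerivAt (fun s => Real.exp (-(2 * κ * s)) * F s)
      (Real.exp (-(2 * κ * s)) * (2 * C.NN κ (C.P (t - s) f) (C.P (t - s) f) (C.P s σ))) s := by
    intro s hs
    have h1 := hasDeriv_PG hC hB hσ hσt hf2 hf.2 hf2 hf.2 hs.1 hs.2
    have h2 : HasDerivAt (fun s : ℝ => Real.exp (-(2 * κ * s)))
        (Real.exp (-(2 * κ * s)) * (-(2 * κ))) s := by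
      have h3 : HasDerivAt (fun s : ℝ => -(2 * κ * s)) (-(2 * κ * 1)) s :=
        ((hasDerivAt_id s).const_mul (2 * κ)).neg
      rw [mul_one] at h3
      exact h3.exp
    refine (h2.mul h1).congr_deriv ?_
    ring
  have hlow : ∀ s ∈ Set.Ioo 0 t, 2 / N * Real.exp (-(2 * |κ| * t)) * L
      ≤ Real.exp (-(2 * κ * s)) * (2 * C.NN κ (C.P (t - s) f) (C.P (t - s) f) (C.P s σ)) := by
    intro s hs
    have hts : 0 < t - s := by linarith [hs.2]
    have uT := IsGamma.P_test_pos hC hB hts hf2 hf.2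
    have hA : C.P s σ ∈ C.A := ⟨hD.P_mem hs.1 hσ, hD.P_memTop hs.1.le hσ hσt⟩
    have h1 := NN_ge hC hN hBE uT hA (hD.P_nonneg hs.1.le hσ h0)
    have h2 := lapP_jensen hC hN hBE hs.1 hs.2 hf2 hf.2 h0 hσ hσt
    rw [← hL] at h2
    have h3 : Real.exp (-(2 * |κ| * t)) ≤ Real.exp (-(2 * κ * s)) := by
      apply Real.exp_le_exp.2
      have h4 : κ * s ≤ |κ| * t :=
        (mul_le_mul_of_nonneg_right (le_abs_self κ) hs.1.le).trans
          (mul_le_mul_of_nonneg_left hs.2.le (abs_nonneg κ))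
      linarith
    have h5 : 0 ≤ N⁻¹ := by positivity
    have h6 : N⁻¹ * L ≤ C.NN κ (C.P (t - s) f) (C.P (t - s) f) (C.P s σ) :=
      (mul_le_mul_of_nonneg_left h2 h5).trans h1
    calc 2 / N * Real.exp (-(2 * |κ| * t)) * L
        = Real.exp (-(2 * |κ| * t)) * (2 * (N⁻¹ * L)) := by ring
      _ ≤ Real.exp (-(2 * κ * s)) * (2 * (N⁻¹ * L)) :=
          mul_le_mul_of_nonneg_right h3 (by positivity)
      _ ≤ _ := mul_le_mul_of_nonneg_left (by linarith) (Real.exp_pos _).le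
  have hmv := Convex.mul_sub_le_image_sub_of_le_deriv (convex_Icc 0 t)
    (f := fun s => Real.exp (-(2 * κ * s)) * F s)
    (((by fun_prop : Continuous fun s : ℝ => Real.exp (-(2 * κ * s))).mul
      (continuous_PG hC hσ hσt hf.1 hf.1)).continuousOn)
    (fun s hs => by
      rw [interior_Icc] at hs
      exact (hder s hs).differentiableAt.differentiableWithinAt)
    (C := 2 / N * Real.exp (-(2 * |κ| * t)) * L)
    (fun s hs => by
      rw [interior_Icc] at hs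
      rw [(hder s hs).deriv]
      exact hlow s hs) 0 (Set.left_mem_Icc.2 ht.le) t (Set.right_mem_Icc.2 ht.le) ht.le
  simp only [hF, sub_self, sub_zero, mul_zero, neg_zero, Real.exp_zero, one_mul] at hmv
  rw [hD.P_zero_time hf2, hD.P_zero_time hσ] at hmv
  have e : 2 * t / N * Real.exp (-(2 * |κ| * t)) * L
      = 2 / N * Real.exp (-(2 * |κ| * t)) * L * t := by ring
  rw [e]
  linarith

end BE

end Vale.Agent.P242.H254

end
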