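import Vale.Agent.P242.H254.E1c
import Vale.Agent.P242.H744.DropA
import Vale.Agent.P242.H992.Lib
import Vale.Agent.P242.H71.Voc

/-! # P242 / H254 / E1v : the vertex data `Vx` for `w_y = min (d_y²/2, δ) - δ` -/

set_option linter.all false

open MeasureTheory Filter Topology Set
open scoped ENNReal NNReal

noncomputable section

universe u

namespace Vale.Agent.P242.H254

open Vale.Agent.P233 Vale.Agent.P233.RA

variable {M : Type u} [MetricSpace M] [MeasurableSpace M] [BorelSpace M]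
  [SecondCountableTopology M] {m : Measure M} {n : ℕ} {K K₁ δ : ℝ} {θ : M → ℝ}

/-- the vertex data, from the hypotheses `NSp` -/
theorem vx_of_nsp (h : N2.RA.NSp m n K θ) (hδ : 0 < δ) (hK₁ : 0 < K₁) (hK : 2 * |K| / 3 ≤ K₁)
    (y : M) : Vx (sob m) n K₁ δ (gg y) (cl m (ww δ y)) := by
  have hC := h.isDir
  have hwae := N2.H982.ww_ae (m := m) hδ.le y
  have heq : ∀ᵐ x ∂m, cl m (ww δ y) x = min (gg y x) δ - δ := by
    filter_upwards [hwae] with x hx
    rw [hx]; rfl
  have hwA := N2.H982.ww_A (m := m) h.fin hδ.le y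
  refine ⟨by exact_mod_cast h.n_pos, hK₁, hδ, fun x => N2.H982.gg_nonneg y x, hwA.1, heq, ?_, ?_⟩
  · filter_upwards [H744.Drop.Γ_ww_ww h hδ hδ y] with x hx
    rw [hx, min_self]
  · intro φ hφ h0 h1
    have h2 := N2.H982.lc_int h hδ y hφ.1 h0
    have hms := N2.H982.measurableSet_gg δ y
    have hi1 := N2.H982.lc_integrable h.fin (n : ℝ) (2 * K / 3) δ y (hC.memLp _ hφ.1)
    have hφi := int_of_mem h1
    have hwφ : Integrable (fun x => (cl m (ww δ y) x) * φ x) m := by
      have := int_of_mem (mem_mul_top hwA.2 h1)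
      exact this.congr (mul_ae _ _)
    have hi2 : Integrable (fun x => ((n : ℝ) + K₁ * δ) * φ x + K₁ * ((cl m (ww δ y) x) * φ x)) m :=
      (hφi.const_mul _).add (hwφ.const_mul _)
    have e1 : ∫ x, (((n : ℝ) + K₁ * δ) * φ x + K₁ * ((cl m (ww δ y) x) * φ x)) ∂m
        = ((n : ℝ) + K₁ * δ) * I φ + K₁ * I (cl m (ww δ y) * φ) := by
      rw [integral_add (hφi.const_mul _) (hwφ.const_mul _), integral_const_mul,
        integral_const_mul]
      unfold I
      rw [integral_congr_ae (mul_ae (cl m (ww δ y)) φ)]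
    rw [← e1]
    refine h2.trans ?_
    have hpos : ∀ᵐ x ∂m, 0 ≤ ((n : ℝ) + K₁ * δ) * φ x + K₁ * ((cl m (ww δ y) x) * φ x) := by
      filter_upwards [nonneg_iff_ae.1 h0, heq] with x a b
      have h3 : 0 ≤ min (gg y x) δ := le_min (N2.H982.gg_nonneg y x) hδ.le
      have h4 : ((n : ℝ) + K₁ * δ) * φ x + K₁ * ((cl m (ww δ y) x) * φ x)
          = (n + K₁ * min (gg y x) δ) * φ x := by rw [b]; ring
      rw [h4]
      have : (0 : ℝ) ≤ n := Nat.cast_nonneg n
      positivity
    refine le_trans ?_ (setIntegral_le_integral (s := {x | gg y x < δ}) hi2 hpos)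
    refine setIntegral_mono_on_ae hi1 hi2.integrableOn hms ?_
    filter_upwards [nonneg_iff_ae.1 h0, heq] with x a b hx
    have hx' : gg y x < δ := hx
    have h4 : ((n : ℝ) + K₁ * δ) * φ x + K₁ * ((cl m (ww δ y) x) * φ x)
        = (n + K₁ * gg y x) * φ x := by rw [b, min_eq_left hx'.le]; ring
    rw [h4]
    refine mul_le_mul_of_nonneg_right ?_ a
    have h5 : -(2 * K / 3) ≤ K₁ := by
      have := neg_le_abs K
      linarith
    have h6 := mul_le_mul_of_nonneg_right h5 (N2.H982.gg_nonneg y x)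
    linarith

variable [CompleteSpace M]

/-- the library hypotheses from the frozen vocabulary -/
theorem hyp_of (h : H71.HypL m n K) : CD.Hyp m n K := ⟨h.1, h.2, h.3, h.4⟩

/-- the vertex data of the frozen vocabulary -/
theorem vx_of (h : H71.HypL m n K) (y : M) :
    Vx (sob m) n (|K| + 1) (1 / 2) (gg y) (cl m (ww (1 / 2) y)) := by
  obtain ⟨θ, hθ⟩ := H992.nsp (hyp_of h)
  have := abs_nonneg K
  exact vx_of_nsp hθ (by norm_num) (by positivity) (by linarith) y

theorem nuF_eq (y : M) (φ : M →ₘ[m] ℝ) :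
    H71.nuF m n K y φ = nuP (sob m) n (|K| + 1) (1 / 2) (cl m (ww (1 / 2) y)) φ := by
  unfold H71.nuF nuP
  rw [mul_comm φ]
  ring

end Vale.Agent.P242.H254

end
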