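import Vale.Agent.P242.H254.E1i
import Vale.Agent.P242.H254.E1v
import Vale.Agent.P242.H196.NuD
import Vale.Agent.P242.H744.Start
import Vale.Agent.P242.H990.Far

/-! # P242 / H254 / E1k : the window of kernel facts from an environment -/

set_option linter.all false

open MeasureTheory Filter Topology Set
open scoped ENNReal NNReal

noncomputable section

universe u

namespace Vale.Agent.P242.H254

open Vale.Agent.P233 Vale.Agent.P233.RA Vale.Agent.P242.H990 Vale.Agent.P242.H520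

variable {M : Type u} [MetricSpace M] [CompleteSpace M] [SecondCountableTopology M]
  [MeasurableSpace M] [BorelSpace M] {m : Measure M} {n : ℕ} {K A : ℝ} {o : M}
  {p : ℝ → M → M → ℝ}

/-! ### facts of an environment -/

theorem e_nsp2 (h : H71.Env m n K o A p) : ∃ θ : M → ℝ, N2.NSp2 m n K θ :=
  H992.nsp2 (hyp_of h.hyp)

theorem e_gamma (h : H71.Env m n K o A p) : IsGamma (sob m) := by
  obtain ⟨θ, hN⟩ := e_nsp2 h
  exact hN.isGamma

theorem e_be (h : H71.Env m n K o A p) : (sob m).BE K n := H992.be (hyp_of h.hyp)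

/-! ### the semigroup law for `|F + c|` -/

theorem mem_shift {F : M → ℝ} (hF : MemLp F 2 m) (c : ℝ) : MemLp (fun z => |F z + c| - |c|) 2 m := by
  refine hF.mono ?_ (Eventually.of_forall fun z => ?_)
  · have h1 := (hF.1.add (aestronglyMeasurable_const (b := c))).norm
    simp only [Real.norm_eq_abs] at h1
    exact h1.sub aestronglyMeasurable_const
  · have h1 := abs_abs_sub_abs_le_abs_sub (F z + c) c
    rw [add_sub_cancel_right] at h1
    exact h1

theorem pt_shift (hp : Ker0 m p) {s : ℝ} (hs : 0 < s) (x : M) {F : M → ℝ} (hF : MemLp F 2 m)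
    (c : ℝ) : pt m p s (fun z => |F z + c|) x = pt m p s (fun z => |F z + c| - |c|) x + |c| := by
  have h1 := pt_int hp hs x (mem_shift hF c)
  have h2 := hp.int s hs x
  have h3 := hp.mass s hs x
  unfold pt
  have e : ∀ z, p s x z * |F z + c| = p s x z * (|F z + c| - |c|) + |c| * p s x z := by
    intro z; ring
  rw [integral_congr_ae (Eventually.of_forall e), integral_add h1 (h2.const_mul _),
    integral_const_mul, h3, mul_one]

theorem mem_pt (hC : IsDir (sob m)) (hp : Ker0 m p) {t : ℝ} (ht : 0 < t) {F : M → ℝ}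
    (hF : MemLp F 2 m) : MemLp (pt m p t F) 2 m := by
  have h0 : ⇑(AEEqFun.mk F hF.1 : M →ₘ[m] ℝ) =ᵐ[m] F := AEEqFun.coeFn_mk F hF.1
  have hF' : MemLp (AEEqFun.mk F hF.1 : M →ₘ[m] ℝ) 2 m := (memLp_congr_ae h0).2 hF
  have h1 : MemLp ((sob m).P t (AEEqFun.mk F hF.1)) 2 m := hC.P_mem2 t hF'
  have h2 := (memLp_congr_ae (hp.rep t ht _ hF')).1 h1
  have h3 : pt m p t (AEEqFun.mk F hF.1 : M →ₘ[m] ℝ) = pt m p t F := by
    ext y
    exact pt_congr hp h0 t y
  rwa [h3] at h2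

/-- `∫ p_s(x,·) P_t |F + c| = P_{s+t} |F + c| (x)` -/
theorem pt_pt_shift (hC : IsDir (sob m)) (hp : Ker0 m p) {s t : ℝ} (hs : 0 < s) (ht : 0 < t)
    (x : M) {F : M → ℝ} (hF : MemLp F 2 m) (c : ℝ) :
    Integrable (fun z => p s x z * pt m p t (fun w => |F w + c|) z) m ∧
    ∫ z, p s x z * pt m p t (fun w => |F w + c|) z ∂m = pt m p (s + t) (fun w => |F w + c|) x := by
  have hH := mem_shift hF c
  have hP := mem_pt hC hp ht hH
  have e : ∀ z, p s x z * pt m p t (fun w => |F w + c|) z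
      = p s x z * pt m p t (fun w => |F w + c| - |c|) z + |c| * p s x z := by
    intro z
    rw [pt_shift hp ht z hF c]; ring
  have h1 := pt_int hp hs x hP
  have h2 := hp.int s hs x
  have h3 : Integrable (fun z => p s x z * pt m p t (fun w => |F w + c|) z) m :=
    (h1.add (h2.const_mul |c|)).congr (Eventually.of_forall fun z => (e z).symm)
  refine ⟨h3, ?_⟩
  rw [integral_congr_ae (Eventually.of_forall e), integral_add h1 (h2.const_mul _),
    integral_const_mul, hp.mass s hs x, mul_one, pt_shift hp (by linarith : 0 < s + t) x hF c]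
  congr 1
  exact pt_pt hC hp ht hs x hH

/-! ### the three kernel facts -/

/-- the constant of `K1a` -/
def cA1 (n : ℕ) (A R₀ : ℝ) : ℝ :=
  cG n A (512 * A ^ 2) 0 ^ 2 * Real.exp (4 * A ^ 3) * Real.exp (4 * A * R₀)

theorem env_K1a (h : H71.Env m n K o A p) {R₀ : ℝ} {x : M} (hx : dist x o ≤ R₀) {s τ : ℝ}
    (hs : 0 < s) (hτ : 0 < τ) (hsτ : 512 * A ^ 2 * (s + τ) ≤ 1 / 2) {F : M →ₘ[m] ℝ}
    (hF : MemLp F 2 m) (c : ℝ) :
    I (ph m p s x * (sob m).gr ((sob m).P τ F)) ≤ cA1 n A R₀ / √τ *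
      ∫ z, ph m p (512 * A ^ 2 * (s + τ)) x z * |F z + c| ∂m := by
  have hC := e_gamma h
  have hD := hC.toIsDir
  have hp := h.ker
  have hk := h.kb
  have hA := hk.one_le
  have hA0 := hk.pos
  have hfin : ∀ (x : M) (r : ℝ), m (Metric.ball x r) < ∞ := by
    obtain ⟨θ, t⟩ := e_nsp2 h
    exact t.fin
  set G : ℝ := 512 * A ^ 2 with hG
  have hG0 : 0 < G := by positivity
  have hGs : 0 < G * s := by positivity
  have hGτ : 0 < G * τ := by positivity
  have hGsτ : G * (s + τ) = G * s + G * τ := by ring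
  have hs1 : G * s ≤ 1 / 2 := by linarith
  have hτ1 : G * τ ≤ 1 / 2 := by linarith
  have hA2 : 1 ≤ A ^ 2 := one_le_pow₀ hA
  have hs2 : s ≤ 1 := by nlinarith
  set c0 : ℝ := cG n A G 0 with hc0
  have hc00 : 0 < c0 := cG_pos hA hG0
  have hPF := hD.P_mem hτ hF
  have e1 : ∫ z, ph m p (G * (s + τ)) x z * |F z + c| ∂m
      = pt m p (G * s + G * τ) (fun w => |F w + c|) x := by
    rw [hGsτ]
    unfold pt
    refine integral_congr_ae ?_
    filter_upwards [ph_ae hp (by linarith : 0 < G * s + G * τ) x] with z hz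
    rw [hz]
  obtain ⟨i1, e2⟩ := pt_pt_shift hD hp hGs hGτ x hF c
  rw [e1, ← e2, I_ph_mul hp hs, ← integral_const_mul]
  unfold pt
  refine integral_mono_ae (pt_int hp hs x (gr_mem2 hD hPF)) (i1.const_mul _) ?_
  filter_upwards [grad_P_sub_le hC hp hk hfin (Γ := G) hτ (by
      rw [hG]; nlinarith [mul_pos (pow_pos hA0 2) hτ]) le_rfl hτ1 hF (-c),
    (sob m).gr_ae ((sob m).P τ F)] with z hz hg
  have p0 := hp.nonneg s hs x z
  have hX : 0 ≤ pt m p (G * τ) (fun w => |F w + c|) z :=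
    pt_nonneg hp hGτ z (Eventually.of_forall fun w => abs_nonneg _)
  simp only [sub_neg_eq_add] at hz
  -- the kernel
  have k1 : p s x z * Real.exp (2 * A * dist z o) ≤
      Real.exp (4 * A ^ 3) * c0 * Real.exp (4 * A * R₀) * p (G * s) x z := by
    have a1 : Real.exp (2 * A * dist z o) ≤
        Real.exp (2 * A * R₀) * Real.exp (2 * A * dist x z) := by
      rw [← Real.exp_add]
      apply Real.exp_le_exp.2
      have : dist z o ≤ dist x z + R₀ := by
        have h1 := dist_triangle z x o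
        rw [dist_comm z x] at h1
        linarith
      nlinarith
    have a2 : Real.exp (2 * A * dist x z) ≤
        Real.exp (4 * A ^ 3) * Real.exp (dist x z ^ 2 / (2 * A * s)) := by
      have b1 := exp_le_exp_weight (d := dist x z) (c := 2 * A) hA0 hs hs2
      have b2 : A * (2 * A) ^ 2 = 4 * A ^ 3 := by ring
      rw [b2] at b1
      refine b1.trans (mul_le_mul_of_nonneg_left (Real.exp_le_exp.2 ?_) (Real.exp_pos _).le)
      rw [div_le_div_iff₀ (by positivity) (by positivity)]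
      have : 0 ≤ dist x z ^ 2 * (2 * A * s) := by positivity
      nlinarith
    have a3 := hk.exp_mul_p_le (Γ := G) (C₀ := 0) (x := x) (x' := x) (z := z) hs (by
      rw [hG]; nlinarith [mul_pos (pow_pos hA0 2) hs]) le_rfl hs1 (by rw [dist_self, zero_mul])
    rw [← hc0] at a3
    have a4 : Real.exp (2 * A * dist x o) ≤ Real.exp (2 * A * R₀) :=
      Real.exp_le_exp.2 (by nlinarith)
    have p1 := hp.nonneg (G * s) hGs x z
    calc p s x z * Real.exp (2 * A * dist z o)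
        ≤ p s x z * (Real.exp (2 * A * R₀) * (Real.exp (4 * A ^ 3)
            * Real.exp (dist x z ^ 2 / (2 * A * s)))) :=
          mul_le_mul_of_nonneg_left (a1.trans
            (mul_le_mul_of_nonneg_left a2 (Real.exp_pos _).le)) p0
      _ = Real.exp (2 * A * R₀) * Real.exp (4 * A ^ 3)
            * (Real.exp (dist x z ^ 2 / (2 * A * s)) * p s x z) := by ring
      _ ≤ Real.exp (2 * A * R₀) * Real.exp (4 * A ^ 3)
            * (c0 * Real.exp (2 * A * dist x o) * p (G * s) x z) :=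
          mul_le_mul_of_nonneg_left a3 (by positivity)
      _ ≤ Real.exp (2 * A * R₀) * Real.exp (4 * A ^ 3)
            * (c0 * Real.exp (2 * A * R₀) * p (G * s) x z) := by gcongr
      _ = _ := by
          have e4 : Real.exp (4 * A * R₀) = Real.exp (2 * A * R₀) * Real.exp (2 * A * R₀) := by
            rw [← Real.exp_add]; congr 1; ring
          rw [e4]; ring
  calc p s x z * (sob m).gr ((sob m).P τ F) z
      ≤ p s x z * ((c0 / √τ * Real.exp (2 * A * dist z o))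
          * pt m p (G * τ) (fun w => |F w + c|) z) := by
        rw [hg]
        exact mul_le_mul_of_nonneg_left hz p0
    _ = (p s x z * Real.exp (2 * A * dist z o)) * (c0 / √τ
          * pt m p (G * τ) (fun w => |F w + c|) z) := by ring
    _ ≤ (Real.exp (4 * A ^ 3) * c0 * Real.exp (4 * A * R₀) * p (G * s) x z) * (c0 / √τ
          * pt m p (G * τ) (fun w => |F w + c|) z) :=
        mul_le_mul_of_nonneg_right k1 (by positivity)
    _ = _ := by
        unfold cA1 pt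
        rw [← hG, ← hc0]
        ring

/-- the constant of `K3` -/
def cA3 (n : ℕ) (K A R₀ : ℝ) : ℝ := cL n n K A (512 * A ^ 2) 0 * Real.exp (32 * A * R₀)

theorem env_K3 (h : H71.Env m n K o A p) {R₀ : ℝ} {x : M} (hx : dist x o ≤ R₀) {s : ℝ}
    (hs : 0 < s) (hs1 : 512 * A ^ 2 * s ≤ 1 / 2) :
    ∀ᵐ z ∂m, |(sob m).lap (ph m p s x) z| ≤ cA3 n K A R₀ / s * ph m p (512 * A ^ 2 * s) x z := by
  have hC := e_gamma h
  have hp := h.ker
  have hk := h.kb
  have hA := hk.one_le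
  have hA0 := hk.pos
  have hn : (0 : ℝ) < n := by
    have := h.hyp.two_le
    exact_mod_cast (by omega : 0 < n)
  haveI : SigmaFinite m := by
    obtain ⟨θ, t⟩ := e_nsp2 h
    exact sigmaFinite_of_ball t.fin
  have hG0 : 0 < 512 * A ^ 2 := by positivity
  have hc := cK_pos (n := n) (C₀ := 0) hA hG0
  filter_upwards [ph_lap_le hC hp hk hn (e_be h) (Γ := 512 * A ^ 2) (C₀ := 0)
    (x := x) (x' := x) hs le_rfl le_rfl hs1 (by rw [dist_self, zero_mul]),
    ph_ae hp (by positivity : 0 < 512 * A ^ 2 * s) x] with z hz h2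
  rw [h2]
  refine hz.trans (mul_le_mul_of_nonneg_right ?_ (hp.nonneg _ (by positivity) x z))
  unfold cA3
  have h3 : Real.exp (32 * A * dist x o) ≤ Real.exp (32 * A * R₀) :=
    Real.exp_le_exp.2 (by nlinarith)
  have h4 : 0 ≤ cL n n K A (512 * A ^ 2) 0 := by unfold cL; positivity
  calc cL n n K A (512 * A ^ 2) 0 / s * Real.exp (32 * A * dist x o)
      ≤ cL n n K A (512 * A ^ 2) 0 / s * Real.exp (32 * A * R₀) :=
        mul_le_mul_of_nonneg_left h3 (by positivity)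
    _ = _ := by ring

/-- the constant of `K4` -/
def cA4 (n : ℕ) (A R₀ C₀ Γ₂ : ℝ) : ℝ :=
  2 * (1 + C₀ ^ 2 + 2 * A * Γ₂) ^ 2 * (cG n A (512 * A ^ 2) 0 * Real.exp (2 * A * R₀))

theorem env_K4 (h : H71.Env m n K o A p) {R₀ C₀ Γ₂ : ℝ} (hΓ₂ : 0 < Γ₂)
    {x y : M} (hx : dist x o ≤ R₀) {s t : ℝ} (ht : 0 < t) (hxy : dist x y ≤ C₀ * √t)
    (hs : 0 < s) (hs1 : 512 * A ^ 2 * s ≤ Γ₂ * t) (ht1 : Γ₂ * t ≤ 1 / 2) :
    ∀ᵐ z ∂m, ph m p s x z * ((cl m (ww (1 / 2) y) z + 1 / 2 + t) / t) ^ 2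
      ≤ cA4 n A R₀ C₀ Γ₂ * ph m p (512 * A ^ 2 * s) x z := by
  have hV := vx_of h.hyp y
  have hp := h.ker
  have hk := h.kb
  have hA := hk.one_le
  have hA0 := hk.pos
  have hA2 : 1 ≤ A ^ 2 := one_le_pow₀ hA
  have hG0 : 0 < 512 * A ^ 2 := by positivity
  have hst : s ≤ Γ₂ * t := by nlinarith
  filter_upwards [hV.wd, ph_ae hp (by positivity : 0 < 512 * A ^ 2 * s) x, ph_ae hp hs x]
    with z h1 h2 h3
  rw [h2, h3]
  set d := dist x z with hd
  have p0 := hp.nonneg s hs x z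
  set u := d ^ 2 / (2 * A * s) with hu
  have hu0 : 0 ≤ u := by positivity
  set v := (cl m (ww (1 / 2) y) z + 1 / 2 + t) / t with hv
  have hv0 : 0 ≤ v := div_nonneg (by linarith [h1.1]) ht.le
  have g1 : gg y z ≤ d ^ 2 + C₀ ^ 2 * t := by
    unfold gg
    have a1 : dist z y ≤ d + C₀ * √t := by
      have := dist_triangle z x y
      rw [dist_comm z x] at this
      linarith
    have a2 : dist z y ^ 2 ≤ (d + C₀ * √t) ^ 2 := pow_le_pow_left₀ dist_nonneg a1 2
    have a3 : (d + C₀ * √t) ^ 2 ≤ 2 * d ^ 2 + 2 * (C₀ * √t) ^ 2 := by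
      nlinarith [sq_nonneg (d - C₀ * √t)]
    have a4 : (C₀ * √t) ^ 2 = C₀ ^ 2 * t := by rw [mul_pow, Real.sq_sqrt ht.le]
    linarith
  have v1 : v ≤ (1 + C₀ ^ 2 + 2 * A * Γ₂) * (1 + u) := by
    have a1 : v ≤ (d ^ 2 + C₀ ^ 2 * t + t) / t :=
      div_le_div_of_nonneg_right (by linarith [h1.2.1]) ht.le
    have a2 : (d ^ 2 + C₀ ^ 2 * t + t) / t = d ^ 2 / t + C₀ ^ 2 + 1 := by
      field_simp
    have a3 : d ^ 2 / t ≤ 2 * A * Γ₂ * u := by
      rw [hu, div_le_iff₀ ht]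
      have e1 : 2 * A * Γ₂ * (d ^ 2 / (2 * A * s)) * t = d ^ 2 * (Γ₂ * t / s) := by
        field_simp
      rw [e1]
      have e2 : 1 ≤ Γ₂ * t / s := by rw [le_div_iff₀ hs]; linarith
      nlinarith [sq_nonneg d]
    have a4 : 0 ≤ (1 + C₀ ^ 2) * u := by positivity
    have a5 : 0 ≤ 2 * A * Γ₂ := by positivity
    rw [a2] at a1
    linarith [(by ring : (1 + C₀ ^ 2 + 2 * A * Γ₂) * (1 + u)
      = (1 + C₀ ^ 2) + 2 * A * Γ₂ + (1 + C₀ ^ 2) * u + 2 * A * Γ₂ * u)]
  have v2 : v ^ 2 ≤ (1 + C₀ ^ 2 + 2 * A * Γ₂) ^ 2 * (2 * Real.exp u) := by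
    have a1 : v ^ 2 ≤ ((1 + C₀ ^ 2 + 2 * A * Γ₂) * (1 + u)) ^ 2 := pow_le_pow_left₀ hv0 v1 2
    have a2 : (1 + u) ^ 2 ≤ 2 * Real.exp u := by
      have := Real.quadratic_le_exp_of_nonneg hu0
      nlinarith
    rw [mul_pow] at a1
    exact a1.trans (mul_le_mul_of_nonneg_left a2 (sq_nonneg _))
  have a3 := hk.exp_mul_p_le (Γ := 512 * A ^ 2) (C₀ := 0) (x := x) (x' := x) (z := z) hs (by
      nlinarith [mul_pos (pow_pos hA0 2) hs]) le_rfl (hs1.trans ht1) (by rw [dist_self, zero_mul])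
  rw [← hd, ← hu] at a3
  have a4 : Real.exp (2 * A * dist x o) ≤ Real.exp (2 * A * R₀) :=
    Real.exp_le_exp.2 (by nlinarith)
  have p1 := hp.nonneg (512 * A ^ 2 * s) (by positivity) x z
  have hc := cG_pos (n := n) (C₀ := 0) hA hG0
  calc p s x z * v ^ 2 ≤ p s x z * ((1 + C₀ ^ 2 + 2 * A * Γ₂) ^ 2 * (2 * Real.exp u)) :=
        mul_le_mul_of_nonneg_left v2 p0
    _ = 2 * (1 + C₀ ^ 2 + 2 * A * Γ₂) ^ 2 * (Real.exp u * p s x z) := by ring
    _ ≤ 2 * (1 + C₀ ^ 2 + 2 * A * Γ₂) ^ 2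
          * (cG n A (512 * A ^ 2) 0 * Real.exp (2 * A * dist x o) * p (512 * A ^ 2 * s) x z) :=
        mul_le_mul_of_nonneg_left a3 (by positivity)
    _ ≤ 2 * (1 + C₀ ^ 2 + 2 * A * Γ₂) ^ 2
          * (cG n A (512 * A ^ 2) 0 * Real.exp (2 * A * R₀) * p (512 * A ^ 2 * s) x z) := by
        gcongr
    _ = _ := by unfold cA4; ring

/-- the constant of the window -/
def cWin (n : ℕ) (K A R₀ C₀ Γ₂ : ℝ) : ℝ :=
  1 + cA1 n A R₀ + cA3 n K A R₀ + cA4 n A R₀ C₀ Γ₂

theorem cA1_nonneg (n : ℕ) (A R₀ : ℝ) : 0 ≤ cA1 n A R₀ := by unfold cA1; positivity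

theorem cA3_nonneg (n : ℕ) (K : ℝ) {A : ℝ} (R₀ : ℝ) (hA : 1 ≤ A) : 0 ≤ cA3 n K A R₀ := by
  have hG0 : 0 < 512 * A ^ 2 := by positivity
  have hc := cK_pos (n := n) (C₀ := 0) hA hG0
  unfold cA3 cL
  positivity

theorem cA4_nonneg (n : ℕ) {A : ℝ} (R₀ C₀ Γ₂ : ℝ) (hA : 1 ≤ A) : 0 ≤ cA4 n A R₀ C₀ Γ₂ := by
  have hG0 : 0 < 512 * A ^ 2 := by positivity
  have hc := cG_pos (n := n) (C₀ := 0) hA hG0
  unfold cA4
  positivity

/-- **the window** -/
theorem win_of (h : H71.Env m n K o A p) {R₀ C₀ Γ₂ : ℝ} (hΓ₂ : 0 < Γ₂)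
    {x y : M} (hx : dist x o ≤ R₀) {t lo : ℝ} (ht : 0 < t) (hxy : dist x y ≤ C₀ * √t)
    (hlo : 0 < lo) (ht1 : Γ₂ * t ≤ 1 / 2) :
    Win (sob m) (fun s => ph m p s x) (cl m (ww (1 / 2) y)) (1 / 2) (512 * A ^ 2)
      (cWin n K A R₀ C₀ Γ₂) t lo (Γ₂ * t) := by
  have hC := e_gamma h
  have hA := h.kb.one_le
  have c1 := cA1_nonneg n A R₀
  have c3 := cA3_nonneg n K R₀ hA
  have c4 := cA4_nonneg n R₀ C₀ Γ₂ hA
  refine ⟨H924.cen hC h x, ?_, ?_, ?_⟩
  · intro s hs hs1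
    have hs0 : 0 < s := hlo.trans_le hs
    filter_upwards [env_K4 h hΓ₂ hx ht hxy hs0 hs1 ht1,
      nonneg_iff_ae.1 (ph_nonneg h.ker (by positivity : 0 < 512 * A ^ 2 * s) x)] with z h1 h2
    refine h1.trans (mul_le_mul_of_nonneg_right ?_ h2)
    unfold cWin; linarith
  · intro s τ hs hτ hsτ F hF _ c
    have hs0 : 0 < s := hlo.trans_le hs
    refine (env_K1a h hx hs0 hτ (hsτ.trans ht1) hF c).trans ?_
    refine mul_le_mul_of_nonneg_right ?_ ?_
    · refine div_le_div_of_nonneg_right ?_ (Real.sqrt_nonneg _)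
      unfold cWin; linarith
    · refine integral_nonneg_of_ae ?_
      filter_upwards [nonneg_iff_ae.1 (ph_nonneg h.ker
        (by positivity : 0 < 512 * A ^ 2 * (s + τ)) x)] with z hz
      exact mul_nonneg hz (abs_nonneg _)
  · intro s hs hs1
    have hs0 : 0 < s := hlo.trans_le hs
    filter_upwards [env_K3 h hx hs0 (hs1.trans ht1),
      nonneg_iff_ae.1 (ph_nonneg h.ker (by positivity : 0 < 512 * A ^ 2 * s) x)] with z h1 h2
    refine h1.trans (mul_le_mul_of_nonneg_right ?_ h2)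
    refine div_le_div_of_nonneg_right ?_ hs0.le
    unfold cWin; linarith

end Vale.Agent.P242.H254

end
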