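import Vale.Agent.P242.H254.E1a
import Vale.Agent.P242.H542.Gam
import Vale.Agent.P242.H363.QQ
import Vale.Agent.P233.Bd3.B9

/-! # P242 / H254 / E1b : the vertex functions of (E1), kernel-free part

`w = min (g, δ) - δ`, `g = d_y² / 2`, `b = P_t w`. The Laplacian comparison is used in the form
`Δ w ≤ N + K₁ (w + δ)` weakly on the whole space, `nu t = N + K₁ (b + δ) - Δ b ≥ 0`. -/

set_option linter.all false

open MeasureTheory Filter Topology Set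
open scoped ENNReal NNReal

noncomputable section

namespace Vale.Agent.P242.H254

open Vale.Agent.P233

variable {M : Type*} [MeasurableSpace M] {m : Measure M} {C : Calc m}
variable {N K₁ δ κ : ℝ} {g : M → ℝ} {w φ σ f : M →ₘ[m] ℝ} {s t D : ℝ}

/-- vertex data: `w = min (g, δ) - δ`, `g = d_y² / 2` -/
structure Vx (C : Calc m) (N K₁ δ : ℝ) (g : M → ℝ) (w : M →ₘ[m] ℝ) : Prop where
  N_pos : 0 < N
  K₁_pos : 0 < K₁
  δ_pos : 0 < δ
  nonneg : ∀ x, 0 ≤ g x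
  mem : w ∈ C.W
  eq : ∀ᵐ x ∂m, w x = min (g x) δ - δ
  grad : ∀ᵐ x ∂m, C.Γ w w x = if g x < δ then 2 * g x else 0
  lc : ∀ φ ∈ C.A, 0 ≤ φ → MemLp φ 1 m →
    -I (C.Γ w φ) ≤ (N + K₁ * δ) * I φ + K₁ * I (w * φ)

/-- the functional `ν` -/
def nuP (C : Calc m) (N K₁ δ : ℝ) (w φ : M →ₘ[m] ℝ) : ℝ :=
  (N + K₁ * δ) * I φ + K₁ * I (w * φ) + I (C.Γ w φ)

/-- the part in `W` of `ν_t` -/
def nuW (C : Calc m) (K₁ : ℝ) (w : M →ₘ[m] ℝ) (t : ℝ) : M →ₘ[m] ℝ :=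
  K₁ • C.P t w - C.lap (C.P t w)

/-- the class of `ν_t` -/
def nu (C : Calc m) (N K₁ δ : ℝ) (w : M →ₘ[m] ℝ) (t : ℝ) : M →ₘ[m] ℝ :=
  (N + K₁ * δ) • (1 : M →ₘ[m] ℝ) + nuW C K₁ w t

/-- `e^{-K₁ τ} ∫ σ (P_τ w + δ + N / K₁)` -/
def HH (C : Calc m) (N K₁ δ : ℝ) (w σ : M →ₘ[m] ℝ) (τ : ℝ) : ℝ :=
  Real.exp (-(K₁ * τ)) * (I (σ * C.P τ w) + (δ + N / K₁) * I σ)

/-- `∫_s^t e^{-K₁ τ} ν_τ dτ`, the part in `W` -/
def EW (C : Calc m) (K₁ : ℝ) (w : M →ₘ[m] ℝ) (s t : ℝ) : M →ₘ[m] ℝ :=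
  Real.exp (-(K₁ * s)) • C.P s w - Real.exp (-(K₁ * t)) • C.P t w

/-- `∫_s^t e^{-K₁ τ} ν_τ dτ`, the constant part -/
def cE (N K₁ δ s t : ℝ) : ℝ := (δ + N / K₁) * (Real.exp (-(K₁ * s)) - Real.exp (-(K₁ * t)))

theorem cE_nonneg (hN : 0 < N) (hK : 0 < K₁) (hδ : 0 < δ) (hst : s ≤ t) : 0 ≤ cE N K₁ δ s t := by
  unfold cE
  have h1 : Real.exp (-(K₁ * t)) ≤ Real.exp (-(K₁ * s)) := by
    apply Real.exp_le_exp.2
    have := mul_le_mul_of_nonneg_left hst hK.le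
    linarith
  have : 0 < N / K₁ := by positivity
  exact mul_nonneg (by linarith) (by linarith)

theorem hasDeriv_IP (hC : IsGamma C) (hf : MemLp f 2 m) (hσ : MemLp σ 2 m) (ht : 0 < t) :
    HasDerivAt (fun r => I (σ * C.P r f)) (I (σ * C.lap (C.P t f))) t := by
  have hD := hC.toIsDir
  have h := (hD.DW_DL2 (DW_P hC hf ht)).I_const_mul hσ (hD.P_mem2 t hf)
  exact h.hasDerivAt (Ici_mem_nhds (by linarith))

namespace Vx

variable (hV : Vx C N K₁ δ g w)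
include hV

theorem bds : ∀ᵐ x ∂m, -δ ≤ w x ∧ w x ≤ 0 := by
  filter_upwards [hV.eq] with x hx
  rw [hx]
  have h1 : 0 ≤ min (g x) δ := le_min (hV.nonneg x) hV.δ_pos.le
  have h2 : min (g x) δ ≤ δ := min_le_right _ _
  constructor <;> linarith

theorem memA : w ∈ C.A := by
  refine ⟨hV.mem, mem_top_iff.2 ⟨δ, ?_⟩⟩
  filter_upwards [hV.bds] with x hx
  rw [abs_le]
  exact ⟨hx.1, hx.2.trans hV.δ_pos.le⟩

theorem c_pos : 0 < δ + N / K₁ := by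
  have := hV.δ_pos
  have : 0 < N / K₁ := div_pos hV.N_pos hV.K₁_pos
  linarith

theorem nuP_nonneg (hφ : φ ∈ C.A) (h0 : 0 ≤ φ) (h1 : MemLp φ 1 m) : 0 ≤ nuP C N K₁ δ w φ := by
  have := hV.lc φ hφ h0 h1
  unfold nuP
  linarith

theorem P_bds (hC : IsDir C) (ht : 0 ≤ t) : ∀ᵐ x ∂m, -δ ≤ C.P t w x ∧ C.P t w x ≤ 0 := by
  have h2 := hC.memLp _ hV.mem
  filter_upwards [hC.P_ge ht h2 hV.δ_pos.le (by filter_upwards [hV.bds] with x hx using hx.1),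
    hC.P_le ht h2 le_rfl (by filter_upwards [hV.bds] with x hx using hx.2)] with x a b
  exact ⟨a, b⟩

theorem nuW_mem (hC : IsGamma C) (ht : 0 < t) : nuW C K₁ w t ∈ C.W :=
  hC.toIsDir.sub_mem (hC.smul_mem _ _ (hC.toIsDir.P_memW t hV.mem))
    (IsGamma.P_lap_mem hC ht (hC.memLp _ hV.mem))

theorem P_nuW (hC : IsGamma C) (hs : 0 ≤ s) (ht : 0 < t) :
    C.P s (nuW C K₁ w t) = nuW C K₁ w (s + t) := by
  have hD := hC.toIsDir
  have hw2 := hC.memLp _ hV.mem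
  unfold nuW
  rw [hD.P_sub s (mem_smul _ (hD.P_mem2 t hw2)) (hD.P_isLap ht hw2).2.1,
    hD.P_smul s _ (hD.P_mem2 t hw2), hD.P_P hs ht.le hw2, hD.P_lap_add hs ht hw2]

/-- `∫ σ ν_t = ν(P_t σ)`, the part in `W` -/
theorem I_nuW (hC : IsGamma C) (ht : 0 < t) (hσ : MemLp σ 2 m) :
    I (σ * nuW C K₁ w t) = K₁ * I (w * C.P t σ) + I (C.Γ w (C.P t σ)) := by
  have hD := hC.toIsDir
  have hw2 := hC.memLp _ hV.mem
  have h1 := hD.I_lap_P ht hV.mem hσ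
  unfold nuW
  rw [mul_sub, mul_smul_comm, I_sub (mem_smul _ (mem_mul_22 hσ (hD.P_mem2 t hw2)))
    (mem_mul_22 hσ (hD.P_isLap ht hw2).2.1), I_smul, mul_comm σ (C.lap _), h1,
    ← hD.P_symm t hσ hw2, mul_comm w]
  ring

/-- `∫ σ ν_t = ν(P_t σ)` -/
theorem I_nu (hC : IsGamma C) (hB : C.BEi κ) [SigmaFinite m] (ht : 0 < t) (hσ : MemLp σ 2 m)
    (hσ1 : MemLp σ 1 m) : I (σ * nu C N K₁ δ w t) = nuP C N K₁ δ w (C.P t σ) := by
  have hW := hC.memLp _ (hV.nuW_mem hC ht)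
  unfold nu nuP
  rw [mul_add, mul_smul_comm, mul_one, I_add (mem_smul _ hσ1) (mem_mul_22 hσ hW), I_smul,
    hV.I_nuW hC ht hσ, IsGamma.P_mass hC hB ht.le hσ hσ1]
  ring

theorem nu_ae : ∀ᵐ x ∂m, nu C N K₁ δ w t x = N + K₁ * δ + nuW C K₁ w t x := by
  filter_upwards [add_ae ((N + K₁ * δ) • (1 : M →ₘ[m] ℝ)) (nuW C K₁ w t),
    smul_ae (1 : M →ₘ[m] ℝ) (N + K₁ * δ), one_ae (M := M) (m := m)] with x h1 h2 h3
  unfold nu
  rw [h1, h2, h3, mul_one]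

theorem nu_nonneg (hC : IsGamma C) (hB : C.BEi κ) [SigmaFinite m] (ht : 0 < t) :
    ∀ᵐ x ∂m, 0 ≤ nu C N K₁ δ w t x := by
  have hD := hC.toIsDir
  have hW := hC.memLp _ (hV.nuW_mem hC ht)
  have hc : 0 ≤ N + K₁ * δ := by
    have := hV.N_pos
    have := mul_pos hV.K₁_pos hV.δ_pos
    linarith
  have key := le_const_of_forall2 (F := -nuW C K₁ w t) (mem_neg hW) (K := N + K₁ * δ) hc (by
    intro ψ h0 h2 h1 htop
    have hA : C.P t ψ ∈ C.A := ⟨hD.P_mem ht h2, hD.P_memTop ht.le h2 htop⟩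
    have h3 := hV.nuP_nonneg hA (hD.P_nonneg ht.le h2 h0) (hD.P_L1 ht.le h2 h1).1
    rw [← hV.I_nu hC hB ht h2 h1] at h3
    have e : (-nuW C K₁ w t) * ψ = -(ψ * nuW C K₁ w t) := by ring
    rw [e, I_neg]
    unfold nu at h3
    rw [mul_add, mul_smul_comm, mul_one, I_add (mem_smul _ h1) (mem_mul_22 h2 hW), I_smul] at h3
    linarith)
  filter_upwards [key, neg_ae (nuW C K₁ w t), hV.nu_ae (C := C) (t := t)] with x a b c
  rw [b] at a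
  rw [c]
  linarith

/-! ### the function `HH` -/

theorem HH_deriv (hC : IsGamma C) (hB : C.BEi κ) [SigmaFinite m] (hσ : MemLp σ 2 m)
    (hσ1 : MemLp σ 1 m) (ht : 0 < t) :
    HasDerivAt (HH C N K₁ δ w σ) (-(Real.exp (-(K₁ * t)) * nuP C N K₁ δ w (C.P t σ))) t := by
  have hD := hC.toIsDir
  have hw2 := hC.memLp _ hV.mem
  have h1 := hasDeriv_IP hC hw2 hσ ht
  have h2 : HasDerivAt (fun s : ℝ => Real.exp (-(K₁ * s))) (Real.exp (-(K₁ * t)) * (-K₁)) t := by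
    have h3 : HasDerivAt (fun s : ℝ => -(K₁ * s)) (-(K₁ * 1)) t :=
      ((hasDerivAt_id t).const_mul K₁).neg
    rw [mul_one] at h3
    exact h3.exp
  refine (h2.mul (h1.add_const ((δ + N / K₁) * I σ))).congr_deriv ?_
  have h4 := hD.I_lap_P ht hV.mem hσ
  rw [mul_comm] at h4
  have hK := hV.K₁_pos.ne'
  unfold nuP
  rw [h4, IsGamma.P_mass hC hB ht.le hσ hσ1, ← hD.P_symm t hw2 hσ, mul_comm (C.P t w)]
  field_simp
  ring

omit hV in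
theorem HH_cont (hC : IsGamma C) (hw : MemLp w 2 m) (hσ : MemLp σ 2 m) :
    Continuous (HH C N K₁ δ w σ) := by
  have h := hC.toIsDir.P_cont_I hw hσ
  have e : (fun s => I (σ * C.P s w)) = fun s => I (C.P s w * σ) := by
    funext s; rw [mul_comm]
  unfold HH
  refine Continuous.mul (by fun_prop) (Continuous.add ?_ continuous_const)
  rw [e]; exact h

theorem HH_sub_nonneg (hC : IsGamma C) (hB : C.BEi κ) [SigmaFinite m] (h0 : 0 ≤ σ)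
    (hσ : MemLp σ 2 m) (hσ1 : MemLp σ 1 m) (hσt : MemLp σ ∞ m) (hs : 0 ≤ s) (hst : s ≤ t) :
    0 ≤ HH C N K₁ δ w σ s - HH C N K₁ δ w σ t := by
  have hD := hC.toIsDir
  have hmv := Convex.image_sub_le_mul_sub_of_deriv_le (convex_Icc s t)
    (f := HH C N K₁ δ w σ) (HH_cont hC (hC.memLp _ hV.mem) hσ).continuousOn
    (fun τ hτ => by
      rw [interior_Icc] at hτ
      exact (hV.HH_deriv hC hB hσ hσ1
        (lt_of_le_of_lt hs hτ.1)).differentiableAt.differentiableWithinAt)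
    (C := 0)
    (fun τ hτ => by
      rw [interior_Icc] at hτ
      have hτ0 := lt_of_le_of_lt hs hτ.1
      rw [(hV.HH_deriv hC hB hσ hσ1 hτ0).deriv]
      have hA : C.P τ σ ∈ C.A := ⟨hD.P_mem hτ0 hσ, hD.P_memTop hτ0.le hσ hσt⟩
      have h3 := hV.nuP_nonneg hA (hD.P_nonneg hτ0.le hσ h0) (hD.P_L1 hτ0.le hσ hσ1).1
      have := mul_nonneg (Real.exp_pos (-(K₁ * τ))).le h3
      linarith) s (Set.left_mem_Icc.2 hst) t (Set.right_mem_Icc.2 hst) hst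
  linarith

theorem HH_sub_le (hC : IsGamma C) (hB : C.BEi κ) [SigmaFinite m] (h0 : 0 ≤ σ)
    (hσ : MemLp σ 2 m) (hσ1 : MemLp σ 1 m) (hσt : MemLp σ ∞ m) (hs : 0 ≤ s) (hst : s ≤ t)
    (hD' : ∀ τ ∈ Ioo s t, nuP C N K₁ δ w (C.P τ σ) ≤ D) :
    HH C N K₁ δ w σ s - HH C N K₁ δ w σ t ≤ D * (t - s) := by
  have hD := hC.toIsDir
  have hmv := Convex.mul_sub_le_image_sub_of_le_deriv (convex_Icc s t)
    (f := HH C N K₁ δ w σ) (HH_cont hC (hC.memLp _ hV.mem) hσ).continuousOn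
    (fun τ hτ => by
      rw [interior_Icc] at hτ
      exact (hV.HH_deriv hC hB hσ hσ1
        (lt_of_le_of_lt hs hτ.1)).differentiableAt.differentiableWithinAt)
    (C := -D)
    (fun τ hτ => by
      rw [interior_Icc] at hτ
      have hτ0 := lt_of_le_of_lt hs hτ.1
      rw [(hV.HH_deriv hC hB hσ hσ1 hτ0).deriv]
      have hA : C.P τ σ ∈ C.A := ⟨hD.P_mem hτ0 hσ, hD.P_memTop hτ0.le hσ hσt⟩
      have h3 := hV.nuP_nonneg hA (hD.P_nonneg hτ0.le hσ h0) (hD.P_L1 hτ0.le hσ hσ1).1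
      have h4 := hD' τ hτ
      have h5 : Real.exp (-(K₁ * τ)) ≤ 1 := by
        rw [Real.exp_le_one_iff]
        have := mul_nonneg hV.K₁_pos.le hτ0.le
        linarith
      have h6 : Real.exp (-(K₁ * τ)) * nuP C N K₁ δ w (C.P τ σ) ≤ D :=
        (mul_le_mul_of_nonneg_right h5 h3).trans (by linarith)
      linarith) s (Set.left_mem_Icc.2 hst) t (Set.right_mem_Icc.2 hst) hst
  linarith

/-! ### the differences `E(s,t)` -/

theorem EW_mem (hC : IsDir C) (s t : ℝ) : EW C K₁ w s t ∈ C.W :=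
  hC.sub_mem (hC.smul_mem _ _ (hC.P_memW s hV.mem)) (hC.smul_mem _ _ (hC.P_memW t hV.mem))

theorem EW_top (hC : IsDir C) (hs : 0 ≤ s) (ht : 0 ≤ t) : MemLp (EW C K₁ w s t) ∞ m := by
  have h2 := hC.memLp _ hV.mem
  exact mem_sub (mem_smul _ (hC.P_memTop hs h2 hV.memA.2))
    (mem_smul _ (hC.P_memTop ht h2 hV.memA.2))

theorem P_EW (hC : IsDir C) {τ : ℝ} (hτ : 0 ≤ τ) (hs : 0 ≤ s) (ht : 0 ≤ t) :
    C.P τ (EW C K₁ w s t) = Real.exp (K₁ * τ) • EW C K₁ w (s + τ) (t + τ) := by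
  have h2 := hC.memLp _ hV.mem
  unfold EW
  rw [hC.P_sub τ (mem_smul _ (hC.P_mem2 s h2)) (mem_smul _ (hC.P_mem2 t h2)),
    hC.P_smul τ _ (hC.P_mem2 s h2), hC.P_smul τ _ (hC.P_mem2 t h2), hC.P_P hτ hs h2,
    hC.P_P hτ ht h2, smul_sub, smul_smul, smul_smul, ← Real.exp_add, ← Real.exp_add,
    add_comm τ s, add_comm τ t]
  congr 3 <;> ring

theorem I_EW (hC : IsDir C) (hσ : MemLp σ 2 m) :
    I (σ * EW C K₁ w s t) + cE N K₁ δ s t * I σ = HH C N K₁ δ w σ s - HH C N K₁ δ w σ t := by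
  have h2 := hC.memLp _ hV.mem
  unfold EW cE HH
  rw [mul_sub, mul_smul_comm, mul_smul_comm, I_sub (mem_smul _ (mem_mul_22 hσ (hC.P_mem2 s h2)))
    (mem_smul _ (mem_mul_22 hσ (hC.P_mem2 t h2))), I_smul, I_smul]
  ring

theorem EW_ge (hC : IsGamma C) (hB : C.BEi κ) [SigmaFinite m] (hs : 0 ≤ s) (hst : s ≤ t) :
    ∀ᵐ x ∂m, 0 ≤ EW C K₁ w s t x + cE N K₁ δ s t := by
  have hD := hC.toIsDir
  have hW := hC.memLp _ (hV.EW_mem hD s t)
  have hc := cE_nonneg hV.N_pos hV.K₁_pos hV.δ_pos hst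
  have key := le_const_of_forall2 (F := -EW C K₁ w s t) (mem_neg hW) hc (by
    intro ψ h0 h2 h1 htop
    have h3 := hV.HH_sub_nonneg hC hB h0 h2 h1 htop hs hst
    rw [← hV.I_EW hD h2] at h3
    have e : (-EW C K₁ w s t) * ψ = -(ψ * EW C K₁ w s t) := by ring
    rw [e, I_neg]
    linarith)
  filter_upwards [key, neg_ae (EW C K₁ w s t)] with x a b
  rw [b] at a
  linarith

/-- `P_t w + δ ≤ e^{K₁ t} (w + δ) + N (e^{K₁ t} - 1) / K₁` -/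
theorem b_le (hC : IsGamma C) (hB : C.BEi κ) [SigmaFinite m] (ht : 0 ≤ t) :
    ∀ᵐ x ∂m, C.P t w x + δ ≤ Real.exp (K₁ * t) * (w x + δ)
      + N / K₁ * (Real.exp (K₁ * t) - 1) := by
  have hD := hC.toIsDir
  filter_upwards [hV.EW_ge hC hB le_rfl ht,
    sub_ae (Real.exp (-(K₁ * 0)) • C.P 0 w) (Real.exp (-(K₁ * t)) • C.P t w),
    smul_ae (C.P 0 w) (Real.exp (-(K₁ * 0))), smul_ae (C.P t w) (Real.exp (-(K₁ * t)))]
    with x h1 h2 h3 h4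
  unfold EW cE at h1
  rw [h2, h3, h4, hD.P_zero_time (hC.memLp _ hV.mem)] at h1
  simp only [mul_zero, neg_zero, Real.exp_zero, one_mul] at h1
  have h5 : Real.exp (K₁ * t) * Real.exp (-(K₁ * t)) = 1 := by rw [← Real.exp_add]; simp
  have h6 := mul_nonneg (Real.exp_pos (K₁ * t)).le h1
  have h7 : Real.exp (K₁ * t) * (w x - Real.exp (-(K₁ * t)) * C.P t w x
      + (δ + N / K₁) * (1 - Real.exp (-(K₁ * t)))) = Real.exp (K₁ * t) * w x - C.P t w x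
      + (δ + N / K₁) * (Real.exp (K₁ * t) - 1) := by
    linear_combination (-C.P t w x - (δ + N / K₁)) * h5
  rw [h7] at h6
  linarith

end Vx

end Vale.Agent.P242.H254

end
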