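import Vale.Agent.P242.H254.E1b

/-! # P242 / H254 / E1c : pointwise bounds for `b = P_t w`, `e`, `q`; the inequality (E1h) -/

set_option linter.all false

open MeasureTheory Filter Topology Set
open scoped ENNReal NNReal

noncomputable section

namespace Vale.Agent.P242.H254

open Vale.Agent.P233

variable {M : Type*} [MeasurableSpace M] {m : Measure M} {C : Calc m}
variable {N K₁ δ κ : ℝ} {g : M → ℝ} {w φ σ f : M →ₘ[m] ℝ} {s t D : ℝ}

/-- `e^x - 1 ≤ x e^x` -/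
theorem exp_sub_one_le (x : ℝ) : Real.exp x - 1 ≤ x * Real.exp x := by
  have h := Real.add_one_le_exp (-x)
  have h2 : Real.exp x * Real.exp (-x) = 1 := by rw [← Real.exp_add]; simp
  nlinarith [Real.exp_pos x, mul_le_mul_of_nonneg_left h (Real.exp_pos x).le]

/-- `e^x - 1 - x ≤ x² e^x` for `0 ≤ x` -/
theorem exp_sub_one_sub_le {x : ℝ} (hx : 0 ≤ x) : Real.exp x - 1 - x ≤ x ^ 2 * Real.exp x := by
  have h := exp_sub_one_le x
  have h1 : Real.exp x - 1 ≤ x * Real.exp x := h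
  have h2 : x * (Real.exp x - 1) ≤ x * (x * Real.exp x) := mul_le_mul_of_nonneg_left h1 hx
  nlinarith

namespace Vx

variable (hV : Vx C N K₁ δ g w)
include hV

/-- `w + δ = min (g, δ)` -/
theorem wd : ∀ᵐ x ∂m, 0 ≤ w x + δ ∧ w x + δ ≤ g x ∧ w x + δ ≤ δ := by
  filter_upwards [hV.eq] with x hx
  rw [hx]
  have h1 : 0 ≤ min (g x) δ := le_min (hV.nonneg x) hV.δ_pos.le
  have h2 : min (g x) δ ≤ δ := min_le_right _ _
  have h3 : min (g x) δ ≤ g x := min_le_left _ _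
  refine ⟨by linarith, by linarith, by linarith⟩

theorem Γ_le : ∀ᵐ x ∂m, C.Γ w w x ≤ 2 * (w x + δ) := by
  filter_upwards [hV.grad, hV.eq] with x h1 h2
  rw [h1, h2]
  split_ifs with h
  · rw [min_eq_left h.le]; linarith
  · rw [min_eq_right (not_lt.1 h)]
    have := hV.δ_pos
    linarith

theorem Γ_top : MemLp (C.Γ w w) ∞ m := by
  refine mem_top_iff.2 ⟨2 * δ, ?_⟩
  filter_upwards [hV.Γ_le, hV.wd, hV.grad] with x h1 h2 h3
  have h4 : 0 ≤ C.Γ w w x := by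
    rw [h3]
    split_ifs
    · have := hV.nonneg x; linarith
    · exact le_rfl
  rw [abs_of_nonneg h4]
  linarith [h2.2.2]

/-- `P_t Γ(w,w) ≤ 2 (P_t w + δ)` -/
theorem PΓ_le (hC : IsDir C) (ht : 0 ≤ t) :
    ∀ᵐ x ∂m, C.P t (C.Γ w w) x ≤ 2 * (C.P t w x + δ) := by
  have h2 := hC.memLp _ hV.mem
  have hΓ2 : MemLp (C.Γ w w) 2 m := hC.Γ_mem2 hV.mem hV.Γ_top hV.mem
  have hδ := hV.δ_pos
  have h := hC.P_le (K := 2 * δ) ht (mem_sub hΓ2 (mem_smul 2 h2)) (by linarith) (by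
    filter_upwards [sub_ae (C.Γ w w) ((2 : ℝ) • w), smul_ae w (2 : ℝ), hV.Γ_le] with x a b c
    rw [a, b]; linarith)
  rw [hC.P_sub t hΓ2 (mem_smul 2 h2), hC.P_smul t _ h2] at h
  filter_upwards [h, sub_ae (C.P t (C.Γ w w)) ((2 : ℝ) • C.P t w), smul_ae (C.P t w) (2 : ℝ)]
    with x a b c
  rw [b, c] at a
  linarith

/-- (E1h), first form -/
theorem Γb_lap (hC : IsGamma C) (hBE : C.BE κ N) [SigmaFinite m] (ht : 0 < t) :
    ∀ᵐ x ∂m, C.Γ (C.P t w) (C.P t w) x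
      + 2 * t / N * Real.exp (-(2 * |κ| * t)) * C.lap (C.P t w) x ^ 2
      ≤ Real.exp (-(2 * κ * t)) * (2 * (C.P t w x + δ)) := by
  have hD := hC.toIsDir
  have hN := hV.N_pos
  have hw2 := hC.memLp _ hV.mem
  have hΓ2 : MemLp (C.Γ w w) 2 m := hD.Γ_mem2 hV.mem hV.Γ_top hV.mem
  have hΓ1 := hC.mem1 _ hV.mem
  have hPW := hD.P_mem ht hw2
  set c : ℝ := 2 * t / N * Real.exp (-(2 * |κ| * t)) with hc
  have m1 : MemLp (C.Γ (C.P t w) (C.P t w)) 1 m := hC.mem1 _ hPW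
  have m2 : MemLp (C.lap (C.P t w) ^ 2 : M →ₘ[m] ℝ) 1 m := mem_sq (hD.P_isLap ht hw2).2.1
  have m3 : MemLp (C.P t (C.Γ w w)) 1 m := (hD.P_L1 ht.le hΓ2 hΓ1).1
  have m4 := mem_add m1 (mem_smul c m2)
  have m5 := mem_smul (Real.exp (-(2 * κ * t))) m3
  have key := le_const_of_forall (F := C.Γ (C.P t w) (C.P t w) + c • C.lap (C.P t w) ^ 2
    - Real.exp (-(2 * κ * t)) • C.P t (C.Γ w w)) (mem_sub m4 m5) le_rfl (by
    intro ψ h0 h2 h1 htop
    have h := gradLap_weak hC hN hBE ht hV.memA h0 h2 htop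
    rw [← hc] at h
    have n1 := mem_mul_top htop m1
    have n2 := mem_mul_top htop m2
    have n3 := mem_mul_top htop m3
    have e : (C.Γ (C.P t w) (C.P t w) + c • C.lap (C.P t w) ^ 2
        - Real.exp (-(2 * κ * t)) • C.P t (C.Γ w w)) * ψ
        = ψ * C.Γ (C.P t w) (C.P t w) + c • (ψ * C.lap (C.P t w) ^ 2)
          - Real.exp (-(2 * κ * t)) • (ψ * C.P t (C.Γ w w)) := by algebra
    rw [e, I_sub (mem_add n1 (mem_smul _ n2)) (mem_smul _ n3), I_add n1 (mem_smul _ n2), I_smul,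
      I_smul, ← hD.P_symm t h2 hΓ2]
    linarith)
  filter_upwards [key, hV.PΓ_le hD ht.le,
    sub_ae (C.Γ (C.P t w) (C.P t w) + c • C.lap (C.P t w) ^ 2)
      (Real.exp (-(2 * κ * t)) • C.P t (C.Γ w w)),
    add_ae (C.Γ (C.P t w) (C.P t w)) (c • C.lap (C.P t w) ^ 2),
    smul_ae (C.lap (C.P t w) ^ 2) c, smul_ae (C.P t (C.Γ w w)) (Real.exp (-(2 * κ * t))),
    sq_ae (C.lap (C.P t w))] with x a1 a2 a3 a4 a5 a6 a7
  rw [a3, a4, a5, a6, a7] at a1
  have := mul_le_mul_of_nonneg_left a2 (Real.exp_pos (-(2 * κ * t))).le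
  linarith

theorem lap_ae (t : ℝ) : ∀ᵐ x ∂m, C.lap (C.P t w) x
    = N + K₁ * (C.P t w x + δ) - nu C N K₁ δ w t x := by
  filter_upwards [hV.nu_ae (C := C) (t := t), sub_ae (K₁ • C.P t w) (C.lap (C.P t w)),
    smul_ae (C.P t w) K₁] with x a b c
  rw [a]
  unfold nuW
  rw [b, c]
  ring

/-- **(E1h)** `Γ(b,b) ≤ 2 b' + 4 t ν_t + tiny`, `b' = b + δ - N t` -/
theorem E1h (hC : IsGamma C) (hBE : C.BE κ N) [SigmaFinite m] (ht : 0 < t) (ht1 : t ≤ 1) :
    ∀ᵐ x ∂m, C.Γ (C.P t w) (C.P t w) x ≤ 2 * (C.P t w x + δ - N * t)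
      + 4 * t * nu C N K₁ δ w t x
      + 4 * |κ| * t * (Real.exp (2 * |κ|) * (C.P t w x + δ) + N * t) := by
  have hD := hC.toIsDir
  have hN := hV.N_pos
  filter_upwards [hV.Γb_lap hC hBE ht, hV.lap_ae (C := C) t, hV.P_bds hD ht.le,
    hV.nu_nonneg hC (hC.bei hN hBE) ht] with x h1 h2 h3 h4
  set a := C.P t w x + δ with ha
  set ν := nu C N K₁ δ w t x with hν
  set E := Real.exp (-(2 * |κ| * t)) with hE
  have ha0 : 0 ≤ a := by linarith [h3.1]
  have hE0 : 0 < E := Real.exp_pos _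
  have hE1 : E ≤ 1 := by
    rw [hE, Real.exp_le_one_iff]
    have := abs_nonneg κ
    have : 0 ≤ 2 * |κ| * t := by positivity
    linarith
  have hE2 : 1 - E ≤ 2 * |κ| * t := by
    have := Real.add_one_le_exp (-(2 * |κ| * t))
    rw [← hE] at this
    linarith
  -- the square
  have s1 : N ^ 2 - 2 * N * ν ≤ C.lap (C.P t w) x ^ 2 := by
    rw [h2]
    have h5 : 0 ≤ K₁ * a := mul_nonneg hV.K₁_pos.le ha0
    nlinarith [sq_nonneg (K₁ * a - ν), mul_nonneg hN.le h5]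
  have s2 : 2 * t * (E * N - 2 * ν * E)
      ≤ 2 * t / N * E * C.lap (C.P t w) x ^ 2 := by
    have e1 : 2 * t * (E * N - 2 * ν * E) = 2 * t / N * E * (N ^ 2 - 2 * N * ν) := by
      field_simp
    rw [e1]
    exact mul_le_mul_of_nonneg_left s1 (by positivity)
  have s3 : Real.exp (-(2 * κ * t)) * (2 * a) ≤ 2 * a + 4 * |κ| * t * Real.exp (2 * |κ|) * a := by
    have t1 : Real.exp (-(2 * κ * t)) ≤ Real.exp (2 * |κ| * t) := by
      apply Real.exp_le_exp.2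
      have := neg_le_abs κ
      have h6 := mul_le_mul_of_nonneg_right this ht.le
      linarith
    have t2 := exp_sub_one_le (2 * |κ| * t)
    have t3 : Real.exp (2 * |κ| * t) ≤ Real.exp (2 * |κ|) := by
      apply Real.exp_le_exp.2
      have := abs_nonneg κ
      nlinarith
    have t4 : 2 * |κ| * t * Real.exp (2 * |κ| * t) ≤ 2 * |κ| * t * Real.exp (2 * |κ|) :=
      mul_le_mul_of_nonneg_left t3 (by have := abs_nonneg κ; positivity)
    have t5 : Real.exp (-(2 * κ * t)) ≤ 1 + 2 * |κ| * t * Real.exp (2 * |κ|) := by linarith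
    have t6 := mul_le_mul_of_nonneg_right t5 (by linarith : 0 ≤ 2 * a)
    linarith
  have s4 : 4 * t * ν * E ≤ 4 * t * ν := by
    have : 0 ≤ 4 * t * ν := by positivity
    nlinarith
  have s5 : 2 * t * N * (1 - E) ≤ 2 * t * N * (2 * |κ| * t) :=
    mul_le_mul_of_nonneg_left hE2 (by positivity)
  nlinarith

/-! ### bounds with constants, `t ≤ 1` -/

theorem b_le' (hC : IsGamma C) (hB : C.BEi κ) [SigmaFinite m] (ht : 0 ≤ t) (ht1 : t ≤ 1) :
    ∀ᵐ x ∂m, C.P t w x + δ ≤ Real.exp K₁ * (w x + δ + N * t) := by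
  filter_upwards [hV.b_le hC hB ht, hV.wd] with x h1 h2
  have hK := hV.K₁_pos
  have hN := hV.N_pos
  have e1 : Real.exp (K₁ * t) ≤ Real.exp K₁ := by
    apply Real.exp_le_exp.2
    nlinarith
  have e2 := exp_sub_one_le (K₁ * t)
  have e3 : N / K₁ * (Real.exp (K₁ * t) - 1) ≤ N / K₁ * (K₁ * t * Real.exp K₁) := by
    refine mul_le_mul_of_nonneg_left (e2.trans ?_) (by positivity)
    exact mul_le_mul_of_nonneg_left e1 (by positivity)
  have e4 : N / K₁ * (K₁ * t * Real.exp K₁) = Real.exp K₁ * (N * t) := by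
    field_simp
  have e5 := mul_le_mul_of_nonneg_right e1 h2.1
  rw [e4] at e3
  linarith

/-- `Γ(b,b) ≤ C (min (g,δ) + t)` -/
theorem Γb_le (hC : IsGamma C) (hB : C.BEi κ) [SigmaFinite m] (ht : 0 ≤ t) (ht1 : t ≤ 1) :
    ∀ᵐ x ∂m, C.Γ (C.P t w) (C.P t w) x
      ≤ 2 * Real.exp (2 * |κ|) * Real.exp K₁ * (w x + δ + N * t) := by
  have hD := hC.toIsDir
  filter_upwards [le_iff_ae.1 (IsGamma.P_Γ_le_P hC hB ht hV.mem hV.Γ_top),
    smul_ae (C.P t (C.Γ w w)) (Real.exp (-(2 * κ * t))), hV.PΓ_le hD ht,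
    hV.b_le' hC hB ht ht1, hV.P_bds hD ht] with x h1 h2 h3 h4 h5
  rw [h2] at h1
  have e1 : Real.exp (-(2 * κ * t)) ≤ Real.exp (2 * |κ|) := by
    apply Real.exp_le_exp.2
    have := neg_le_abs κ
    have h6 := mul_le_mul_of_nonneg_right this ht
    have h7 := mul_le_mul_of_nonneg_left ht1 (abs_nonneg κ)
    linarith
  have h6 : 0 ≤ 2 * (C.P t w x + δ) := by linarith [h5.1]
  calc C.Γ (C.P t w) (C.P t w) x ≤ Real.exp (-(2 * κ * t)) * C.P t (C.Γ w w) x := h1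
    _ ≤ Real.exp (-(2 * κ * t)) * (2 * (C.P t w x + δ)) :=
        mul_le_mul_of_nonneg_left h3 (Real.exp_pos _).le
    _ ≤ Real.exp (2 * |κ|) * (2 * (C.P t w x + δ)) := mul_le_mul_of_nonneg_right e1 h6
    _ ≤ Real.exp (2 * |κ|) * (2 * (Real.exp K₁ * (w x + δ + N * t))) :=
        mul_le_mul_of_nonneg_left (by linarith) (Real.exp_pos _).le
    _ = _ := by ring

end Vx

end Vale.Agent.P242.H254

end
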