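import Vale.Agent.P242.H254.E1w

/-! # P242 / H254 / E1d : the gradient of `e`, of `ν_t`, averaged (first half of (E1)) -/

set_option linter.all false

open MeasureTheory Filter Topology Set
open scoped ENNReal NNReal

noncomputable section

namespace Vale.Agent.P242.H254

open Vale.Agent.P233

variable {M : Type*} [MeasurableSpace M] {m : Measure M} {C : Calc m}
variable {N K₁ δ κ : ℝ} {g : M → ℝ} {w σ f h : M →ₘ[m] ℝ} {s t D T A B lo hi : ℝ}
variable {φ : ℝ → M →ₘ[m] ℝ}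

/-! ### the class `gr` -/

section gr
variable (hC : IsDir C)
include hC

theorem gr_sq (hf : f ∈ C.W) : ∀ᵐ x ∂m, C.gr f x ^ 2 = C.Γ f f x := by
  filter_upwards [C.gr_ae f, hC.Γ_nonneg_ae hf] with x a b
  rw [a, Real.sq_sqrt b]

theorem gr_sq' (hf : f ∈ C.W) : C.gr f ^ 2 = C.Γ f f := by
  rw [eq_iff_ae]
  filter_upwards [sq_ae (C.gr f), gr_sq hC hf] with x a b
  rw [a, b]

theorem gr_mem2 (hf : f ∈ C.W) : MemLp (C.gr f) 2 m :=
  memLp_two_of_sq (by rw [gr_sq' hC hf]; exact hC.mem1 f hf)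

theorem gr_smul (c : ℝ) (hf : f ∈ C.W) : ∀ᵐ x ∂m, C.gr (c • f) x = |c| * C.gr f x := by
  have e : C.Γ (c • f) (c • f) = (c ^ 2) • C.Γ f f := by
    rw [hC.smul_left c f hf _ (hC.smul_mem c f hf), hC.Γ_smul_right c hf hf, smul_smul, sq]
  filter_upwards [C.gr_ae f, C.gr_ae (c • f), smul_ae (C.Γ f f) (c ^ 2)] with x a b d
  rw [a, b, e, d, Real.sqrt_mul (sq_nonneg c), Real.sqrt_sq_eq_abs]

theorem gr_add_le (hf : f ∈ C.W) (hh : h ∈ C.W) :
    ∀ᵐ x ∂m, C.gr (f + h) x ≤ C.gr f x + C.gr h x := by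
  have hfh := hC.add_mem _ hf _ hh
  have e : C.Γ (f + h) (f + h) = C.Γ f f + (2 : ℝ) • C.Γ f h + C.Γ h h := by
    rw [hC.add_left _ hf _ hh _ hfh, hC.Γ_add_right hf hf hh, hC.Γ_add_right hh hf hh,
      hC.symm _ hh _ hf]
    algebra
  filter_upwards [C.gr_ae f, C.gr_ae h, C.gr_ae (f + h), hC.Γ_abs_ae hf hh, hC.Γ_nonneg_ae hf,
    hC.Γ_nonneg_ae hh, add_ae (C.Γ f f + (2 : ℝ) • C.Γ f h) (C.Γ h h),
    add_ae (C.Γ f f) ((2 : ℝ) • C.Γ f h), smul_ae (C.Γ f h) (2 : ℝ)] with x a1 a2 a3 a4 a5 a6 b1 b2 b3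
  rw [a1, a2, a3, e, b1, b2, b3]
  refine Real.sqrt_le_iff.2 ⟨add_nonneg (Real.sqrt_nonneg _) (Real.sqrt_nonneg _), ?_⟩
  have c1 := Real.sq_sqrt a5
  have c2 := Real.sq_sqrt a6
  have c3 := (le_abs_self _).trans a4
  nlinarith

end gr

/-- averages -/
theorem av_le {ψ F G : M →ₘ[m] ℝ} (h0 : 0 ≤ ψ) (hF : MemLp (ψ * F : M →ₘ[m] ℝ) 1 m)
    (hG : MemLp (ψ * G : M →ₘ[m] ℝ) 1 m) (h : ∀ᵐ x ∂m, F x ≤ G x) : I (ψ * F) ≤ I (ψ * G) := by
  refine I_mono hF hG ?_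
  rw [le_iff_ae]
  filter_upwards [mul_ae ψ F, mul_ae ψ G, h, nonneg_iff_ae.1 h0] with x a b c d
  rw [a, b]
  exact mul_le_mul_of_nonneg_left c d

theorem av_nn {ψ F : M →ₘ[m] ℝ} (h0 : 0 ≤ ψ) (h : ∀ᵐ x ∂m, 0 ≤ F x) : 0 ≤ I (ψ * F) :=
  I_nonneg (mul_nonneg h0 (nonneg_iff_ae.2 h))

namespace Vx

variable (hV : Vx C N K₁ δ g w) (hC : IsGamma C) (hB : C.BEi κ)
include hV hC

/-- `EW (τ) (2τ)` is smoothed -/
theorem EW_dyadic {τ : ℝ} (hτ : 0 ≤ τ) :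
    EW C K₁ w τ (2 * τ) = Real.exp (-(K₁ * (τ / 2))) •
      C.P (τ / 2) (EW C K₁ w (τ / 2) (3 * τ / 2)) := by
  have h1 := hV.P_EW hC.toIsDir (τ := τ / 2) (s := τ / 2) (t := 3 * τ / 2) (by linarith)
    (by linarith) (by linarith)
  have e1 : τ / 2 + τ / 2 = τ := by ring
  have e2 : 3 * τ / 2 + τ / 2 = 2 * τ := by ring
  rw [e1, e2] at h1
  rw [h1, smul_smul, ← Real.exp_add]
  have e3 : -(K₁ * (τ / 2)) + K₁ * (τ / 2) = 0 := by ring
  rw [e3, Real.exp_zero, one_smul]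

variable [SigmaFinite m] (hW : Win C φ w δ A B t lo hi)

include hB hW in
/-- `∫ φ_r (E(s,T) + const) ≤ D (T - s)` -/
theorem av_EW (hlo : 0 < lo) {r : ℝ} (hr : 0 < r) (hs : 0 ≤ s) (hst : s ≤ T)
    (hD : ∀ τ ∈ Ioo s T, nuP C N K₁ δ w (φ (r + τ)) ≤ D) :
    ∫ z, φ r z * |EW C K₁ w s T z + cE N K₁ δ s T| ∂m ≤ D * (T - s) := by
  have hDir := hC.toIsDir
  have hcen := hW.cen
  have h2 := hcen.mem2 r hr
  have h1 := hcen.mem1 r hr
  have h3 := hV.HH_sub_le (D := D) hC hB (hcen.nonneg r hr) h2 h1 (hcen.top r hr) hs hst (by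
    intro τ hτ
    rw [hcen.semi r τ hr (hs.trans hτ.1.le)]
    exact hD τ hτ)
  rw [← hV.I_EW hDir h2, hcen.mass r hr, mul_one] at h3
  have hEW2 := hC.memLp _ (hV.EW_mem hDir s T)
  have e1 : ∫ z, φ r z * |EW C K₁ w s T z + cE N K₁ δ s T| ∂m
      = I (φ r * EW C K₁ w s T) + cE N K₁ δ s T := by
    have e2 : I (φ r * EW C K₁ w s T) + cE N K₁ δ s T
        = I (φ r * EW C K₁ w s T) + cE N K₁ δ s T * I (φ r) := by rw [hcen.mass r hr, mul_one]
    rw [e2]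
    unfold I
    rw [← integral_const_mul, integral_congr_ae (mul_ae (φ r) (EW C K₁ w s T)),
      ← integral_add]
    · refine integral_congr_ae ?_
      filter_upwards [hV.EW_ge hC hB hs hst] with z hz
      rw [abs_of_nonneg hz]
      ring
    · exact (int_of_mem (mem_mul_22 h2 hEW2)).congr (mul_ae _ _)
    · exact (int_of_mem h1).const_mul _
  rw [e1]
  exact h3

include hB hW in
/-- one dyadic step -/
theorem gr_EW_dyadic (hlo : 0 < lo) (hA : 1 ≤ A) (hB0 : 0 ≤ B) (hD0 : 0 ≤ D)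
    (hD : ∀ σ, lo ≤ σ → σ ≤ hi → nuP C N K₁ δ w (φ σ) ≤ D) {τ : ℝ} (hτ : 0 < τ)
    (hs : lo ≤ s) (hwin : A * (s + τ) + 2 * τ ≤ hi) :
    I (φ s * C.gr (EW C K₁ w τ (2 * τ))) ≤ 2 * B * D * √τ := by
  have hDir := hC.toIsDir
  have hcen := hW.cen
  have hs0 : 0 < s := hlo.trans_le hs
  set F := EW C K₁ w (τ / 2) (3 * τ / 2) with hF
  have hFW := hV.EW_mem hDir (τ / 2) (3 * τ / 2)
  have hF2 := hC.memLp _ hFW
  have hFt := hV.EW_top hDir (by linarith : 0 ≤ τ / 2) (by linarith : 0 ≤ 3 * τ / 2)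
  have hτ2 : 0 < τ / 2 := by linarith
  have hPF := hDir.P_mem hτ2 hF2
  set r := A * (s + τ / 2) with hr
  have hrlo : lo ≤ r := by nlinarith
  have hr0 : 0 < r := hlo.trans_le hrlo
  have hrA : r ≤ A * (s + τ) := by
    rw [hr]; exact mul_le_mul_of_nonneg_left (by linarith) (by linarith)
  -- K1a
  have h1 := hW.K1a s (τ / 2) hs hτ2 (by linarith) F hF2 hFt (cE N K₁ δ (τ / 2) (3 * τ / 2))
  have h2 := hV.av_EW hC hB hW hlo hr0 hτ2.le (by linarith : τ / 2 ≤ 3 * τ / 2) (D := D) (by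
    intro σ hσ
    refine hD _ ?_ ?_
    · linarith [hσ.1]
    · linarith [hσ.2])
  have h3 : D * (3 * τ / 2 - τ / 2) = D * τ := by ring
  rw [h3] at h2
  have h4 : I (φ s * C.gr (C.P (τ / 2) F)) ≤ B / √(τ / 2) * (D * τ) :=
    h1.trans (mul_le_mul_of_nonneg_left h2 (by positivity))
  have h5 : B / √(τ / 2) * (D * τ) ≤ 2 * B * D * √τ := by
    have e1 : √(τ / 2) = √τ / √2 := Real.sqrt_div hτ.le 2
    have e2 : τ = √τ * √τ := (Real.mul_self_sqrt hτ.le).symm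
    have e3 : 0 < √τ := Real.sqrt_pos.2 hτ
    have e4 : √2 ≤ 2 := by
      rw [Real.sqrt_le_left (by norm_num)]; norm_num
    have e5 : B / √(τ / 2) * (D * τ) = √2 * (B * D * √τ) := by
      rw [e1]
      have : 0 < √(2 : ℝ) := by positivity
      field_simp
      rw [Real.sq_sqrt hτ.le]
      ring
    rw [e5]
    have : 0 ≤ B * D * √τ := by positivity
    nlinarith
  -- the factor
  refine le_trans ?_ (h4.trans h5)
  have g1 : ∀ᵐ x ∂m, C.gr (EW C K₁ w τ (2 * τ)) x ≤ C.gr (C.P (τ / 2) F) x := by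
    rw [hV.EW_dyadic hC hτ.le]
    filter_upwards [gr_smul hDir (Real.exp (-(K₁ * (τ / 2)))) hPF,
      nonneg_iff_ae.1 (C.gr_nonneg (C.P (τ / 2) F))] with x a b
    rw [a, abs_of_pos (Real.exp_pos _)]
    have : Real.exp (-(K₁ * (τ / 2))) ≤ 1 := by
      rw [Real.exp_le_one_iff]
      have := mul_nonneg hV.K₁_pos.le hτ2.le
      linarith
    exact mul_le_of_le_one_left b this
  exact av_le (hcen.nonneg s hs0)
    (mem_mul_22 (hcen.mem2 s hs0) (gr_mem2 hDir (hV.EW_mem hDir _ _)))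
    (mem_mul_22 (hcen.mem2 s hs0) (gr_mem2 hDir hPF)) g1

omit hC in
theorem EW_add (r : ℝ) : EW C K₁ w s T = EW C K₁ w s r + EW C K₁ w r T := by
  unfold EW; abel

/-- `E(0,h) → 0` in the Sobolev norm -/
theorem EW_tendsto : Tendsto (fun k : ℕ => I (C.Γ (EW C K₁ w 0 (T / 2 ^ k))
    (EW C K₁ w 0 (T / 2 ^ k)))) atTop (𝓝 0) := by
  have hD := hC.toIsDir
  have hw2 := hC.memLp _ hV.mem
  have hlim : Tendsto (fun k : ℕ => T / 2 ^ k) atTop (𝓝 0) := by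
    have h1 : Tendsto (fun k : ℕ => T * (1 / 2 : ℝ) ^ k) atTop (𝓝 (T * 0)) :=
      (tendsto_pow_atTop_nhds_zero_of_lt_one (by norm_num) (by norm_num)).const_mul T
    rw [mul_zero] at h1
    refine h1.congr fun k => ?_
    rw [one_div, inv_pow]; rfl
  have h1 : Tendsto (fun k : ℕ => C.nrm2 (C.P (T / 2 ^ k) w - w)) atTop (𝓝 0) := by
    have := (hD.P_contW hV.mem 0).comp hlim
    rwa [hD.P_zero_time hw2] at this
  have h2 : Tendsto (fun k : ℕ => 2 * C.nrm2 (C.P (T / 2 ^ k) w - w)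
      + 2 * ((1 - Real.exp (-(K₁ * (T / 2 ^ k)))) ^ 2 * C.nrm2 w)) atTop (𝓝 0) := by
    have h3 : Tendsto (fun k : ℕ => Real.exp (-(K₁ * (T / 2 ^ k)))) atTop (𝓝 1) := by
      have h4 : Tendsto (fun k : ℕ => -(K₁ * (T / 2 ^ k))) atTop (𝓝 (-(K₁ * 0))) :=
        (hlim.const_mul K₁).neg
      have h5 := (Real.continuous_exp.tendsto _).comp h4
      rw [mul_zero, neg_zero, Real.exp_zero] at h5
      exact h5
    have h6 := (h1.const_mul 2).add ((((h3.const_sub 1).pow 2).mul_const (C.nrm2 w)).const_mul 2)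
    simpa using h6
  refine squeeze_zero (fun k => I_nonneg (hC.nonneg _ (hV.EW_mem hD _ _))) (fun k => ?_) h2
  have e1 : EW C K₁ w 0 (T / 2 ^ k) = -(C.P (T / 2 ^ k) w - w)
      + (1 - Real.exp (-(K₁ * (T / 2 ^ k)))) • C.P (T / 2 ^ k) w := by
    unfold EW
    rw [hD.P_zero_time hw2, mul_zero, neg_zero, Real.exp_zero, one_smul, sub_smul, one_smul]
    abel
  have hP := hD.P_memW (T / 2 ^ k) hV.mem
  have hs := hD.sub_mem hP hV.mem
  have b1 := hD.nrm2_add_le (hD.neg_mem hs)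
    (hC.smul_mem (1 - Real.exp (-(K₁ * (T / 2 ^ k)))) _ hP)
  rw [← e1, hD.nrm2_neg hs, hD.nrm2_smul _ hP] at b1
  have b2 := hD.P_nrm2_le (T / 2 ^ k) hV.mem
  have b3 : I (C.Γ (EW C K₁ w 0 (T / 2 ^ k)) (EW C K₁ w 0 (T / 2 ^ k)))
      ≤ C.nrm2 (EW C K₁ w 0 (T / 2 ^ k)) := by
    unfold Calc.nrm2
    have := I_sq_nonneg (EW C K₁ w 0 (T / 2 ^ k))
    linarith
  have b4 := mul_le_mul_of_nonneg_left b2 (sq_nonneg (1 - Real.exp (-(K₁ * (T / 2 ^ k)))))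
  linarith

include hB hW in
/-- **gradient of `E(0,T)`**: `∫ φ_s |∇E(0,T)| ≤ 8 B D √T` -/
theorem gr_EW (hlo : 0 < lo) (hA : 1 ≤ A) (hB0 : 0 ≤ B) (hD0 : 0 ≤ D)
    (hD : ∀ σ, lo ≤ σ → σ ≤ hi → nuP C N K₁ δ w (φ σ) ≤ D) (hT : 0 < T)
    (hs : lo ≤ s) (hwin : A * (s + T) + T ≤ hi) :
    I (φ s * C.gr (EW C K₁ w 0 T)) ≤ 8 * B * D * √T := by
  have hDir := hC.toIsDir
  have hcen := hW.cen
  have hs0 : 0 < s := hlo.trans_le hs
  have hBD : 0 ≤ B * D := mul_nonneg hB0 hD0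
  have key : ∀ k : ℕ, I (φ s * C.gr (EW C K₁ w 0 T))
      ≤ I (φ s * C.gr (EW C K₁ w 0 (T / 2 ^ k))) + 8 * (B * D) * (√T - √(T / 2 ^ k)) := by
    intro k
    induction k with
    | zero => simp
    | succ k ih =>
      refine ih.trans ?_
      set y := T / 2 ^ k with hy
      have hy0 : 0 < y := by positivity
      have hyT : y ≤ T := div_le_self hT.le (one_le_pow₀ (by norm_num))
      have e1 : T / 2 ^ (k + 1) = y / 2 := by rw [hy, pow_succ]; field_simp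
      rw [e1]
      have h1 := hV.gr_EW_dyadic hC hB hW hlo hA hB0 hD0 hD (τ := y / 2) (by linarith) hs (by
        have : A * (s + y / 2) ≤ A * (s + T) :=
          mul_le_mul_of_nonneg_left (by linarith) (by linarith)
        linarith)
      have e2 : 2 * (y / 2) = y := by ring
      rw [e2] at h1
      have h2 : I (φ s * C.gr (EW C K₁ w 0 y))
          ≤ I (φ s * C.gr (EW C K₁ w 0 (y / 2))) + I (φ s * C.gr (EW C K₁ w (y / 2) y)) := by
        have m1 := mem_mul_22 (hcen.mem2 s hs0) (gr_mem2 hDir (hV.EW_mem hDir 0 (y / 2)))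
        have m2 := mem_mul_22 (hcen.mem2 s hs0) (gr_mem2 hDir (hV.EW_mem hDir (y / 2) y))
        rw [← I_add m1 m2, ← mul_add]
        refine av_le (hcen.nonneg s hs0)
          (mem_mul_22 (hcen.mem2 s hs0) (gr_mem2 hDir (hV.EW_mem hDir 0 y))) ?_ ?_
        · rw [mul_add]; exact mem_add m1 m2
        · rw [hV.EW_add (y / 2) (s := 0) (T := y)]
          filter_upwards [gr_add_le hDir (hV.EW_mem hDir 0 (y / 2)) (hV.EW_mem hDir (y / 2) y),
            add_ae (C.gr (EW C K₁ w 0 (y / 2))) (C.gr (EW C K₁ w (y / 2) y))] with x a b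
          rw [b]; exact a
      have h3 : √(y / 2) ≤ 4 / 5 * √y := by
        rw [Real.sqrt_le_iff]
        refine ⟨by positivity, ?_⟩
        rw [mul_pow, Real.sq_sqrt hy0.le]
        linarith
      have h4 : 2 * B * D * √(y / 2) ≤ 8 * (B * D) * (√y - √(y / 2)) := by
        have : 0 ≤ B * D * (8 * √y - 10 * √(y / 2)) := mul_nonneg hBD (by linarith)
        nlinarith
      linarith
  -- the limit
  have hlim : Tendsto (fun k : ℕ => √(I (φ s ^ 2)) * √(I (C.Γ (EW C K₁ w 0 (T / 2 ^ k))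
      (EW C K₁ w 0 (T / 2 ^ k)))) + 8 * (B * D) * √T) atTop
      (𝓝 (√(I (φ s ^ 2)) * √0 + 8 * (B * D) * √T)) :=
    (((Real.continuous_sqrt.tendsto _).comp (hV.EW_tendsto hC)).const_mul _).add_const _
  rw [Real.sqrt_zero, mul_zero, zero_add] at hlim
  have e3 : 8 * B * D * √T = 8 * (B * D) * √T := by ring
  rw [e3]
  refine ge_of_tendsto' hlim fun k => (key k).trans ?_
  have h5 := (le_abs_self _).trans
    (I_abs_le (hcen.mem2 s hs0) (gr_mem2 hDir (hV.EW_mem hDir 0 (T / 2 ^ k))))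
  rw [gr_sq' hDir (hV.EW_mem hDir 0 (T / 2 ^ k))] at h5
  have h6 : 0 ≤ 8 * (B * D) * √(T / 2 ^ k) := by positivity
  linarith

include hB hW in
/-- `∫ φ_s |∇ν_t| ≤ 2 B D / √t` -/
theorem gr_nu (hBE : C.BE κ N) (hlo : 0 < lo) (hA : 1 ≤ A) (hB0 : 0 ≤ B) (hD0 : 0 ≤ D)
    (hD : ∀ σ, lo ≤ σ → σ ≤ hi → nuP C N K₁ δ w (φ σ) ≤ D) (ht : 0 < t)
    (hs : lo ≤ s) (hwin : A * (s + t) + t ≤ hi) :
    I (φ s * C.gr (nuW C K₁ w t)) ≤ 2 * B * D / √t := by
  have hDir := hC.toIsDir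
  have hcen := hW.cen
  have hN := hV.N_pos
  have ht2 : 0 < t / 2 := by linarith
  have hw2 := hC.memLp _ hV.mem
  have hFW := hV.nuW_mem hC ht2
  have hF2 := hC.memLp _ hFW
  have hFt : MemLp (nuW C K₁ w (t / 2)) ∞ m :=
    mem_sub (mem_smul _ (hDir.P_memTop ht2.le hw2 hV.memA.2))
      (H715.P_testI_pos hC hN hBE ht2 hw2 hV.memA.2).2
  have h1 := hW.K1a s (t / 2) hs ht2 (by
    have : A * (s + t / 2) ≤ A * (s + t) := mul_le_mul_of_nonneg_left (by linarith) (by linarith)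
    linarith) _ hF2 hFt (N + K₁ * δ)
  set r := A * (s + t / 2) with hr
  have hrlo : lo ≤ r := by nlinarith
  have hr0 : 0 < r := hlo.trans_le hrlo
  have h2 : ∫ z, φ r z * |nuW C K₁ w (t / 2) z + (N + K₁ * δ)| ∂m ≤ D := by
    have h3 : nuP C N K₁ δ w (φ (r + t / 2)) ≤ D := hD _ (by linarith) (by
      have : r ≤ A * (s + t) := by
        rw [hr]; exact mul_le_mul_of_nonneg_left (by linarith) (by linarith)
      linarith)
    rw [← hcen.semi r (t / 2) hr0 ht2.le,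
      ← hV.I_nu hC hB ht2 (hcen.mem2 r hr0) (hcen.mem1 r hr0)] at h3
    refine le_trans (le_of_eq ?_) h3
    unfold I
    refine integral_congr_ae ?_
    filter_upwards [hV.nu_nonneg hC hB ht2, hV.nu_ae (C := C) (t := t / 2),
      mul_ae (φ r) (nu C N K₁ δ w (t / 2))] with z a b c
    rw [b] at a
    rw [c, b, abs_of_nonneg (by linarith)]
    ring
  have e1 : C.P (t / 2) (nuW C K₁ w (t / 2)) = nuW C K₁ w t := by
    rw [hV.P_nuW hC ht2.le ht2]; congr 1; ring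
  rw [e1] at h1
  refine h1.trans ((mul_le_mul_of_nonneg_left h2 (by positivity)).trans ?_)
  have e3 : 0 < √t := Real.sqrt_pos.2 ht
  have e4 : √2 ≤ 2 := by
    rw [Real.sqrt_le_left (by norm_num)]; norm_num
  have e5 : √(t / 2) = √t / √2 := Real.sqrt_div ht.le 2
  rw [e5]
  have e6 : B / (√t / √2) * D = √2 * (B * D) / √t := by
    have : 0 < √(2 : ℝ) := by positivity
    field_simp
  rw [e6, div_le_div_iff_of_pos_right e3]
  have : 0 ≤ B * D := mul_nonneg hB0 hD0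
  nlinarith

end Vx

end Vale.Agent.P242.H254

end
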