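import Vale.Agent.P242.H254.E1d

/-! # P242 / H254 / E1e : pointwise bounds of `e` and `q = Γ(b,b) - 2 b'` -/

set_option linter.all false

open MeasureTheory Filter Topology Set
open scoped ENNReal NNReal

noncomputable section

namespace Vale.Agent.P242.H254

open Vale.Agent.P233

variable {M : Type*} [MeasurableSpace M] {m : Measure M} {C : Calc m}
variable {N K₁ δ κ : ℝ} {g : M → ℝ} {w σ f h : M →ₘ[m] ℝ} {s t D T A B lo hi : ℝ}
variable {φ : ℝ → M →ₘ[m] ℝ}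

/-- the part in `W` of `e_t = e^{K₁ t} (w + δ + N / K₁) - (P_t w + δ + N / K₁)` -/
def eW (C : Calc m) (K₁ : ℝ) (w : M →ₘ[m] ℝ) (t : ℝ) : M →ₘ[m] ℝ :=
  Real.exp (K₁ * t) • w - C.P t w

/-- the constant part of `e_t` -/
def ec (N K₁ δ t : ℝ) : ℝ := (δ + N / K₁) * (Real.exp (K₁ * t) - 1)

/-- `q = Γ(b,b) - 2 b'`, `b' = b + δ - N t` -/
def qc (C : Calc m) (N δ : ℝ) (w : M →ₘ[m] ℝ) (t : ℝ) : M →ₘ[m] ℝ :=
  C.Γ (C.P t w) (C.P t w) - (2 : ℝ) • C.P t w - (2 * (δ - N * t)) • (1 : M →ₘ[m] ℝ)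

theorem qc_ae (t : ℝ) : ∀ᵐ x ∂m, qc C N δ w t x
    = C.Γ (C.P t w) (C.P t w) x - 2 * (C.P t w x + δ - N * t) := by
  filter_upwards [sub_ae (C.Γ (C.P t w) (C.P t w) - (2 : ℝ) • C.P t w)
      ((2 * (δ - N * t)) • (1 : M →ₘ[m] ℝ)), sub_ae (C.Γ (C.P t w) (C.P t w)) ((2 : ℝ) • C.P t w),
    smul_ae (C.P t w) (2 : ℝ), smul_ae (1 : M →ₘ[m] ℝ) (2 * (δ - N * t)),
    one_ae (M := M) (m := m)] with x a b c d e
  unfold qc
  rw [a, b, c, d, e]
  ring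

theorem q_real1 {E G₁ gr R X : ℝ} (hE : 1 ≤ E) (hG : 1 ≤ G₁) (hgr : 0 ≤ gr) (hR : 0 ≤ R)
    (hR2 : R ^ 2 = X) (hX : 0 ≤ X) (h : gr ^ 2 ≤ 8 * E * G₁ ^ 2 * X) :
    gr ^ 2 ≤ 3 * E * G₁ * (R * gr) := by
  have h1 : gr ≤ 3 * E * G₁ * R := by
    have h2 : gr ^ 2 ≤ (3 * E * G₁ * R) ^ 2 := by
      refine h.trans ?_
      have h3 : (3 * E * G₁ * R) ^ 2 = 9 * E ^ 2 * (G₁ ^ 2 * X) := by
        rw [mul_pow, hR2]; ring
      rw [h3]
      have h4 : 8 * E ≤ 9 * E ^ 2 := by nlinarith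
      have h5 : 0 ≤ G₁ ^ 2 * X := by positivity
      nlinarith [mul_le_mul_of_nonneg_right h4 h5]
    exact (pow_le_pow_iff_left₀ hgr (by positivity) two_ne_zero).1 h2
  calc gr ^ 2 = gr * gr := sq gr
    _ ≤ 3 * E * G₁ * R * gr := mul_le_mul_of_nonneg_right h1 hgr
    _ = _ := by ring

theorem q_real2 {E G₁ G gr R u e Y Z : ℝ} (hE : 1 ≤ E) (hG₁ : 1 ≤ G₁) (hG : 1 ≤ G)
    (hGG : G ≤ G₁) (hgr : 0 ≤ gr) (hR : 0 ≤ R) (hu : 0 ≤ u) (hN : 0 < N) (hK : 0 < K₁)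
    (ht : 0 ≤ t) (c1 : G - 1 ≤ K₁ * t * G₁) (c2 : Y ≤ K₁ * t ^ 2 * G₁) (c2' : 0 ≤ Y)
    (c3 : |Z| ≤ 2 * R * gr) (c4 : gr ^ 2 ≤ 3 * E * G₁ * (R * gr)) (he : 0 ≤ e) :
    |2 * G * (G - 1) * u - 2 * G * Z + gr ^ 2 + 2 * e - 2 * N * Y|
      ≤ 2 * G₁ ^ 2 * K₁ * t * (u + N * t) + 7 * E * G₁ * (R * gr) + 2 * e := by
  have c5 : 0 ≤ 2 * G * (G - 1) * u := by
    have : 0 ≤ G - 1 := by linarith
    positivity
  have hKt : 0 ≤ K₁ * t := mul_nonneg hK.le ht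
  have hRg : 0 ≤ R * gr := mul_nonneg hR hgr
  have c6 : 2 * G * (G - 1) * u ≤ 2 * G₁ ^ 2 * K₁ * t * u := by
    have h1 : G * (G - 1) ≤ G₁ * (K₁ * t * G₁) :=
      mul_le_mul hGG c1 (by linarith) (by linarith)
    have h2 := mul_le_mul_of_nonneg_right h1 hu
    linarith [h2, (by ring : 2 * G * (G - 1) * u = 2 * (G * (G - 1) * u)),
      (by ring : 2 * G₁ ^ 2 * K₁ * t * u = 2 * (G₁ * (K₁ * t * G₁) * u))]
  have c7 : |2 * G * Z| ≤ 4 * E * G₁ * (R * gr) := by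
    rw [abs_mul, abs_of_nonneg (by linarith : 0 ≤ 2 * G)]
    have h1 : 2 * G * |Z| ≤ 2 * G₁ * (2 * R * gr) :=
      mul_le_mul (by linarith) c3 (abs_nonneg _) (by linarith)
    have h2 : 0 ≤ (E - 1) * (4 * G₁ * (R * gr)) :=
      mul_nonneg (by linarith) (by positivity)
    linarith [h1, h2, (by ring : (E - 1) * (4 * G₁ * (R * gr))
      = 4 * E * G₁ * (R * gr) - 2 * G₁ * (2 * R * gr))]
  have c8 : 2 * N * Y ≤ 2 * G₁ ^ 2 * K₁ * t * (N * t) := by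
    have h1 := mul_le_mul_of_nonneg_left c2 (by linarith : 0 ≤ 2 * N)
    have h2 : 0 ≤ (G₁ - 1) * (2 * N * K₁ * t ^ 2 * G₁) :=
      mul_nonneg (by linarith) (by positivity)
    linarith [h1, h2, (by ring : (G₁ - 1) * (2 * N * K₁ * t ^ 2 * G₁)
      = 2 * G₁ ^ 2 * K₁ * t * (N * t) - 2 * N * (K₁ * t ^ 2 * G₁))]
  have c9 : 0 ≤ 2 * N * Y := by positivity
  have d3 := abs_le.1 c7
  have d4 : 0 ≤ gr ^ 2 := sq_nonneg _
  have d5 : 2 * G₁ ^ 2 * K₁ * t * (u + N * t)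
      = 2 * G₁ ^ 2 * K₁ * t * u + 2 * G₁ ^ 2 * K₁ * t * (N * t) := by ring
  have d6 : 0 ≤ E * G₁ * (R * gr) := by positivity
  have d7 : 0 ≤ 2 * G₁ ^ 2 * K₁ * t * u := by positivity
  have d8 : 0 ≤ 2 * G₁ ^ 2 * K₁ * t * (N * t) := by positivity
  rw [abs_le, d5]
  constructor
  · linarith [d3.1, d3.2]
  · linarith [d3.1, d3.2]

namespace Vx

variable (hV : Vx C N K₁ δ g w) (hC : IsGamma C) (hB : C.BEi κ)
include hV hC

theorem eW_mem (t : ℝ) : eW C K₁ w t ∈ C.W :=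
  hC.toIsDir.sub_mem (hC.smul_mem _ _ hV.mem) (hC.toIsDir.P_memW t hV.mem)

theorem eW_eq (t : ℝ) : eW C K₁ w t = Real.exp (K₁ * t) • EW C K₁ w 0 t := by
  unfold eW EW
  rw [hC.toIsDir.P_zero_time (hC.memLp _ hV.mem), mul_zero, neg_zero, Real.exp_zero, one_smul,
    smul_sub, smul_smul, ← Real.exp_add]
  have e : K₁ * t + -(K₁ * t) = 0 := by ring
  rw [e, Real.exp_zero, one_smul]

omit hV hC in
theorem eW_ae (t : ℝ) : ∀ᵐ x ∂m, eW C K₁ w t x = Real.exp (K₁ * t) * w x - C.P t w x := by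
  filter_upwards [sub_ae (Real.exp (K₁ * t) • w) (C.P t w), smul_ae w (Real.exp (K₁ * t))]
    with x a b
  unfold eW
  rw [a, b]

include hB in
theorem e_nonneg [SigmaFinite m] (ht : 0 ≤ t) :
    ∀ᵐ x ∂m, 0 ≤ eW C K₁ w t x + ec N K₁ δ t := by
  filter_upwards [eW_ae (C := C) (K₁ := K₁) (w := w) t, hV.b_le hC hB ht] with x a b
  unfold ec
  rw [a]
  linarith

include hB in
/-- `Γ(e,e) ≤ C (min (g,δ) + t)` -/
theorem Γe_le [SigmaFinite m] (ht : 0 ≤ t) (ht1 : t ≤ 1) :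
    ∀ᵐ x ∂m, C.Γ (eW C K₁ w t) (eW C K₁ w t) x
      ≤ 8 * Real.exp (2 * |κ|) * Real.exp K₁ ^ 2 * (w x + δ + N * t) := by
  have hD := hC.toIsDir
  have hPW := hD.P_memW t hV.mem
  have hK := hV.K₁_pos
  have hGW := hC.smul_mem (Real.exp (K₁ * t)) _ hV.mem
  have e1 : C.Γ (Real.exp (K₁ * t) • w) (Real.exp (K₁ * t) • w)
      = (Real.exp (K₁ * t) ^ 2) • C.Γ w w := by
    rw [hC.smul_left _ _ hV.mem _ hGW, hD.Γ_smul_right _ hV.mem hV.mem, smul_smul, sq]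
  filter_upwards [gr_add_le hD hGW (hD.neg_mem hPW), gr_sq hD (hV.eW_mem hC t), gr_sq hD hGW,
    gr_sq hD (hD.neg_mem hPW), gr_sq hD hPW, hV.Γ_le, hV.Γb_le hC hB ht ht1, hV.wd,
    gr_smul hD (-1) hPW, smul_ae (C.Γ w w) (Real.exp (K₁ * t) ^ 2),
    nonneg_iff_ae.1 (C.gr_nonneg (eW C K₁ w t))]
    with x a1 a2 a3 a4 a5 a6 a7 a8 a9 b1 b2
  have e2 : Real.exp (K₁ * t) • w + -C.P t w = eW C K₁ w t := by unfold eW; abel
  rw [e2] at a1
  have e3 : (-1 : ℝ) • C.P t w = -C.P t w := by simp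
  rw [e3, abs_neg, abs_one, one_mul] at a9
  rw [← a2]
  set a := C.gr (eW C K₁ w t) x
  set b := C.gr (Real.exp (K₁ * t) • w) x
  set c := C.gr (-C.P t w) x
  rw [← a9] at a5
  rw [e1, b1] at a3
  have h1 : a ^ 2 ≤ 2 * b ^ 2 + 2 * c ^ 2 := by nlinarith [sq_nonneg (b - c), sq_nonneg (b + c)]
  have hG : Real.exp (K₁ * t) ≤ Real.exp K₁ := by
    apply Real.exp_le_exp.2; nlinarith
  have hG2 : Real.exp (K₁ * t) ^ 2 ≤ Real.exp K₁ ^ 2 :=
    pow_le_pow_left₀ (Real.exp_pos _).le hG 2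
  have hE : 1 ≤ Real.exp (2 * |κ|) := Real.one_le_exp (by positivity)
  have hG1 : 1 ≤ Real.exp K₁ := Real.one_le_exp hK.le
  have hu : 0 ≤ w x + δ := a8.1
  have hNt : 0 ≤ N * t := mul_nonneg hV.N_pos.le ht
  have h2 : b ^ 2 ≤ Real.exp K₁ ^ 2 * (2 * (w x + δ)) := by
    rw [a3]
    exact (mul_le_mul_of_nonneg_left a6 (by positivity)).trans
      (mul_le_mul_of_nonneg_right hG2 (by linarith))
  have h3 : Real.exp K₁ ^ 2 * (2 * (w x + δ))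
      ≤ 2 * Real.exp (2 * |κ|) * Real.exp K₁ ^ 2 * (w x + δ + N * t) := by
    have : Real.exp K₁ ^ 2 * (2 * (w x + δ)) ≤ Real.exp K₁ ^ 2 * (2 * (w x + δ + N * t)) :=
      mul_le_mul_of_nonneg_left (by linarith) (by positivity)
    refine this.trans ?_
    have h4 : 0 ≤ (Real.exp (2 * |κ|) - 1) * (2 * Real.exp K₁ ^ 2 * (w x + δ + N * t)) :=
      mul_nonneg (by linarith) (by positivity)
    nlinarith
  have h5 : c ^ 2 ≤ 2 * Real.exp (2 * |κ|) * Real.exp K₁ ^ 2 * (w x + δ + N * t) := by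
    rw [a5]
    refine a7.trans ?_
    have h6 : 0 ≤ (Real.exp K₁ - 1) * (2 * Real.exp (2 * |κ|) * Real.exp K₁ * (w x + δ + N * t)) :=
      mul_nonneg (by linarith) (by positivity)
    nlinarith
  linarith

include hB in
/-- global bound of `q` -/
theorem q_le [SigmaFinite m] (ht : 0 ≤ t) (ht1 : t ≤ 1) :
    ∀ᵐ x ∂m, |qc C N δ w t x|
      ≤ 4 * Real.exp (2 * |κ|) * Real.exp K₁ * (w x + δ + N * t) := by
  have hD := hC.toIsDir
  have hPW := hD.P_memW t hV.mem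
  filter_upwards [qc_ae (C := C) (N := N) (δ := δ) (w := w) t, hV.Γb_le hC hB ht ht1,
    hV.b_le' hC hB ht ht1, hV.P_bds hD ht, hD.Γ_nonneg_ae hPW, hV.wd] with x a b c d e f
  rw [a]
  have hE : 1 ≤ Real.exp (2 * |κ|) := Real.one_le_exp (by positivity)
  have hG1 : 1 ≤ Real.exp K₁ := Real.one_le_exp hV.K₁_pos.le
  have hNt : 0 ≤ N * t := mul_nonneg hV.N_pos.le ht
  have hX : 0 ≤ w x + δ + N * t := by linarith [f.1]
  have h1 : N * t ≤ Real.exp K₁ * (w x + δ + N * t) := by nlinarith [f.1]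
  have h2 : Real.exp K₁ * (w x + δ + N * t)
      ≤ Real.exp (2 * |κ|) * Real.exp K₁ * (w x + δ + N * t) := by
    have : 0 ≤ (Real.exp (2 * |κ|) - 1) * (Real.exp K₁ * (w x + δ + N * t)) :=
      mul_nonneg (by linarith) (by positivity)
    nlinarith
  rw [abs_le]
  constructor
  · linarith
  · linarith [d.1]

include hB in
/-- bound of `q` by `∇e` and `e` -/
theorem q_le' [SigmaFinite m] (ht : 0 ≤ t) (ht1 : t ≤ 1) :
    ∀ᵐ x ∂m, |qc C N δ w t x| ≤ 2 * Real.exp K₁ ^ 2 * K₁ * t * (w x + δ + N * t)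
      + 7 * Real.exp (2 * |κ|) * Real.exp K₁ * (√(w x + δ + N * t) * C.gr (eW C K₁ w t) x)
      + 2 * (eW C K₁ w t x + ec N K₁ δ t)
      + 4 * Real.exp (2 * |κ|) * Real.exp K₁ * (δ + N) / δ ^ 2 * (w x + δ) ^ 2 := by
  have hD := hC.toIsDir
  have hPW := hD.P_memW t hV.mem
  have hK := hV.K₁_pos
  have hδ := hV.δ_pos
  have hN := hV.N_pos
  have hEW := hV.eW_mem hC t
  -- `Γ(b,b) = G² Γ(w,w) - 2 G Γ(w,e) + Γ(e,e)`
  set G := Real.exp (K₁ * t) with hG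
  have hGW := hC.smul_mem G _ hV.mem
  have e0 : C.P t w = G • w - eW C K₁ w t := by unfold eW; abel
  have e1 : C.Γ (C.P t w) (C.P t w)
      = (G ^ 2) • C.Γ w w - (2 * G) • C.Γ w (eW C K₁ w t) + C.Γ (eW C K₁ w t) (eW C K₁ w t) := by
    conv_lhs => rw [e0]
    have hs := hD.sub_mem hGW hEW
    rw [hD.Γ_sub_left hGW hEW hs, hD.Γ_sub_right hGW hGW hEW, hD.Γ_sub_right hEW hGW hEW,
      hC.smul_left _ _ hV.mem _ hGW, hD.Γ_smul_right _ hV.mem hV.mem,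
      hC.smul_left _ _ hV.mem _ hEW, hD.Γ_smul_right _ hEW hV.mem, hC.symm _ hEW _ hV.mem]
    module
  filter_upwards [qc_ae (C := C) (N := N) (δ := δ) (w := w) t, hV.q_le hC hB ht ht1,
    hV.e_nonneg hC hB ht, eW_ae (C := C) (K₁ := K₁) (w := w) t, hV.Γe_le hC hB ht ht1,
    hD.Γ_abs_ae hV.mem hEW, C.gr_ae (eW C K₁ w t), gr_sq hD hEW, hV.grad, hV.eq, hV.wd,
    eq_iff_ae.1 e1,
    add_ae ((G ^ 2) • C.Γ w w - (2 * G) • C.Γ w (eW C K₁ w t))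
      (C.Γ (eW C K₁ w t) (eW C K₁ w t)),
    sub_ae ((G ^ 2) • C.Γ w w) ((2 * G) • C.Γ w (eW C K₁ w t)), smul_ae (C.Γ w w) (G ^ 2),
    smul_ae (C.Γ w (eW C K₁ w t)) (2 * G), nonneg_iff_ae.1 (C.gr_nonneg (eW C K₁ w t))]
    with x a1 a2 a3 a4 a5 a6 a7 a8 a9 b1 b2 b3 b4 b5 b6 b7 b8
  set u := w x + δ with hu
  set gr := C.gr (eW C K₁ w t) x with hgr
  set e := eW C K₁ w t x + ec N K₁ δ t with he
  set R := √(u + N * t) with hR
  have hu0 : 0 ≤ u := b2.1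
  have hNt : 0 ≤ N * t := mul_nonneg hN.le ht
  have hX : 0 ≤ u + N * t := by linarith
  have hR0 : 0 ≤ R := Real.sqrt_nonneg _
  have hR2 : R ^ 2 = u + N * t := Real.sq_sqrt hX
  have hE : 1 ≤ Real.exp (2 * |κ|) := Real.one_le_exp (by positivity)
  have hG1 : 1 ≤ Real.exp K₁ := Real.one_le_exp hK.le
  have hGle : G ≤ Real.exp K₁ := by
    rw [hG]
    apply Real.exp_le_exp.2
    exact mul_le_of_le_one_right hK.le ht1
  have hG1' : 1 ≤ G := Real.one_le_exp (mul_nonneg hK.le ht)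
  have hKt : 0 ≤ K₁ * t := mul_nonneg hK.le ht
  have hpos1 : 0 ≤ 2 * Real.exp K₁ ^ 2 * K₁ * t * (u + N * t) := by positivity
  have hpos2 : 0 ≤ 7 * Real.exp (2 * |κ|) * Real.exp K₁ * (R * gr) := by positivity
  have hpos4 : 0 ≤ 4 * Real.exp (2 * |κ|) * Real.exp K₁ * (δ + N) / δ ^ 2 * u ^ 2 := by positivity
  by_cases hx : g x < δ
  · -- near
    have hgu : u = g x := by rw [hu, b1, min_eq_left hx.le]; ring
    rw [if_pos hx, ← hgu] at a9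
    -- the identity for `q`
    have q1 : qc C N δ w t x = 2 * G * (G - 1) * u - 2 * G * C.Γ w (eW C K₁ w t) x
        + gr ^ 2 + 2 * e - 2 * N * ((G - 1) / K₁ - t) := by
      rw [a1, b3, b4, b5, b6, b7, a9, ← a8]
      have hb : C.P t w x = G * w x - eW C K₁ w t x := by rw [a4]; ring
      rw [hb, he]
      unfold ec
      rw [← hG]
      have hw : w x = u - δ := by rw [hu]; ring
      rw [hw]
      field_simp
      ring
    have c1 : G - 1 ≤ K₁ * t * Real.exp K₁ := by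
      have := exp_sub_one_le (K₁ * t)
      rw [← hG] at this
      exact this.trans (mul_le_mul_of_nonneg_left hGle hKt)
    have c0 : (G - 1) / K₁ - t = (G - 1 - K₁ * t) / K₁ := by field_simp
    have c2 : (G - 1) / K₁ - t ≤ K₁ * t ^ 2 * Real.exp K₁ := by
      have h1 := exp_sub_one_sub_le hKt
      rw [← hG] at h1
      have h2 : (K₁ * t) ^ 2 * G ≤ (K₁ * t) ^ 2 * Real.exp K₁ :=
        mul_le_mul_of_nonneg_left hGle (by positivity)
      rw [c0, div_le_iff₀ hK]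
      calc G - 1 - K₁ * t ≤ (K₁ * t) ^ 2 * Real.exp K₁ := h1.trans h2
        _ = K₁ * t ^ 2 * Real.exp K₁ * K₁ := by ring
    have c2' : 0 ≤ (G - 1) / K₁ - t := by
      have h1 := Real.add_one_le_exp (K₁ * t)
      rw [← hG] at h1
      rw [c0]
      exact div_nonneg (by linarith) hK.le
    have c3 : |C.Γ w (eW C K₁ w t) x| ≤ 2 * R * gr := by
      rw [← a7] at a6
      refine a6.trans (mul_le_mul_of_nonneg_right ?_ b8)
      rw [a9, Real.sqrt_le_iff]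
      refine ⟨by positivity, ?_⟩
      rw [mul_pow, hR2]
      linarith
    rw [← a8] at a5
    have c4 := q_real1 hE hG1 b8 hR0 hR2 hX a5
    have c5 := q_real2 hE hG1 hG1' hGle b8 hR0 hu0 hN hK ht c1 c2 c2' c3 c4 a3
    rw [q1]
    exact c5.trans (le_add_of_nonneg_right hpos4)
  · -- far
    have hgu : u = δ := by rw [hu, b1, min_eq_right (not_lt.1 hx)]; ring
    refine a2.trans ?_
    have h1 : 4 * Real.exp (2 * |κ|) * Real.exp K₁ * (u + N * t)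
        ≤ 4 * Real.exp (2 * |κ|) * Real.exp K₁ * (δ + N) / δ ^ 2 * u ^ 2 := by
      have h2 : 4 * Real.exp (2 * |κ|) * Real.exp K₁ * (δ + N) / δ ^ 2 * u ^ 2
          = 4 * Real.exp (2 * |κ|) * Real.exp K₁ * (δ + N) := by
        rw [hgu]; field_simp
      rw [h2, hgu]
      refine mul_le_mul_of_nonneg_left ?_ (by positivity)
      have h3 : N * t ≤ N * 1 := mul_le_mul_of_nonneg_left ht1 hN.le
      rw [mul_one] at h3
      exact add_le_add le_rfl h3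
    refine h1.trans ?_
    have h4 : 0 ≤ 2 * e := by positivity
    have h5 := add_nonneg (add_nonneg hpos1 hpos2) h4
    exact le_add_of_nonneg_left h5

end Vx

end Vale.Agent.P242.H254

end
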