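import Vale.Agent.P242.H254.E1e

/-! # P242 / H254 / E1f : the identity for `QQ(b,b)` -/

set_option linter.all false

open MeasureTheory Filter Topology Set
open scoped ENNReal NNReal

noncomputable section

namespace Vale.Agent.P242.H254

open Vale.Agent.P233

variable {M : Type*} [MeasurableSpace M] {m : Measure M} {C : Calc m}
variable {N K₁ δ κ : ℝ} {g : M → ℝ} {w σ f h ζ : M →ₘ[m] ℝ} {s t D T A B lo hi : ℝ}
variable {φ : ℝ → M →ₘ[m] ℝ}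

/-- the integral of an integrable Laplacian vanishes -/
theorem I_lap_zero (hC : IsGamma C) (hB : C.BEi κ) [SigmaFinite m]
    (hζ : C.IsLap ζ (C.lap ζ)) (h1 : MemLp ζ 1 m) (h1' : MemLp (C.lap ζ) 1 m) :
    I (C.lap ζ) = 0 := by
  have hD := hC.toIsDir
  obtain ⟨χ, Λ, hT, h0, hb, hlim, hlb, hl0, hΓ⟩ := hC.exists_cut hB
  have hconv' : ∀ᵐ x ∂m, Tendsto (fun k => χ k x) atTop (𝓝 ((1 : M →ₘ[m] ℝ) x)) := by
    filter_upwards [hlim, one_ae (M := M) (m := m)] with x b1 b2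
    rw [b2]; exact b1
  have hl0' : ∀ᵐ x ∂m, Tendsto (fun k => C.lap (χ k) x) atTop (𝓝 ((0 : M →ₘ[m] ℝ) x)) := by
    filter_upwards [hl0, zero_ae (M := M) (m := m)] with x b1 b2
    rw [b2]; exact b1
  have t1 := I_tendsto_of_bdd hb hconv' h1'
  have t2 := I_tendsto_of_bdd hlb hl0' h1
  rw [one_mul] at t1
  rw [zero_mul, I_zero] at t2
  refine tendsto_nhds_unique t1 (t2.congr fun k => ?_)
  have cA := hC.test_A (hT k)
  have e1 : I (C.Γ ζ (χ k)) = -I (C.lap ζ * χ k) := hζ.2.2 _ cA.1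
  have e2 : I (C.Γ (χ k) ζ) = -I (C.lap (χ k) * ζ) := (hC.test_isLap (hT k)).2.2 _ hζ.1
  rw [hC.symm _ cA.1 _ hζ.1, e1] at e2
  rw [mul_comm (χ k)]
  linarith

namespace Vx

variable (hV : Vx C N K₁ δ g w) (hC : IsGamma C)
include hV hC

/-- **identity for `QQ(b,b)`** -/
theorem QQ_eq (hBE : C.BE κ N) [SigmaFinite m] (ht : 0 < t)
    (hζ : C.IsLap ζ (C.lap ζ)) (hζt : MemLp ζ ∞ m) (h1 : MemLp ζ 1 m)
    (h1' : MemLp (C.lap ζ) 1 m) :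
    H363.QQ C κ N (C.P t w) (C.P t w) ζ
      + N⁻¹ * I (ζ * (C.lap (C.P t w) - N • (1 : M →ₘ[m] ℝ)) ^ 2)
      + (κ + K₁) * I (ζ * C.Γ (C.P t w) (C.P t w))
      = (2 : ℝ)⁻¹ * I (C.lap ζ * qc C N δ w t) + I (ζ * (N • (1 : M →ₘ[m] ℝ) - C.lap (C.P t w)))
        + I (ζ * C.Γ (C.P t w) (nuW C K₁ w t)) := by
  have hD := hC.toIsDir
  have hN := hV.N_pos
  have hB := hC.bei hN hBE
  have hw2 := hC.memLp _ hV.mem
  set b := C.P t w with hb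
  have bI : b ∈ C.TestI := H715.P_testI_pos hC hN hBE ht hw2 hV.memA.2
  have bT := bI.1
  have bA := hC.test_A bT
  have bL := hC.test_isLap bT
  have lW := hC.test_lap_mem bT
  have hνW := hV.nuW_mem hC ht
  have hΓA := hC.Γ_mem hB bT bT
  have hζA : ζ ∈ C.A := ⟨hζ.1, hζt⟩
  have hζ2 := hC.memLp _ hζ.1
  -- the derivative of the Laplacian
  have e1 : C.Γ b (C.lap b) = K₁ • C.Γ b b - C.Γ b (nuW C K₁ w t) := by
    have e2 : C.lap b = K₁ • b - nuW C K₁ w t := by unfold nuW; rw [← hb]; abel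
    conv_lhs => rw [e2]
    rw [hD.Γ_sub_right bA.1 (hC.smul_mem _ _ bA.1) hνW, hD.Γ_smul_right _ bA.1 bA.1]
  -- integration by parts
  have p1 : I (C.Γ (C.Γ b b) ζ) = -I (C.lap ζ * C.Γ b b) := by
    rw [hC.symm _ hΓA.1 _ hζ.1]
    exact hζ.2.2 _ hΓA.1
  have p2 : I (C.lap ζ * b) = I (ζ * C.lap b) := by
    have a1 : I (C.Γ ζ b) = -I (C.lap ζ * b) := hζ.2.2 _ bA.1
    have a2 : I (C.Γ b ζ) = -I (C.lap b * ζ) := bL.2.2 _ hζ.1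
    rw [hC.symm _ bA.1 _ hζ.1, a1] at a2
    rw [mul_comm ζ]
    linarith
  have p3 := I_lap_zero hC hB hζ h1 h1'
  -- integrability
  have m1 : MemLp (C.lap ζ * C.Γ b b : M →ₘ[m] ℝ) 1 m := mem_mul_22 hζ.2.1 (hC.memLp _ hΓA.1)
  have m2 : MemLp (C.lap ζ * b : M →ₘ[m] ℝ) 1 m := mem_mul_22 hζ.2.1 (hC.memLp _ bA.1)
  have m3 : MemLp (ζ * C.Γ b b : M →ₘ[m] ℝ) 1 m := mem_mul_22 hζ2 (hC.memLp _ hΓA.1)
  have m4 : MemLp (ζ * C.Γ b (nuW C K₁ w t) : M →ₘ[m] ℝ) 1 m :=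
    mem_mul_top hζt (hD.Γ_mem1 bA.1 hνW)
  have m5 : MemLp (ζ * C.lap b : M →ₘ[m] ℝ) 1 m := mem_mul_22 hζ2 bL.2.1
  have m6 : MemLp (ζ * (C.lap b * C.lap b) : M →ₘ[m] ℝ) 1 m :=
    mem_mul_top hζt (mem_mul_22 bL.2.1 bL.2.1)
  -- the terms
  have q1 : I (C.lap ζ * qc C N δ w t) = I (C.lap ζ * C.Γ b b) - 2 * I (C.lap ζ * b) := by
    unfold qc
    rw [← hb, mul_sub, mul_sub, mul_smul_comm, mul_smul_comm, mul_one,
      I_sub (mem_sub m1 (mem_smul _ m2)) (mem_smul _ h1'), I_sub m1 (mem_smul _ m2), I_smul,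
      I_smul, p3]
    ring
  have q2 : I (ζ * (N • (1 : M →ₘ[m] ℝ) - C.lap b)) = N * I ζ - I (ζ * C.lap b) := by
    rw [mul_sub, mul_smul_comm, mul_one, I_sub (mem_smul _ h1) m5, I_smul]
  have q3 : I (ζ * (C.lap b - N • (1 : M →ₘ[m] ℝ)) ^ 2)
      = I (ζ * (C.lap b * C.lap b)) - 2 * N * I (ζ * C.lap b) + N ^ 2 * I ζ := by
    have e3 : ζ * (C.lap b - N • (1 : M →ₘ[m] ℝ)) ^ 2
        = ζ * (C.lap b * C.lap b) - (2 * N) • (ζ * C.lap b) + (N ^ 2) • ζ := by algebra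
    rw [e3, I_add (mem_sub m6 (mem_smul _ m5)) (mem_smul _ h1), I_sub m6 (mem_smul _ m5),
      I_smul, I_smul]
  have q4 : I (ζ * (C.Γ b (C.lap b) + C.Γ b (C.lap b)))
      = 2 * (K₁ * I (ζ * C.Γ b b) - I (ζ * C.Γ b (nuW C K₁ w t))) := by
    rw [e1]
    have e4 : ζ * ((K₁ • C.Γ b b - C.Γ b (nuW C K₁ w t)) + (K₁ • C.Γ b b - C.Γ b (nuW C K₁ w t)))
        = (2 * K₁) • (ζ * C.Γ b b) - (2 : ℝ) • (ζ * C.Γ b (nuW C K₁ w t)) := by algebra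
    rw [e4, I_sub (mem_smul _ m3) (mem_smul _ m4), I_smul, I_smul]
    ring
  unfold H363.QQ Calc.NN
  rw [q1, q2, q3, q4, p1, p2]
  field_simp
  ring

end Vx

end Vale.Agent.P242.H254

end
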