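import Vale.Agent.P242.H254.E1f

/-! # P242 / H254 / E1g : the averaged estimates (E1) -/

set_option linter.all false

open MeasureTheory Filter Topology Set
open scoped ENNReal NNReal

noncomputable section

namespace Vale.Agent.P242.H254

open Vale.Agent.P233

variable {M : Type*} [MeasurableSpace M] {m : Measure M} {C : Calc m}
variable {N K₁ δ κ : ℝ} {g : M → ℝ} {w σ f h ζ : M →ₘ[m] ℝ} {s t t' D T A B lo hi Q : ℝ}
variable {φ : ℝ → M →ₘ[m] ℝ}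

/-! ### real inequalities for the weight `v = (u + t) / t` -/

section real
variable {u : ℝ}

theorem v_ge (hu : 0 ≤ u) (ht : 0 < t) : 1 ≤ (u + t) / t := by
  rw [le_div_iff₀ ht]; linarith

theorem v1 (hu : 0 ≤ u) (ht : 0 < t) (hN : 0 ≤ N) :
    u + N * t ≤ (1 + N) * t * ((u + t) / t) ^ 2 := by
  have hv := v_ge hu ht
  set v := (u + t) / t with hvd
  have hut : u + t = t * v := by rw [hvd]; field_simp
  have h1 : u + N * t ≤ (1 + N) * (u + t) := by nlinarith [mul_nonneg hN hu]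
  have h2 : v ≤ v ^ 2 := by nlinarith
  have h3 : 0 ≤ (1 + N) * t := by positivity
  calc u + N * t ≤ (1 + N) * (u + t) := h1
    _ = (1 + N) * t * v := by rw [hut]; ring
    _ ≤ (1 + N) * t * v ^ 2 := mul_le_mul_of_nonneg_left h2 h3

theorem v0 (hu : 0 ≤ u) (ht : 0 < t) : u ≤ t * ((u + t) / t) ^ 2 := by
  have := v1 (N := 0) hu ht le_rfl
  simpa using this

theorem v2' (hu : 0 ≤ u) (ht : 0 < t) : u ^ 2 ≤ t ^ 2 * ((u + t) / t) ^ 2 := by
  rw [← mul_pow]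
  have h1 : t * ((u + t) / t) = u + t := by field_simp
  rw [h1]
  exact pow_le_pow_left₀ hu (by linarith) 2

theorem vs (hu : 0 ≤ u) (ht : 0 < t) (hN : 0 ≤ N) :
    √(u + N * t) ≤ √(1 + N) * √t * ((u + t) / t) ^ 2 := by
  have hv := v_ge hu ht
  have h1 := v1 hu ht hN
  set v := (u + t) / t with hvd
  rw [← Real.sqrt_mul (by linarith : 0 ≤ 1 + N), Real.sqrt_le_iff]
  refine ⟨by positivity, ?_⟩
  rw [mul_pow, Real.sq_sqrt (by positivity)]
  refine h1.trans (mul_le_mul_of_nonneg_left ?_ (by positivity))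
  have h2 : 1 ≤ v ^ 2 := one_le_pow₀ hv
  nlinarith

end real

namespace Vx

variable (hV : Vx C N K₁ δ g w) (hC : IsGamma C) (hBE : C.BE κ N) [SigmaFinite m]
  (hW : Win C φ w δ A B t lo hi) (hlo : 0 < lo) (hA : 1 ≤ A) (hB0 : 0 ≤ B)

include hV hW hlo hA hB0 in
/-- domination with the weight -/
theorem av_wt (hs : lo ≤ s) (hs' : A * s ≤ hi) {c : ℝ} (hc : 0 ≤ c) {X F : M →ₘ[m] ℝ}
    (hX : ∀ᵐ z ∂m, X z ≤ c * ((w z + δ + t) / t) ^ 2 * F z) (hF : ∀ᵐ z ∂m, 0 ≤ F z)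
    (m1 : MemLp (φ s * X : M →ₘ[m] ℝ) 1 m) (m2 : MemLp (φ (A * s) * F : M →ₘ[m] ℝ) 1 m) :
    I (φ s * X) ≤ c * B * I (φ (A * s) * F) := by
  rw [← I_smul]
  refine I_mono m1 (mem_smul _ m2) ?_
  rw [le_iff_ae]
  filter_upwards [hW.K4 s hs hs', hX, hF, mul_ae (φ s) X, mul_ae (φ (A * s)) F,
    smul_ae (φ (A * s) * F) (c * B), nonneg_iff_ae.1 (hW.cen.nonneg s (hlo.trans_le hs))]
    with z a1 a2 a3 a4 a5 a6 a7
  rw [a4, a6, a5]
  calc φ s z * X z ≤ φ s z * (c * ((w z + δ + t) / t) ^ 2 * F z) :=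
        mul_le_mul_of_nonneg_left a2 a7
    _ = (c * F z) * (φ s z * ((w z + δ + t) / t) ^ 2) := by ring
    _ ≤ (c * F z) * (B * φ (A * s) z) :=
        mul_le_mul_of_nonneg_left a1 (mul_nonneg hc a3)
    _ = c * B * (φ (A * s) z * F z) := by ring

include hV hC hBE hW hlo hA hB0 in
/-- (L1) `∫ φ_s |∇e| ≤ C √t D` -/
theorem L1 (hD0 : 0 ≤ D) (hD : ∀ σ, lo ≤ σ → σ ≤ hi → nuP C N K₁ δ w (φ σ) ≤ D)
    (ht : 0 < t) (ht1 : t ≤ 1) (hs : lo ≤ s) (hwin : A * (s + t) + t ≤ hi) :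
    I (φ s * C.gr (eW C K₁ w t)) ≤ 8 * Real.exp K₁ * B * D * √t := by
  have hDir := hC.toIsDir
  have hN := hV.N_pos
  have hcen := hW.cen
  have hs0 : 0 < s := hlo.trans_le hs
  have h1 := hV.gr_EW hC (hC.bei hN hBE) hW hlo hA hB0 hD0 hD ht hs hwin
  have m1 := mem_mul_22 (hcen.mem2 s hs0) (gr_mem2 hDir (hV.EW_mem hDir 0 t))
  have h2 : I (φ s * C.gr (eW C K₁ w t)) ≤ Real.exp K₁ * I (φ s * C.gr (EW C K₁ w 0 t)) := by
    rw [← I_smul, ← mul_smul_comm]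
    refine av_le (hcen.nonneg s hs0)
      (mem_mul_22 (hcen.mem2 s hs0) (gr_mem2 hDir (hV.eW_mem hC t)))
      (by rw [mul_smul_comm]; exact mem_smul _ m1) ?_
    rw [hV.eW_eq hC t]
    filter_upwards [gr_smul hDir (Real.exp (K₁ * t)) (hV.EW_mem hDir 0 t),
      smul_ae (C.gr (EW C K₁ w 0 t)) (Real.exp K₁),
      nonneg_iff_ae.1 (C.gr_nonneg (EW C K₁ w 0 t))] with x a b c
    rw [a, b, abs_of_pos (Real.exp_pos _)]
    refine mul_le_mul_of_nonneg_right (Real.exp_le_exp.2 ?_) c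
    exact mul_le_of_le_one_right hV.K₁_pos.le ht1
  refine h2.trans ((mul_le_mul_of_nonneg_left h1 (Real.exp_pos _).le).trans (le_of_eq ?_))
  ring

include hV hC hBE hW hlo hA hB0 in
/-- (L3) `∫ φ_s |∇e|² ≤ C t D` -/
theorem L3 (hD0 : 0 ≤ D) (hD : ∀ σ, lo ≤ σ → σ ≤ hi → nuP C N K₁ δ w (φ σ) ≤ D)
    (ht : 0 < t) (ht1 : t ≤ 1) (hs : lo ≤ s) (hwin : A * (A * s + t) + t ≤ hi) :
    I (φ s * C.Γ (eW C K₁ w t) (eW C K₁ w t))
      ≤ 24 * Real.exp (2 * |κ|) * Real.exp K₁ ^ 2 * √(1 + N) * B ^ 2 * (t * D) := by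
  have hDir := hC.toIsDir
  have hN := hV.N_pos
  have hB := hC.bei hN hBE
  have hcen := hW.cen
  have hs0 : 0 < s := hlo.trans_le hs
  have hAs : lo ≤ A * s := by nlinarith
  have hAs0 : 0 < A * s := hlo.trans_le hAs
  have h1 := hV.L1 hC hBE hW hlo hA hB0 hD0 hD ht ht1 hAs hwin
  have hEW := hV.eW_mem hC t
  have hE : 1 ≤ Real.exp (2 * |κ|) := Real.one_le_exp (by positivity)
  have hG1 : 1 ≤ Real.exp K₁ := Real.one_le_exp hV.K₁_pos.le
  have h2 := hV.av_wt hW hlo hA hB0 (s := s) hs (by nlinarith)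
    (c := 3 * Real.exp (2 * |κ|) * Real.exp K₁ * (√(1 + N) * √t)) (by positivity)
    (X := C.Γ (eW C K₁ w t) (eW C K₁ w t)) (F := C.gr (eW C K₁ w t)) (by
      filter_upwards [hV.Γe_le hC hB ht.le ht1, gr_sq hDir hEW, hV.wd,
        nonneg_iff_ae.1 (C.gr_nonneg (eW C K₁ w t))] with x a1 a2 a3 a4
      have hX : 0 ≤ w x + δ + N * t := by
        have := mul_nonneg hN.le ht.le
        linarith [a3.1]
      rw [← a2] at a1
      have b1 := q_real1 hE hG1 a4 (Real.sqrt_nonneg _) (Real.sq_sqrt hX) hX a1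
      rw [← a2]
      refine b1.trans ?_
      have b2 := vs a3.1 ht hN.le
      have b3 := mul_le_mul_of_nonneg_right b2 a4
      calc 3 * Real.exp (2 * |κ|) * Real.exp K₁ * (√(w x + δ + N * t) * C.gr (eW C K₁ w t) x)
          ≤ 3 * Real.exp (2 * |κ|) * Real.exp K₁ * (√(1 + N) * √t * ((w x + δ + t) / t) ^ 2
            * C.gr (eW C K₁ w t) x) := mul_le_mul_of_nonneg_left b3 (by positivity)
        _ = _ := by ring)
    (nonneg_iff_ae.1 (C.gr_nonneg _))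
    (mem_mul_top (hcen.top s hs0) (hC.mem1 _ hEW))
    (mem_mul_22 (hcen.mem2 _ hAs0) (gr_mem2 hDir hEW))
  refine h2.trans ((mul_le_mul_of_nonneg_left h1 (by positivity)).trans (le_of_eq ?_))
  have e1 : √t * √t = t := Real.mul_self_sqrt ht.le
  linear_combination (3 * Real.exp (2 * |κ|) * Real.exp K₁ * √(1 + N) * B
    * (8 * Real.exp K₁ * B * D)) * e1

include hV hC hBE hW hlo hA hB0 in
/-- (L4) `∫ φ_s e ≤ C t D` -/
theorem L4 (hD0 : 0 ≤ D) (hD : ∀ σ, lo ≤ σ → σ ≤ hi → nuP C N K₁ δ w (φ σ) ≤ D)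
    (ht : 0 < t) (ht1 : t ≤ 1) (hs : lo ≤ s) (hwin : s + t ≤ hi) :
    I (φ s * (eW C K₁ w t + ec N K₁ δ t • (1 : M →ₘ[m] ℝ))) ≤ Real.exp K₁ * (t * D) := by
  have hDir := hC.toIsDir
  have hN := hV.N_pos
  have hB := hC.bei hN hBE
  have hcen := hW.cen
  have hs0 : 0 < s := hlo.trans_le hs
  have h1 := hV.av_EW hC hB hW hlo hs0 le_rfl ht.le (D := D) (fun τ hτ =>
    hD _ (by linarith [hτ.1]) (by linarith [hτ.2]))
  have hGt : Real.exp (K₁ * t) ≤ Real.exp K₁ :=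
    Real.exp_le_exp.2 (mul_le_of_le_one_right hV.K₁_pos.le ht1)
  have h2 : I (φ s * (eW C K₁ w t + ec N K₁ δ t • (1 : M →ₘ[m] ℝ)))
      = Real.exp (K₁ * t) * ∫ z, φ s z * |EW C K₁ w 0 t z + cE N K₁ δ 0 t| ∂m := by
    unfold I
    rw [← integral_const_mul]
    refine integral_congr_ae ?_
    filter_upwards [mul_ae (φ s) (eW C K₁ w t + ec N K₁ δ t • (1 : M →ₘ[m] ℝ)),
      add_ae (eW C K₁ w t) (ec N K₁ δ t • (1 : M →ₘ[m] ℝ)),
      smul_ae (1 : M →ₘ[m] ℝ) (ec N K₁ δ t), one_ae (M := M) (m := m),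
      eq_iff_ae.1 (hV.eW_eq hC t), smul_ae (EW C K₁ w 0 t) (Real.exp (K₁ * t)),
      hV.EW_ge hC hB le_rfl ht.le] with x a1 a2 a3 a4 a5 a6 a7
    rw [a1, a2, a3, a4, a5, a6, abs_of_nonneg a7]
    have e1 : ec N K₁ δ t = Real.exp (K₁ * t) * cE N K₁ δ 0 t := by
      unfold ec cE
      have e2 : Real.exp (K₁ * t) * Real.exp (-(K₁ * t)) = 1 := by
        rw [← Real.exp_add]; simp
      rw [mul_zero, neg_zero, Real.exp_zero]
      linear_combination (δ + N / K₁) * e2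
    rw [e1]
    ring
  rw [h2]
  have h3 : 0 ≤ ∫ z, φ s z * |EW C K₁ w 0 t z + cE N K₁ δ 0 t| ∂m := by
    refine integral_nonneg_of_ae ?_
    filter_upwards [nonneg_iff_ae.1 (hcen.nonneg s hs0)] with z hz
    exact mul_nonneg hz (abs_nonneg _)
  rw [sub_zero] at h1
  calc Real.exp (K₁ * t) * ∫ z, φ s z * |EW C K₁ w 0 t z + cE N K₁ δ 0 t| ∂m
      ≤ Real.exp K₁ * ∫ z, φ s z * |EW C K₁ w 0 t z + cE N K₁ δ 0 t| ∂m :=
        mul_le_mul_of_nonneg_right hGt h3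
    _ ≤ Real.exp K₁ * (D * t) := mul_le_mul_of_nonneg_left h1 (Real.exp_pos _).le
    _ = _ := by ring

end Vx

/-- the constant of `∫ φ_s |q| ≤ C t D` -/
def cq (N K₁ δ κ B : ℝ) : ℝ :=
  (2 * Real.exp K₁ ^ 2 * K₁ * (1 + N)
    + 4 * Real.exp (2 * |κ|) * Real.exp K₁ * (δ + N) / δ ^ 2) * B
  + 56 * Real.exp (2 * |κ|) * Real.exp K₁ ^ 2 * √(1 + N) * B ^ 2 + 2 * Real.exp K₁

namespace Vx

variable (hV : Vx C N K₁ δ g w) (hC : IsGamma C) (hBE : C.BE κ N) [SigmaFinite m]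
  (hW : Win C φ w δ A B t lo hi) (hlo : 0 < lo) (hA : 1 ≤ A) (hB0 : 0 ≤ B)

include hV in
omit [SigmaFinite m] in
theorem cq_nonneg (hB0 : 0 ≤ B) : 0 ≤ cq N K₁ δ κ B := by
  have := hV.N_pos
  have := hV.K₁_pos
  have := hV.δ_pos
  unfold cq
  positivity

include hV hC hBE in
theorem qc_top (ht : 0 < t) (ht1 : t ≤ 1) : MemLp (qc C N δ w t) ∞ m := by
  have hN := hV.N_pos
  refine mem_top_iff.2 ⟨4 * Real.exp (2 * |κ|) * Real.exp K₁ * (δ + N), ?_⟩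
  filter_upwards [hV.q_le hC (hC.bei hN hBE) ht.le ht1, hV.wd] with x a b
  refine a.trans (mul_le_mul_of_nonneg_left ?_ (by positivity))
  have : N * t ≤ N * 1 := mul_le_mul_of_nonneg_left ht1 hN.le
  linarith [b.2.2]

include hV hC hBE hW hlo hA hB0 in
/-- (L5) `∫ φ_s |q| ≤ C t D` -/
theorem L5 (hD0 : 0 ≤ D) (hD : ∀ σ, lo ≤ σ → σ ≤ hi → nuP C N K₁ δ w (φ σ) ≤ D)
    (ht : 0 < t) (ht1 : t ≤ 1) (htD : t ≤ D) (hs : lo ≤ s) (hwin : A * (A * s + t) + t ≤ hi) :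
    I (φ s * |qc C N δ w t|) ≤ cq N K₁ δ κ B * (t * D) := by
  have hDir := hC.toIsDir
  have hN := hV.N_pos
  have hK := hV.K₁_pos
  have hδ := hV.δ_pos
  have hB := hC.bei hN hBE
  have hcen := hW.cen
  have hs0 : 0 < s := hlo.trans_le hs
  have hAs : lo ≤ A * s := by nlinarith
  have hAs0 : 0 < A * s := hlo.trans_le hAs
  have hEW := hV.eW_mem hC t
  have hAsh : A * s ≤ hi := by nlinarith
  have h1 := hV.L1 hC hBE hW hlo hA hB0 hD0 hD ht ht1 hAs hwin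
  have h4 := hV.L4 hC hBE hW hlo hA hB0 hD0 hD ht ht1 hs (by nlinarith)
  set E := Real.exp (2 * |κ|) with hE
  set G := Real.exp K₁ with hG
  have hE0 : 0 < E := Real.exp_pos _
  have hG0 : 0 < G := Real.exp_pos _
  set a : ℝ := (2 * G ^ 2 * K₁ * (1 + N) + 4 * E * G * (δ + N) / δ ^ 2) * t ^ 2 with ha
  set b : ℝ := 7 * E * G * (√(1 + N) * √t) with hb
  have ha0 : 0 ≤ a := by positivity
  have hb0 : 0 ≤ b := by positivity
  set ecl : M →ₘ[m] ℝ := eW C K₁ w t + ec N K₁ δ t • (1 : M →ₘ[m] ℝ) with hecl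
  have n1 : MemLp (φ (A * s) : M →ₘ[m] ℝ) 1 m := hcen.mem1 _ hAs0
  have n2 : MemLp (φ (A * s) * C.gr (eW C K₁ w t) : M →ₘ[m] ℝ) 1 m :=
    mem_mul_22 (hcen.mem2 _ hAs0) (gr_mem2 hDir hEW)
  have n3 : MemLp (φ s * ecl : M →ₘ[m] ℝ) 1 m := by
    rw [hecl, mul_add, mul_smul_comm, mul_one]
    exact mem_add (mem_mul_22 (hcen.mem2 s hs0) (hC.memLp _ hEW)) (mem_smul _ (hcen.mem1 s hs0))
  have n0 : MemLp (φ s * |qc C N δ w t| : M →ₘ[m] ℝ) 1 m := by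
    have := (hV.qc_top hC hBE ht ht1).abs
    rw [mul_comm]
    exact mem_mul_top ((memLp_congr_ae (AEEqFun.coeFn_abs _)).2 this) (hcen.mem1 s hs0)
  have key : I (φ s * |qc C N δ w t|)
      ≤ I ((a * B) • φ (A * s) + (b * B) • (φ (A * s) * C.gr (eW C K₁ w t))
        + (2 : ℝ) • (φ s * ecl)) := by
    refine I_mono n0 (mem_add (mem_add (mem_smul _ n1) (mem_smul _ n2)) (mem_smul _ n3)) ?_
    rw [le_iff_ae]
    filter_upwards [hW.K4 s hs hAsh, hV.q_le' hC hB ht.le ht1, hV.wd,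
      nonneg_iff_ae.1 (C.gr_nonneg (eW C K₁ w t)), nonneg_iff_ae.1 (hcen.nonneg s hs0),
      mul_ae (φ s) |qc C N δ w t|, abs_ae' (qc C N δ w t),
      add_ae ((a * B) • φ (A * s) + (b * B) • (φ (A * s) * C.gr (eW C K₁ w t)))
        ((2 : ℝ) • (φ s * ecl)),
      add_ae ((a * B) • φ (A * s)) ((b * B) • (φ (A * s) * C.gr (eW C K₁ w t))),
      smul_ae (φ (A * s)) (a * B), smul_ae (φ (A * s) * C.gr (eW C K₁ w t)) (b * B),
      smul_ae (φ s * ecl) (2 : ℝ), mul_ae (φ (A * s)) (C.gr (eW C K₁ w t)), mul_ae (φ s) ecl,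
      add_ae (eW C K₁ w t) (ec N K₁ δ t • (1 : M →ₘ[m] ℝ)),
      smul_ae (1 : M →ₘ[m] ℝ) (ec N K₁ δ t), one_ae (M := M) (m := m)]
      with z k4 q3 u3 g0 p0 c1 c2 c3 c4 c5 c6 c7 c8 c9 d1 d2 d3
    rw [c1, c2, c3, c4, c5, c6, c7, c8, c9, d1, d2, d3, mul_one]
    set v2 := ((w z + δ + t) / t) ^ 2 with hv2
    have w1 := v1 (N := N) u3.1 ht hN.le
    have w2 := v2' u3.1 ht
    have w3 := vs u3.1 ht hN.le
    rw [← hv2] at w1 w2 w3
    have x1 : |qc C N δ w t z| ≤ a * v2 + b * v2 * C.gr (eW C K₁ w t) z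
        + 2 * (eW C K₁ w t z + ec N K₁ δ t) := by
      refine q3.trans ?_
      have y1 : 2 * G ^ 2 * K₁ * t * (w z + δ + N * t)
          ≤ 2 * G ^ 2 * K₁ * t * ((1 + N) * t * v2) :=
        mul_le_mul_of_nonneg_left w1 (by positivity)
      have y2 : 4 * E * G * (δ + N) / δ ^ 2 * (w z + δ) ^ 2
          ≤ 4 * E * G * (δ + N) / δ ^ 2 * (t ^ 2 * v2) :=
        mul_le_mul_of_nonneg_left w2 (by positivity)
      have y3 : 7 * E * G * (√(w z + δ + N * t) * C.gr (eW C K₁ w t) z)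
          ≤ 7 * E * G * (√(1 + N) * √t * v2 * C.gr (eW C K₁ w t) z) :=
        mul_le_mul_of_nonneg_left (mul_le_mul_of_nonneg_right w3 g0) (by positivity)
      have y4 : a * v2 = 2 * G ^ 2 * K₁ * t * ((1 + N) * t * v2)
          + 4 * E * G * (δ + N) / δ ^ 2 * (t ^ 2 * v2) := by rw [ha]; ring
      have y5 : b * v2 * C.gr (eW C K₁ w t) z
          = 7 * E * G * (√(1 + N) * √t * v2 * C.gr (eW C K₁ w t) z) := by rw [hb]; ring
      rw [y4, y5]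
      linarith
    have x2 := mul_le_mul_of_nonneg_left x1 p0
    have x3 : φ s z * v2 * (a + b * C.gr (eW C K₁ w t) z)
        ≤ B * φ (A * s) z * (a + b * C.gr (eW C K₁ w t) z) :=
      mul_le_mul_of_nonneg_right k4 (by positivity)
    calc φ s z * |qc C N δ w t z|
        ≤ φ s z * (a * v2 + b * v2 * C.gr (eW C K₁ w t) z
          + 2 * (eW C K₁ w t z + ec N K₁ δ t)) := x2
      _ = φ s z * v2 * (a + b * C.gr (eW C K₁ w t) z)
          + 2 * (φ s z * (eW C K₁ w t z + ec N K₁ δ t)) := by ring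
      _ ≤ B * φ (A * s) z * (a + b * C.gr (eW C K₁ w t) z)
          + 2 * (φ s z * (eW C K₁ w t z + ec N K₁ δ t)) := by linarith
      _ = _ := by ring
  rw [I_add (mem_add (mem_smul _ n1) (mem_smul _ n2)) (mem_smul _ n3),
    I_add (mem_smul _ n1) (mem_smul _ n2), I_smul, I_smul, I_smul, hcen.mass _ hAs0] at key
  have k1 : b * B * I (φ (A * s) * C.gr (eW C K₁ w t)) ≤ b * B * (8 * G * B * D * √t) :=
    mul_le_mul_of_nonneg_left h1 (by positivity)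
  have e1 : √t * √t = t := Real.mul_self_sqrt ht.le
  have k2 : b * B * (8 * G * B * D * √t) = 56 * E * G ^ 2 * √(1 + N) * B ^ 2 * (t * D) := by
    rw [hb]
    linear_combination (7 * E * G * √(1 + N) * B * (8 * G * B * D)) * e1
  have k3 : a * B * 1 ≤ (2 * G ^ 2 * K₁ * (1 + N) + 4 * E * G * (δ + N) / δ ^ 2) * B * (t * D) := by
    have h5 : t ^ 2 ≤ t * D := by nlinarith
    have h6 : 0 ≤ (2 * G ^ 2 * K₁ * (1 + N) + 4 * E * G * (δ + N) / δ ^ 2) * B := by positivity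
    rw [ha]
    calc (2 * G ^ 2 * K₁ * (1 + N) + 4 * E * G * (δ + N) / δ ^ 2) * t ^ 2 * B * 1
        = (2 * G ^ 2 * K₁ * (1 + N) + 4 * E * G * (δ + N) / δ ^ 2) * B * t ^ 2 := by ring
      _ ≤ _ := mul_le_mul_of_nonneg_left h5 h6
  have k4 : cq N K₁ δ κ B * (t * D)
      = (2 * G ^ 2 * K₁ * (1 + N) + 4 * E * G * (δ + N) / δ ^ 2) * B * (t * D)
        + 56 * E * G ^ 2 * √(1 + N) * B ^ 2 * (t * D) + 2 * G * (t * D) := by
    unfold cq; rw [← hE, ← hG]; ring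
  rw [k4]
  linarith

end Vx

end Vale.Agent.P242.H254

end
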