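import Vale.Agent.P242.H254.E1g

/-! # P242 / H254 / E1h : the averaged estimates (E1), second part -/

set_option linter.all false

open MeasureTheory Filter Topology Set
open scoped ENNReal NNReal

noncomputable section

namespace Vale.Agent.P242.H254

open Vale.Agent.P233

variable {M : Type*} [MeasurableSpace M] {m : Measure M} {C : Calc m}
variable {N K₁ δ κ : ℝ} {g : M → ℝ} {w σ f h ζ : M →ₘ[m] ℝ} {s t t' D T A B lo hi Q : ℝ}
variable {φ : ℝ → M →ₘ[m] ℝ}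

theorem abs_mem_top {F : M →ₘ[m] ℝ} (h : MemLp F ∞ m) : MemLp (|F| : M →ₘ[m] ℝ) ∞ m :=
  (memLp_congr_ae (AEEqFun.coeFn_abs F)).2 h.abs

theorem abs_mem {p : ℝ≥0∞} {F : M →ₘ[m] ℝ} (h : MemLp F p m) : MemLp (|F| : M →ₘ[m] ℝ) p m :=
  (memLp_congr_ae (AEEqFun.coeFn_abs F)).2 h.abs

/-- the constants of the conclusions -/
def cQ (N K₁ δ κ B Q : ℝ) : ℝ :=
  B * Q * cq N K₁ δ κ B + 1 + 2 * √(2 * Real.exp (2 * |κ|) * Real.exp K₁ * (1 + N)) * B ^ 2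

namespace Vx

variable (hV : Vx C N K₁ δ g w) (hC : IsGamma C) (hBE : C.BE κ N) [SigmaFinite m]
  (hW : Win C φ w δ A B t lo hi) (hlo : 0 < lo) (hA : 1 ≤ A) (hB0 : 0 ≤ B)

include hV hC hBE hW hlo hA hB0 in
/-- (L6) `∫ φ_s q² ≤ C t² D` -/
theorem L6 (hD0 : 0 ≤ D) (hD : ∀ σ, lo ≤ σ → σ ≤ hi → nuP C N K₁ δ w (φ σ) ≤ D)
    (ht : 0 < t) (ht1 : t ≤ 1) (htD : t ≤ D) (hs : lo ≤ s)
    (hwin : A * (A * (A * s) + t) + t ≤ hi) :
    I (φ s * qc C N δ w t ^ 2) ≤ 4 * Real.exp (2 * |κ|) * Real.exp K₁ * (1 + N) * B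
      * cq N K₁ δ κ B * (t ^ 2 * D) := by
  have hN := hV.N_pos
  have hcen := hW.cen
  have hs0 : 0 < s := hlo.trans_le hs
  have hAs : lo ≤ A * s := by nlinarith
  have hAs0 : 0 < A * s := hlo.trans_le hAs
  have hAA : A * s ≤ A * (A * s) := by nlinarith
  have h5 := hV.L5 hC hBE hW hlo hA hB0 hD0 hD ht ht1 htD hAs hwin
  have htop := hV.qc_top hC hBE ht ht1
  have hX : MemLp (qc C N δ w t ^ 2 : M →ₘ[m] ℝ) ∞ m := by rw [sq]; exact mem_mul_top htop htop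
  have h1 := hV.av_wt hW hlo hA hB0 (s := s) hs (by
      have : A * (A * s) ≤ A * (A * (A * s) + t) :=
        mul_le_mul_of_nonneg_left (by linarith) (by linarith)
      linarith)
    (c := 4 * Real.exp (2 * |κ|) * Real.exp K₁ * ((1 + N) * t)) (by positivity)
    (X := qc C N δ w t ^ 2) (F := |qc C N δ w t|) (by
      filter_upwards [hV.q_le hC (hC.bei hN hBE) ht.le ht1, hV.wd, sq_ae (qc C N δ w t),
        abs_ae' (qc C N δ w t)] with x a1 a2 a3 a4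
      rw [a3, a4, ← sq_abs, sq]
      refine mul_le_mul_of_nonneg_right (a1.trans ?_) (abs_nonneg _)
      have b1 := v1 (N := N) a2.1 ht hN.le
      have := mul_le_mul_of_nonneg_left b1 (by positivity :
        0 ≤ 4 * Real.exp (2 * |κ|) * Real.exp K₁)
      linarith)
    (by filter_upwards [abs_ae' (qc C N δ w t)] with x a; rw [a]; exact abs_nonneg _)
    (by rw [mul_comm]; exact mem_mul_top hX (hcen.mem1 s hs0))
    (by rw [mul_comm]; exact mem_mul_top (abs_mem_top htop) (hcen.mem1 _ hAs0))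
  refine h1.trans ((mul_le_mul_of_nonneg_left h5 (by positivity)).trans (le_of_eq ?_))
  ring

include hV hC hBE hW hlo in
/-- (L7) `∫ φ_s ν_t ≤ D` -/
theorem L7 (hD : ∀ σ, lo ≤ σ → σ ≤ hi → nuP C N K₁ δ w (φ σ) ≤ D)
    (ht : 0 < t') (hs : lo ≤ s) (hwin : s + t' ≤ hi) :
    I (φ s * nu C N K₁ δ w t') ≤ D := by
  have hs0 : 0 < s := hlo.trans_le hs
  have hcen := hW.cen
  rw [hV.I_nu hC (hC.bei hV.N_pos hBE) ht (hcen.mem2 s hs0) (hcen.mem1 s hs0),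
    hcen.semi s t' hs0 ht.le]
  exact hD _ (by linarith) hwin

include hV hC hBE hW hlo hA hB0 in
/-- `∫ φ_s (P_t w + δ) ≤ C t` -/
theorem Lb (ht : 0 < t) (ht1 : t ≤ 1) (hs : lo ≤ s) (hwin : A * s ≤ hi) :
    I (φ s * (C.P t w + δ • (1 : M →ₘ[m] ℝ))) ≤ Real.exp K₁ * (1 + N) * B * t := by
  have hN := hV.N_pos
  have hcen := hW.cen
  have hs0 : 0 < s := hlo.trans_le hs
  have hAs : lo ≤ A * s := by nlinarith
  have hAs0 : 0 < A * s := hlo.trans_le hAs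
  have hDir := hC.toIsDir
  have hw2 := hC.memLp _ hV.mem
  have n1 : MemLp (φ s * (C.P t w + δ • (1 : M →ₘ[m] ℝ)) : M →ₘ[m] ℝ) 1 m := by
    rw [mul_add, mul_smul_comm, mul_one]
    exact mem_add (mem_mul_22 (hcen.mem2 s hs0) (hDir.P_mem2 t hw2)) (mem_smul _ (hcen.mem1 s hs0))
  have h1 := hV.av_wt hW hlo hA hB0 (s := s) hs hwin
    (c := Real.exp K₁ * ((1 + N) * t)) (by positivity)
    (X := C.P t w + δ • (1 : M →ₘ[m] ℝ)) (F := 1) (by
      filter_upwards [hV.b_le' hC (hC.bei hN hBE) ht.le ht1, hV.wd,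
        add_ae (C.P t w) (δ • (1 : M →ₘ[m] ℝ)), smul_ae (1 : M →ₘ[m] ℝ) δ,
        one_ae (M := M) (m := m)] with x a1 a2 a3 a4 a5
      rw [a3, a4, a5, mul_one, mul_one]
      have b1 := v1 (N := N) a2.1 ht hN.le
      have := mul_le_mul_of_nonneg_left b1 (Real.exp_pos K₁).le
      linarith)
    (by filter_upwards [one_ae (M := M) (m := m)] with x a; rw [a]; exact zero_le_one)
    n1 (by rw [mul_one]; exact hcen.mem1 _ hAs0)
  rw [mul_one, hcen.mass _ hAs0] at h1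
  refine h1.trans (le_of_eq ?_)
  ring

include hV hC hBE hW hlo hA hB0 in
/-- (L10) `∫ φ_s |N - Δb| ≤ C D` -/
theorem L10 (hD0 : 0 ≤ D) (hD : ∀ σ, lo ≤ σ → σ ≤ hi → nuP C N K₁ δ w (φ σ) ≤ D)
    (ht : 0 < t) (ht1 : t ≤ 1) (htD : t ≤ D) (hs : lo ≤ s) (hwin : A * s + t ≤ hi) :
    I (φ s * |N • (1 : M →ₘ[m] ℝ) - C.lap (C.P t w)|)
      ≤ (1 + K₁ * Real.exp K₁ * (1 + N) * B) * D := by
  have hN := hV.N_pos
  have hK := hV.K₁_pos
  have hcen := hW.cen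
  have hs0 : 0 < s := hlo.trans_le hs
  have hDir := hC.toIsDir
  have hw2 := hC.memLp _ hV.mem
  have hAs : s ≤ A * s := by nlinarith
  have h7 := hV.L7 hC hBE hW hlo hD ht hs (by linarith)
  have hb := hV.Lb hC hBE hW hlo hA hB0 ht ht1 hs (by linarith)
  have hlap2 : MemLp (C.lap (C.P t w)) 2 m := (hDir.P_isLap ht hw2).2.1
  have n1 : MemLp (φ s * nu C N K₁ δ w t : M →ₘ[m] ℝ) 1 m := by
    unfold nu
    rw [mul_add, mul_smul_comm, mul_one]
    exact mem_add (mem_smul _ (hcen.mem1 s hs0))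
      (mem_mul_22 (hcen.mem2 s hs0) (hC.memLp _ (hV.nuW_mem hC ht)))
  have n2 : MemLp (φ s * (C.P t w + δ • (1 : M →ₘ[m] ℝ)) : M →ₘ[m] ℝ) 1 m := by
    rw [mul_add, mul_smul_comm, mul_one]
    exact mem_add (mem_mul_22 (hcen.mem2 s hs0) (hDir.P_mem2 t hw2)) (mem_smul _ (hcen.mem1 s hs0))
  have n0 : MemLp (φ s * |N • (1 : M →ₘ[m] ℝ) - C.lap (C.P t w)| : M →ₘ[m] ℝ) 1 m := by
    have m1 : MemLp (φ s * (N • (1 : M →ₘ[m] ℝ) - C.lap (C.P t w)) : M →ₘ[m] ℝ) 1 m := by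
      rw [mul_sub, mul_smul_comm, mul_one]
      exact mem_sub (mem_smul _ (hcen.mem1 s hs0)) (mem_mul_22 (hcen.mem2 s hs0) hlap2)
    refine mem_of_le m1 ?_
    filter_upwards [mul_ae (φ s) |N • (1 : M →ₘ[m] ℝ) - C.lap (C.P t w)|,
      mul_ae (φ s) (N • (1 : M →ₘ[m] ℝ) - C.lap (C.P t w)),
      abs_ae' (N • (1 : M →ₘ[m] ℝ) - C.lap (C.P t w))] with x a b c
    rw [a, b, c, abs_mul, abs_mul, abs_abs]
  have key : I (φ s * |N • (1 : M →ₘ[m] ℝ) - C.lap (C.P t w)|)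
      ≤ I (φ s * nu C N K₁ δ w t + K₁ • (φ s * (C.P t w + δ • (1 : M →ₘ[m] ℝ)))) := by
    refine I_mono n0 (mem_add n1 (mem_smul _ n2)) ?_
    rw [le_iff_ae]
    filter_upwards [mul_ae (φ s) |N • (1 : M →ₘ[m] ℝ) - C.lap (C.P t w)|,
      abs_ae' (N • (1 : M →ₘ[m] ℝ) - C.lap (C.P t w)),
      sub_ae (N • (1 : M →ₘ[m] ℝ)) (C.lap (C.P t w)), smul_ae (1 : M →ₘ[m] ℝ) N,
      one_ae (M := M) (m := m), hV.lap_ae (C := C) t,
      hV.nu_nonneg hC (hC.bei hN hBE) ht, hV.P_bds hDir ht.le,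
      add_ae (φ s * nu C N K₁ δ w t) (K₁ • (φ s * (C.P t w + δ • (1 : M →ₘ[m] ℝ)))),
      smul_ae (φ s * (C.P t w + δ • (1 : M →ₘ[m] ℝ))) K₁, mul_ae (φ s) (nu C N K₁ δ w t),
      mul_ae (φ s) (C.P t w + δ • (1 : M →ₘ[m] ℝ)), add_ae (C.P t w) (δ • (1 : M →ₘ[m] ℝ)),
      smul_ae (1 : M →ₘ[m] ℝ) δ, nonneg_iff_ae.1 (hcen.nonneg s hs0)]
      with x a1 a2 a3 a4 a5 a6 a7 a8 b1 b2 b3 b4 b5 b6 b7
    rw [a1, a2, a3, a4, a5, a6, b1, b2, b3, b4, b5, b6, a5, mul_one, mul_one]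
    have c1 : 0 ≤ K₁ * (C.P t w x + δ) := mul_nonneg hK.le (by linarith [a8.1])
    have c2 : |N - (N + K₁ * (C.P t w x + δ) - nu C N K₁ δ w t x)|
        ≤ nu C N K₁ δ w t x + K₁ * (C.P t w x + δ) := by
      rw [abs_le]; constructor <;> linarith
    have c3 := mul_le_mul_of_nonneg_left c2 b7
    linarith [c3, (by ring : φ s x * (nu C N K₁ δ w t x + K₁ * (C.P t w x + δ))
      = φ s x * nu C N K₁ δ w t x + K₁ * (φ s x * (C.P t w x + δ)))]
  rw [I_add n1 (mem_smul _ n2), I_smul] at key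
  have h8 : K₁ * I (φ s * (C.P t w + δ • (1 : M →ₘ[m] ℝ)))
      ≤ K₁ * (Real.exp K₁ * (1 + N) * B * t) := mul_le_mul_of_nonneg_left hb hK.le
  have h9 : K₁ * (Real.exp K₁ * (1 + N) * B * t) ≤ K₁ * (Real.exp K₁ * (1 + N) * B * D) := by
    have : 0 ≤ Real.exp K₁ * (1 + N) * B := by positivity
    exact mul_le_mul_of_nonneg_left (mul_le_mul_of_nonneg_left htD this) hK.le
  nlinarith

include hV hC hBE hW hlo hA hB0 in
/-- `|∫ φ_s Γ(b, ν_t)| ≤ C D` -/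
theorem Lbn (hD0 : 0 ≤ D) (hD : ∀ σ, lo ≤ σ → σ ≤ hi → nuP C N K₁ δ w (φ σ) ≤ D)
    (ht : 0 < t) (ht1 : t ≤ 1) (hs : lo ≤ s) (hwin : A * (A * s + t) + t ≤ hi) :
    I (φ s * C.Γ (C.P t w) (nuW C K₁ w t))
      ≤ 2 * √(2 * Real.exp (2 * |κ|) * Real.exp K₁ * (1 + N)) * B ^ 2 * D := by
  have hN := hV.N_pos
  have hcen := hW.cen
  have hs0 : 0 < s := hlo.trans_le hs
  have hAs : lo ≤ A * s := by nlinarith
  have hAs0 : 0 < A * s := hlo.trans_le hAs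
  have hDir := hC.toIsDir
  have hPW := hDir.P_memW t hV.mem
  have hνW := hV.nuW_mem hC ht
  have h1 := hV.gr_nu hC (hC.bei hN hBE) hW hBE hlo hA hB0 hD0 hD ht hAs hwin
  set c0 : ℝ := 2 * Real.exp (2 * |κ|) * Real.exp K₁ with hc0
  have hc0p : 0 < c0 := by positivity
  have h2 := hV.av_wt hW hlo hA hB0 (s := s) hs (by nlinarith)
    (c := √(c0 * (1 + N)) * √t) (by positivity)
    (X := C.Γ (C.P t w) (nuW C K₁ w t)) (F := C.gr (nuW C K₁ w t)) (by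
      filter_upwards [hV.Γb_le hC (hC.bei hN hBE) ht.le ht1, hV.wd,
        hDir.Γ_abs_ae hPW hνW, C.gr_ae (nuW C K₁ w t),
        nonneg_iff_ae.1 (C.gr_nonneg (nuW C K₁ w t))] with x a1 a2 a3 a4 a5
      rw [← a4] at a3
      refine (le_abs_self _).trans (a3.trans (mul_le_mul_of_nonneg_right ?_ a5))
      have b1 := vs (N := N) a2.1 ht hN.le
      have b2 : √(C.Γ (C.P t w) (C.P t w) x) ≤ √c0 * √(w x + δ + N * t) := by
        rw [← Real.sqrt_mul hc0p.le]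
        exact Real.sqrt_le_sqrt (by rw [hc0]; exact a1)
      have b3 : √(c0 * (1 + N)) = √c0 * √(1 + N) := Real.sqrt_mul hc0p.le _
      rw [b3]
      refine b2.trans ((mul_le_mul_of_nonneg_left b1 (Real.sqrt_nonneg c0)).trans (le_of_eq ?_))
      ring)
    (nonneg_iff_ae.1 (C.gr_nonneg _))
    (mem_mul_top (hcen.top s hs0) (hDir.Γ_mem1 hPW hνW))
    (mem_mul_22 (hcen.mem2 _ hAs0) (gr_mem2 hDir hνW))
  have e0 : 0 < √t := Real.sqrt_pos.2 ht
  refine h2.trans ((mul_le_mul_of_nonneg_left h1 (by positivity)).trans (le_of_eq ?_))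
  field_simp

include hV hC hBE hW hlo hA hB0 in
/-- (L9) `QQ_s(b,b) ≤ C D` and `∫ φ_s (Δb - N)² ≤ C D` -/
theorem L9 (hκ : 0 ≤ κ + K₁) (hD0 : 0 ≤ D)
    (hD : ∀ σ, lo ≤ σ → σ ≤ hi → nuP C N K₁ δ w (φ σ) ≤ D)
    (ht : 0 < t) (ht1 : t ≤ 1) (htD : t ≤ D) (hs : lo ≤ s) (htQ : t ≤ Q * s)
    (hwin : A * (A * (A * s) + t) + t ≤ hi) :
    H363.QQ C κ N (C.P t w) (C.P t w) (φ s) ≤ cQ N K₁ δ κ B Q * D ∧
    I (φ s * (C.lap (C.P t w) - N • (1 : M →ₘ[m] ℝ)) ^ 2) ≤ N * cQ N K₁ δ κ B Q * D := by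
  have hN := hV.N_pos
  have hK := hV.K₁_pos
  have hB := hC.bei hN hBE
  have hcen := hW.cen
  have hs0 : 0 < s := hlo.trans_le hs
  have hAs : lo ≤ A * s := by nlinarith
  have hAs0 : 0 < A * s := hlo.trans_le hAs
  have hAA : A * s ≤ A * (A * s) := by nlinarith
  have hA2 : s ≤ A * s := by nlinarith
  have hAA' : A * (A * s) ≤ A * (A * (A * s)) := by
    have : 0 ≤ A := by linarith
    exact mul_le_mul_of_nonneg_left hAA this
  have hexp : A * (A * (A * s) + t) = A * (A * (A * s)) + A * t := by ring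
  have hexp2 : A * (A * s + t) = A * (A * s) + A * t := by ring
  have hDir := hC.toIsDir
  have hPW := hDir.P_memW t hV.mem
  have hw2 := hC.memLp _ hV.mem
  have hw1 : A * (A * s + t) + t ≤ hi := by rw [hexp2]; rw [hexp] at hwin; linarith
  have hAt : 0 ≤ A * t := by positivity
  have hL := hcen.isLap hDir hs0
  have K3 := hW.K3 s hs (by rw [hexp] at hwin; linarith)
  have n1' : MemLp (C.lap (φ s)) 1 m := by
    refine mem_of_le (mem_smul (B / s) (hcen.mem1 _ hAs0)) ?_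
    filter_upwards [K3, smul_ae (φ (A * s)) (B / s)] with x a b
    rw [b]
    exact a.trans (le_abs_self _)
  have id := hV.QQ_eq hC hBE ht hL (hcen.top s hs0) (hcen.mem1 s hs0) n1'
  -- the three terms
  have qtop := hV.qc_top hC hBE ht ht1
  have h5 := hV.L5 hC hBE hW hlo hA hB0 hD0 hD ht ht1 htD hAs hwin
  have r1 : (2 : ℝ)⁻¹ * I (C.lap (φ s) * qc C N δ w t) ≤ B * Q * cq N K₁ δ κ B * D := by
    have n2 : MemLp (φ (A * s) * |qc C N δ w t| : M →ₘ[m] ℝ) 1 m := by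
      rw [mul_comm]; exact mem_mul_top (abs_mem_top qtop) (hcen.mem1 _ hAs0)
    have n3 : MemLp (C.lap (φ s) * qc C N δ w t : M →ₘ[m] ℝ) 1 m := by
      rw [mul_comm]; exact mem_mul_top qtop n1'
    have a1 : I (C.lap (φ s) * qc C N δ w t) ≤ I ((B / s) • (φ (A * s) * |qc C N δ w t|)) := by
      refine I_mono n3 (mem_smul _ n2) ?_
      rw [le_iff_ae]
      filter_upwards [K3, mul_ae (C.lap (φ s)) (qc C N δ w t),
        smul_ae (φ (A * s) * |qc C N δ w t|) (B / s), mul_ae (φ (A * s)) |qc C N δ w t|,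
        abs_ae' (qc C N δ w t)] with x c1 c2 c3 c4 c5
      rw [c2, c3, c4, c5]
      calc C.lap (φ s) x * qc C N δ w t x ≤ |C.lap (φ s) x| * |qc C N δ w t x| := by
            rw [← abs_mul]; exact le_abs_self _
        _ ≤ B / s * φ (A * s) x * |qc C N δ w t x| :=
            mul_le_mul_of_nonneg_right c1 (abs_nonneg _)
        _ = _ := by ring
    rw [I_smul] at a1
    have a2 : B / s * I (φ (A * s) * |qc C N δ w t|) ≤ B / s * (cq N K₁ δ κ B * (t * D)) :=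
      mul_le_mul_of_nonneg_left h5 (by positivity)
    have hcq := hV.cq_nonneg (κ := κ) hB0
    have a3 : B / s * (cq N K₁ δ κ B * (t * D)) ≤ B * Q * cq N K₁ δ κ B * D := by
      have h6 : t / s ≤ Q := by rw [div_le_iff₀ hs0]; exact htQ
      have h7 : 0 ≤ B * cq N K₁ δ κ B * D := by positivity
      have h8 := mul_le_mul_of_nonneg_left h6 h7
      have e1 : B / s * (cq N K₁ δ κ B * (t * D)) = B * cq N K₁ δ κ B * D * (t / s) := by
        field_simp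
      have e2 : B * Q * cq N K₁ δ κ B * D = B * cq N K₁ δ κ B * D * Q := by ring
      rw [e1, e2]; exact h8
    have a4 : 0 ≤ B * Q * cq N K₁ δ κ B * D := by
      have h6 : 0 ≤ Q := by
        by_contra hneg
        have : Q * s < 0 := mul_neg_of_neg_of_pos (not_le.1 hneg) hs0
        linarith
      positivity
    linarith
  have r2 : I (φ s * (N • (1 : M →ₘ[m] ℝ) - C.lap (C.P t w))) ≤ D := by
    have h7 := hV.L7 hC hBE hW hlo hD ht hs (by rw [hexp] at hwin; linarith)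
    refine le_trans ?_ h7
    have hlap2 : MemLp (C.lap (C.P t w)) 2 m := (hDir.P_isLap ht hw2).2.1
    have m1 : MemLp (φ s * (N • (1 : M →ₘ[m] ℝ) - C.lap (C.P t w)) : M →ₘ[m] ℝ) 1 m := by
      rw [mul_sub, mul_smul_comm, mul_one]
      exact mem_sub (mem_smul _ (hcen.mem1 s hs0)) (mem_mul_22 (hcen.mem2 s hs0) hlap2)
    have m2 : MemLp (φ s * nu C N K₁ δ w t : M →ₘ[m] ℝ) 1 m := by
      unfold nu
      rw [mul_add, mul_smul_comm, mul_one]
      exact mem_add (mem_smul _ (hcen.mem1 s hs0))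
        (mem_mul_22 (hcen.mem2 s hs0) (hC.memLp _ (hV.nuW_mem hC ht)))
    refine av_le (hcen.nonneg s hs0) m1 m2 ?_
    filter_upwards [sub_ae (N • (1 : M →ₘ[m] ℝ)) (C.lap (C.P t w)), smul_ae (1 : M →ₘ[m] ℝ) N,
      one_ae (M := M) (m := m), hV.lap_ae (C := C) t, hV.P_bds hDir ht.le] with x a1 a2 a3 a4 a5
    rw [a1, a2, a3, a4]
    have : 0 ≤ K₁ * (C.P t w x + δ) := mul_nonneg hK.le (by linarith [a5.1])
    linarith
  have r3 := hV.Lbn hC hBE hW hlo hA hB0 hD0 hD ht ht1 hs hw1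
  have hQ0 : 0 ≤ H363.QQ C κ N (C.P t w) (C.P t w) (φ s) := by
    have bT := (H715.P_testI_pos hC hN hBE ht hw2 hV.memA.2).1
    have := NN_ge hC hN hBE bT (hcen.memA hDir hs0) (hcen.nonneg s hs0)
    unfold H363.QQ
    rw [sq] at this
    linarith
  have hS0 : 0 ≤ N⁻¹ * I (φ s * (C.lap (C.P t w) - N • (1 : M →ₘ[m] ℝ)) ^ 2) :=
    mul_nonneg (by positivity) (I_nonneg (mul_nonneg (hcen.nonneg s hs0) (sq_nonneg' _)))
  have hG0 : 0 ≤ (κ + K₁) * I (φ s * C.Γ (C.P t w) (C.P t w)) :=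
    mul_nonneg hκ (I_nonneg (mul_nonneg (hcen.nonneg s hs0) (hC.nonneg _ hPW)))
  have tot : (2 : ℝ)⁻¹ * I (C.lap (φ s) * qc C N δ w t)
      + I (φ s * (N • (1 : M →ₘ[m] ℝ) - C.lap (C.P t w)))
      + I (φ s * C.Γ (C.P t w) (nuW C K₁ w t)) ≤ cQ N K₁ δ κ B Q * D := by
    unfold cQ
    nlinarith
  refine ⟨by linarith, ?_⟩
  have h10 : N⁻¹ * I (φ s * (C.lap (C.P t w) - N • (1 : M →ₘ[m] ℝ)) ^ 2)
      ≤ cQ N K₁ δ κ B Q * D := by linarith
  rw [inv_mul_le_iff₀ hN] at h10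
  linarith

end Vx

end Vale.Agent.P242.H254

end
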