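import Vale.Agent.P242.H254.E1h

/-! # P242 / H254 / E1i : the averaged estimates (E1), third part: change of scale -/

set_option linter.all false

open MeasureTheory Filter Topology Set
open scoped ENNReal NNReal

noncomputable section

namespace Vale.Agent.P242.H254

open Vale.Agent.P233

variable {M : Type*} [MeasurableSpace M] {m : Measure M} {C : Calc m}
variable {N K₁ δ κ : ℝ} {g : M → ℝ} {w σ f h ζ : M →ₘ[m] ℝ} {s t t' D T A B lo hi Q : ℝ}
variable {φ : ℝ → M →ₘ[m] ℝ}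

namespace Vx

variable (hV : Vx C N K₁ δ g w) (hC : IsGamma C) (hBE : C.BE κ N) [SigmaFinite m]
  (hW : Win C φ w δ A B t lo hi) (hlo : 0 < lo) (hA : 1 ≤ A) (hB0 : 0 ≤ B)

include hV hC hBE hW hlo hA hB0 in
/-- (L1) at any time -/
theorem L1' (hD0 : 0 ≤ D) (hD : ∀ σ, lo ≤ σ → σ ≤ hi → nuP C N K₁ δ w (φ σ) ≤ D)
    (hT : 0 < T) (hT1 : T ≤ 1) (hs : lo ≤ s) (hwin : A * (s + T) + T ≤ hi) :
    I (φ s * C.gr (eW C K₁ w T)) ≤ 8 * Real.exp K₁ * B * D * √T := by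
  have hDir := hC.toIsDir
  have hN := hV.N_pos
  have hcen := hW.cen
  have hs0 : 0 < s := hlo.trans_le hs
  have h1 := hV.gr_EW hC (hC.bei hN hBE) hW hlo hA hB0 hD0 hD hT hs hwin
  have m1 := mem_mul_22 (hcen.mem2 s hs0) (gr_mem2 hDir (hV.EW_mem hDir 0 T))
  have h2 : I (φ s * C.gr (eW C K₁ w T)) ≤ Real.exp K₁ * I (φ s * C.gr (EW C K₁ w 0 T)) := by
    rw [← I_smul, ← mul_smul_comm]
    refine av_le (hcen.nonneg s hs0)
      (mem_mul_22 (hcen.mem2 s hs0) (gr_mem2 hDir (hV.eW_mem hC T)))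
      (by rw [mul_smul_comm]; exact mem_smul _ m1) ?_
    rw [hV.eW_eq hC T]
    filter_upwards [gr_smul hDir (Real.exp (K₁ * T)) (hV.EW_mem hDir 0 T),
      smul_ae (C.gr (EW C K₁ w 0 T)) (Real.exp K₁),
      nonneg_iff_ae.1 (C.gr_nonneg (EW C K₁ w 0 T))] with x a b c
    rw [a, b, abs_of_pos (Real.exp_pos _)]
    refine mul_le_mul_of_nonneg_right (Real.exp_le_exp.2 ?_) c
    exact mul_le_of_le_one_right hV.K₁_pos.le hT1
  refine h2.trans ((mul_le_mul_of_nonneg_left h1 (Real.exp_pos _).le).trans (le_of_eq ?_))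
  ring

include hV hC hW hlo hA hB0 in
/-- `∫ φ_s |∇w| ≤ C √t` -/
theorem Lgw (ht : 0 < t) (hs : lo ≤ s) (hwin : A * s ≤ hi) :
    I (φ s * C.gr w) ≤ √2 * √t * B := by
  have hDir := hC.toIsDir
  have hcen := hW.cen
  have hs0 : 0 < s := hlo.trans_le hs
  have hAs : lo ≤ A * s := by nlinarith
  have hAs0 : 0 < A * s := hlo.trans_le hAs
  have h1 := hV.av_wt hW hlo hA hB0 (s := s) hs hwin
    (c := √2 * √t) (by positivity)
    (X := C.gr w) (F := 1) (by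
      filter_upwards [C.gr_ae w, hV.Γ_le, hV.wd, one_ae (M := M) (m := m)] with x a1 a2 a3 a4
      rw [a1, a4, mul_one]
      have b1 := vs (N := 0) a3.1 ht le_rfl
      rw [zero_mul, add_zero, add_zero, Real.sqrt_one, one_mul] at b1
      calc √(C.Γ w w x) ≤ √(2 * (w x + δ)) := Real.sqrt_le_sqrt a2
        _ = √2 * √(w x + δ) := Real.sqrt_mul (by norm_num) _
        _ ≤ √2 * (√t * ((w x + δ + t) / t) ^ 2) :=
            mul_le_mul_of_nonneg_left b1 (Real.sqrt_nonneg _)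
        _ = _ := by ring)
    (by filter_upwards [one_ae (M := M) (m := m)] with x a; rw [a]; exact zero_le_one)
    (mem_mul_22 (hcen.mem2 s hs0) (gr_mem2 hDir hV.mem))
    (by rw [mul_one]; exact hcen.mem1 _ hAs0)
  rwa [mul_one, hcen.mass _ hAs0, mul_one] at h1

include hV hC hBE hW hlo hA hB0 in
/-- (L12) `∫ φ_s Γ(b,b) ≤ C t` -/
theorem L12 (ht : 0 < t) (ht1 : t ≤ 1) (hs : lo ≤ s) (hwin : A * s ≤ hi) :
    I (φ s * C.Γ (C.P t w) (C.P t w))
      ≤ 2 * Real.exp (2 * |κ|) * Real.exp K₁ * (1 + N) * B * t := by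
  have hDir := hC.toIsDir
  have hN := hV.N_pos
  have hcen := hW.cen
  have hs0 : 0 < s := hlo.trans_le hs
  have hAs : lo ≤ A * s := by nlinarith
  have hAs0 : 0 < A * s := hlo.trans_le hAs
  have hPW := hDir.P_memW t hV.mem
  have h1 := hV.av_wt hW hlo hA hB0 (s := s) hs hwin
    (c := 2 * Real.exp (2 * |κ|) * Real.exp K₁ * ((1 + N) * t)) (by positivity)
    (X := C.Γ (C.P t w) (C.P t w)) (F := 1) (by
      filter_upwards [hV.Γb_le hC (hC.bei hN hBE) ht.le ht1, hV.wd,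
        one_ae (M := M) (m := m)] with x a1 a2 a3
      rw [a3, mul_one]
      have b1 := v1 (N := N) a2.1 ht hN.le
      have b2 := mul_le_mul_of_nonneg_left b1 (by positivity :
        0 ≤ 2 * Real.exp (2 * |κ|) * Real.exp K₁)
      refine a1.trans (b2.trans (le_of_eq (by ring))))
    (by filter_upwards [one_ae (M := M) (m := m)] with x a; rw [a]; exact zero_le_one)
    (mem_mul_top (hcen.top s hs0) (hC.mem1 _ hPW))
    (by rw [mul_one]; exact hcen.mem1 _ hAs0)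
  rw [mul_one, hcen.mass _ hAs0] at h1
  refine h1.trans (le_of_eq ?_)
  ring

include hV hC hBE hW hlo hA hB0 in
/-- (L12) `∫ φ_s |∇b| ≤ C √t` -/
theorem L12g (ht : 0 < t) (ht1 : t ≤ 1) (hs : lo ≤ s) (hwin : A * s ≤ hi) :
    I (φ s * C.gr (C.P t w))
      ≤ √(2 * Real.exp (2 * |κ|) * Real.exp K₁) * √(1 + N) * B * √t := by
  have hDir := hC.toIsDir
  have hN := hV.N_pos
  have hcen := hW.cen
  have hs0 : 0 < s := hlo.trans_le hs
  have hAs : lo ≤ A * s := by nlinarith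
  have hAs0 : 0 < A * s := hlo.trans_le hAs
  have hPW := hDir.P_memW t hV.mem
  have h1 := hV.av_wt hW hlo hA hB0 (s := s) hs hwin
    (c := √(2 * Real.exp (2 * |κ|) * Real.exp K₁) * (√(1 + N) * √t)) (by positivity)
    (X := C.gr (C.P t w)) (F := 1) (by
      filter_upwards [hV.Γb_le hC (hC.bei hN hBE) ht.le ht1, hV.wd, C.gr_ae (C.P t w),
        one_ae (M := M) (m := m)] with x a1 a2 a3 a4
      rw [a3, a4, mul_one]
      have b1 := vs (N := N) a2.1 ht hN.le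
      calc √(C.Γ (C.P t w) (C.P t w) x)
          ≤ √(2 * Real.exp (2 * |κ|) * Real.exp K₁ * (w x + δ + N * t)) := Real.sqrt_le_sqrt a1
        _ = √(2 * Real.exp (2 * |κ|) * Real.exp K₁) * √(w x + δ + N * t) :=
            Real.sqrt_mul (by positivity) _
        _ ≤ √(2 * Real.exp (2 * |κ|) * Real.exp K₁)
            * (√(1 + N) * √t * ((w x + δ + t) / t) ^ 2) :=
            mul_le_mul_of_nonneg_left b1 (Real.sqrt_nonneg _)
        _ = _ := by ring)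
    (by filter_upwards [one_ae (M := M) (m := m)] with x a; rw [a]; exact zero_le_one)
    (mem_mul_22 (hcen.mem2 s hs0) (gr_mem2 hDir hPW))
    (by rw [mul_one]; exact hcen.mem1 _ hAs0)
  rw [mul_one, hcen.mass _ hAs0] at h1
  refine h1.trans (le_of_eq ?_)
  ring

end Vx

/-- the constant of the change of scale -/
def c11 (K₁ B : ℝ) : ℝ := (√2 * K₁ + 16) * Real.exp K₁ * B

namespace Vx

variable (hV : Vx C N K₁ δ g w) (hC : IsGamma C) (hBE : C.BE κ N) [SigmaFinite m]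
  (hW : Win C φ w δ A B t lo hi) (hlo : 0 < lo) (hA : 1 ≤ A) (hB0 : 0 ≤ B)

include hV hC hBE hW hlo hA hB0 in
/-- (L11) `∫ φ_s |∇(b_{t'} - b_t)| ≤ C √t D` -/
theorem L11 (hD0 : 0 ≤ D) (hD : ∀ σ, lo ≤ σ → σ ≤ hi → nuP C N K₁ δ w (φ σ) ≤ D)
    (ht' : 0 < t') (htt : t' ≤ t) (ht1 : t ≤ 1) (htD : t ≤ D) (hs : lo ≤ s)
    (hwin : A * (s + t) + t ≤ hi) :
    I (φ s * C.gr (C.P t' w - C.P t w)) ≤ c11 K₁ B * (√t * D) := by
  have hDir := hC.toIsDir
  have hN := hV.N_pos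
  have hK := hV.K₁_pos
  have hcen := hW.cen
  have ht : 0 < t := ht'.trans_le htt
  have hs0 : 0 < s := hlo.trans_le hs
  have h1 := hV.L1' hC hBE hW hlo hA hB0 hD0 hD ht ht1 hs hwin
  have h2 := hV.L1' hC hBE hW hlo hA hB0 hD0 hD ht' (htt.trans ht1) hs (by
    have : A * (s + t') ≤ A * (s + t) := mul_le_mul_of_nonneg_left (by linarith) (by linarith)
    linarith)
  have h3 := hV.Lgw hC hW hlo hA hB0 ht hs (by
    have : A * s ≤ A * (s + t) := mul_le_mul_of_nonneg_left (by linarith) (by linarith)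
    linarith)
  set G := Real.exp (K₁ * t) with hG
  set G' := Real.exp (K₁ * t') with hG'
  have hGG : G' ≤ G := Real.exp_le_exp.2 (mul_le_mul_of_nonneg_left htt hK.le)
  have hG'1 : 1 ≤ G' := Real.one_le_exp (by positivity)
  have hG1 : G ≤ Real.exp K₁ := Real.exp_le_exp.2 (mul_le_of_le_one_right hK.le ht1)
  have hc : |G' - G| ≤ K₁ * t * Real.exp K₁ := by
    rw [abs_sub_comm, abs_of_nonneg (by linarith)]
    have a1 := exp_sub_one_le (K₁ * t)
    have a2 : K₁ * t * G ≤ K₁ * t * Real.exp K₁ :=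
      mul_le_mul_of_nonneg_left hG1 (by positivity)
    rw [← hG] at a1
    linarith
  have hwW := hV.mem
  have he := hV.eW_mem hC t
  have he' := hV.eW_mem hC t'
  have hcw : (G' - G) • w ∈ C.W := hC.smul_mem _ _ hwW
  have hne : (-1 : ℝ) • eW C K₁ w t' ∈ C.W := hC.smul_mem _ _ he'
  have e1 : C.P t' w - C.P t w = (G' - G) • w + ((-1 : ℝ) • eW C K₁ w t' + eW C K₁ w t) := by
    unfold eW
    rw [← hG, ← hG', sub_smul, neg_one_smul]
    abel
  have hS := hC.add_mem _ hne _ he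
  have hDW : C.P t' w - C.P t w ∈ C.W := hDir.sub_mem (hDir.P_memW _ hwW) (hDir.P_memW _ hwW)
  have m0 := mem_mul_22 (hcen.mem2 s hs0) (gr_mem2 hDir hwW)
  have m1 := mem_mul_22 (hcen.mem2 s hs0) (gr_mem2 hDir he')
  have m2 := mem_mul_22 (hcen.mem2 s hs0) (gr_mem2 hDir he)
  have h4 : I (φ s * C.gr (C.P t' w - C.P t w))
      ≤ (K₁ * t * Real.exp K₁) * I (φ s * C.gr w) + (I (φ s * C.gr (eW C K₁ w t'))
        + I (φ s * C.gr (eW C K₁ w t))) := by
    rw [← I_smul, ← I_add m1 m2, ← I_add (mem_smul _ m0) (mem_add m1 m2), ← mul_smul_comm,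
      ← mul_add, ← mul_add]
    refine av_le (hcen.nonneg s hs0) (mem_mul_22 (hcen.mem2 s hs0) (gr_mem2 hDir hDW)) ?_ ?_
    · rw [mul_add, mul_add, mul_smul_comm]
      exact mem_add (mem_smul _ m0) (mem_add m1 m2)
    · rw [e1]
      filter_upwards [gr_add_le hDir hcw hS, gr_add_le hDir hne he, gr_smul hDir (G' - G) hwW,
        gr_smul hDir (-1) he', nonneg_iff_ae.1 (C.gr_nonneg w),
        add_ae ((K₁ * t * Real.exp K₁) • C.gr w)
          (C.gr (eW C K₁ w t') + C.gr (eW C K₁ w t)),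
        add_ae (C.gr (eW C K₁ w t')) (C.gr (eW C K₁ w t)),
        smul_ae (C.gr w) (K₁ * t * Real.exp K₁)] with x a1 a2 a3 a4 a5 a6 a7 a8
      rw [a6, a7, a8]
      rw [a3] at a1
      rw [a4, abs_neg, abs_one, one_mul] at a2
      have a9 := mul_le_mul_of_nonneg_right hc a5
      linarith
  refine h4.trans ?_
  have hst : √t' ≤ √t := Real.sqrt_le_sqrt htt
  have b1 : 8 * Real.exp K₁ * B * D * √t' ≤ 8 * Real.exp K₁ * B * D * √t :=
    mul_le_mul_of_nonneg_left hst (by positivity)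
  have b2 : (K₁ * t * Real.exp K₁) * I (φ s * C.gr w)
      ≤ (K₁ * D * Real.exp K₁) * (√2 * √t * B) := by
    refine mul_le_mul ?_ h3 (av_nn (hcen.nonneg s hs0) (nonneg_iff_ae.1 (C.gr_nonneg w)))
      (by positivity)
    exact mul_le_mul_of_nonneg_right (mul_le_mul_of_nonneg_left htD hK.le) (Real.exp_pos _).le
  unfold c11
  linarith [b1, b2, h1, h2, (by ring : (√2 * K₁ + 16) * Real.exp K₁ * B * (√t * D)
    = (K₁ * D * Real.exp K₁) * (√2 * √t * B) + (8 * Real.exp K₁ * B * D * √t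
      + 8 * Real.exp K₁ * B * D * √t))]

include hV hC hBE hW hlo hA hB0 in
/-- (L13) `∫ φ_s |w - b_t + N t| ≤ C t D` -/
theorem L13 (hD0 : 0 ≤ D) (hD : ∀ σ, lo ≤ σ → σ ≤ hi → nuP C N K₁ δ w (φ σ) ≤ D)
    (ht : 0 < t) (ht1 : t ≤ 1) (htD : t ≤ D) (hs : lo ≤ s)
    (hwin : A * s ≤ hi) (hwin2 : s + t ≤ hi) :
    I (φ s * |w - C.P t w + (N * t) • (1 : M →ₘ[m] ℝ)|)
      ≤ Real.exp K₁ * (1 + K₁ * B + N * K₁) * (t * D) := by
  have hDir := hC.toIsDir
  have hN := hV.N_pos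
  have hK := hV.K₁_pos
  have hB := hC.bei hN hBE
  have hcen := hW.cen
  have hs0 : 0 < s := hlo.trans_le hs
  have hAs : lo ≤ A * s := by nlinarith
  have hAs0 : 0 < A * s := hlo.trans_le hAs
  have hw2 := hC.memLp _ hV.mem
  have h4 := hV.L4 hC hBE hW hlo hA hB0 hD0 hD ht ht1 hs hwin2
  have hφ2 := hcen.mem2 s hs0
  have hφ1 := hcen.mem1 s hs0
  have nb : MemLp (φ s * (w + δ • (1 : M →ₘ[m] ℝ)) : M →ₘ[m] ℝ) 1 m := by
    rw [mul_add, mul_smul_comm, mul_one]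
    exact mem_add (mem_mul_22 hφ2 hw2) (mem_smul _ hφ1)
  have h5 := hV.av_wt hW hlo hA hB0 (s := s) hs hwin
    (c := t) ht.le
    (X := w + δ • (1 : M →ₘ[m] ℝ)) (F := 1) (by
      filter_upwards [hV.wd, add_ae w (δ • (1 : M →ₘ[m] ℝ)), smul_ae (1 : M →ₘ[m] ℝ) δ,
        one_ae (M := M) (m := m)] with x a2 a3 a4 a5
      rw [a3, a4, a5, mul_one, mul_one]
      exact v0 a2.1 ht)
    (by filter_upwards [one_ae (M := M) (m := m)] with x a; rw [a]; exact zero_le_one)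
    nb (by rw [mul_one]; exact hcen.mem1 _ hAs0)
  rw [mul_one, hcen.mass _ hAs0, mul_one] at h5
  set G := Real.exp (K₁ * t) with hG
  have hG1 : G ≤ Real.exp K₁ := Real.exp_le_exp.2 (mul_le_of_le_one_right hK.le ht1)
  have hG0 : 1 ≤ G := Real.one_le_exp (by positivity)
  have c1 : G - 1 ≤ K₁ * t * Real.exp K₁ := by
    have a1 := exp_sub_one_le (K₁ * t)
    have a2 : K₁ * t * G ≤ K₁ * t * Real.exp K₁ :=
      mul_le_mul_of_nonneg_left hG1 (by positivity)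
    rw [← hG] at a1
    linarith
  have c2 : 0 ≤ (G - 1) / K₁ - t := by
    rw [sub_nonneg, le_div_iff₀ hK]
    have := Real.add_one_le_exp (K₁ * t)
    rw [← hG] at this
    linarith
  have c3 : (G - 1) / K₁ - t ≤ K₁ * t ^ 2 * Real.exp K₁ := by
    have a1 := exp_sub_one_sub_le (x := K₁ * t) (by positivity)
    rw [← hG] at a1
    have a2 : (K₁ * t) ^ 2 * G ≤ (K₁ * t) ^ 2 * Real.exp K₁ :=
      mul_le_mul_of_nonneg_left hG1 (by positivity)
    rw [sub_le_iff_le_add, div_le_iff₀ hK]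
    nlinarith
  set c4 : ℝ := N * (K₁ * t ^ 2 * Real.exp K₁) with hc4
  have hc4' : 0 ≤ c4 := by positivity
  have m1 : MemLp (φ s * (eW C K₁ w t + ec N K₁ δ t • (1 : M →ₘ[m] ℝ)) : M →ₘ[m] ℝ) 1 m := by
    rw [mul_add, mul_smul_comm, mul_one]
    exact mem_add (mem_mul_22 hφ2 (hC.memLp _ (hV.eW_mem hC t))) (mem_smul _ hφ1)
  have m2 : MemLp (φ s * (w - C.P t w + (N * t) • (1 : M →ₘ[m] ℝ)) : M →ₘ[m] ℝ) 1 m := by
    rw [mul_add, mul_smul_comm, mul_one]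
    exact mem_add (mem_mul_22 hφ2 (mem_sub hw2 (hDir.P_mem2 t hw2))) (mem_smul _ hφ1)
  have e0 : φ s * |w - C.P t w + (N * t) • (1 : M →ₘ[m] ℝ)|
      = |φ s * (w - C.P t w + (N * t) • (1 : M →ₘ[m] ℝ))| := by
    rw [eq_iff_ae]
    filter_upwards [mul_ae (φ s) |w - C.P t w + (N * t) • (1 : M →ₘ[m] ℝ)|,
      abs_ae' (w - C.P t w + (N * t) • (1 : M →ₘ[m] ℝ)),
      abs_ae' (φ s * (w - C.P t w + (N * t) • (1 : M →ₘ[m] ℝ))),
      mul_ae (φ s) (w - C.P t w + (N * t) • (1 : M →ₘ[m] ℝ)),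
      nonneg_iff_ae.1 (hcen.nonneg s hs0)] with x a1 a2 a3 a4 a5
    rw [a1, a2, a3, a4, abs_mul, abs_of_nonneg a5]
  have h6 : I (φ s * |w - C.P t w + (N * t) • (1 : M →ₘ[m] ℝ)|)
      ≤ I (φ s * (eW C K₁ w t + ec N K₁ δ t • (1 : M →ₘ[m] ℝ)))
        + ((K₁ * t * Real.exp K₁) * I (φ s * (w + δ • (1 : M →ₘ[m] ℝ))) + c4 * I (φ s)) := by
    rw [← I_smul, ← I_smul, ← I_add (mem_smul _ nb) (mem_smul _ hφ1),
      ← I_add m1 (mem_add (mem_smul _ nb) (mem_smul _ hφ1))]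
    refine I_mono (by rw [e0]; exact abs_mem m2)
      (mem_add m1 (mem_add (mem_smul _ nb) (mem_smul _ hφ1))) ?_
    rw [le_iff_ae]
    filter_upwards [mul_ae (φ s) |w - C.P t w + (N * t) • (1 : M →ₘ[m] ℝ)|,
      abs_ae' (w - C.P t w + (N * t) • (1 : M →ₘ[m] ℝ)),
      add_ae (w - C.P t w) ((N * t) • (1 : M →ₘ[m] ℝ)), sub_ae w (C.P t w),
      smul_ae (1 : M →ₘ[m] ℝ) (N * t), one_ae (M := M) (m := m),
      add_ae (φ s * (eW C K₁ w t + ec N K₁ δ t • (1 : M →ₘ[m] ℝ)))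
        ((K₁ * t * Real.exp K₁) • (φ s * (w + δ • (1 : M →ₘ[m] ℝ))) + c4 • φ s),
      add_ae ((K₁ * t * Real.exp K₁) • (φ s * (w + δ • (1 : M →ₘ[m] ℝ)))) (c4 • φ s),
      smul_ae (φ s * (w + δ • (1 : M →ₘ[m] ℝ))) (K₁ * t * Real.exp K₁), smul_ae (φ s) c4,
      mul_ae (φ s) (eW C K₁ w t + ec N K₁ δ t • (1 : M →ₘ[m] ℝ)),
      mul_ae (φ s) (w + δ • (1 : M →ₘ[m] ℝ)),
      add_ae (eW C K₁ w t) (ec N K₁ δ t • (1 : M →ₘ[m] ℝ)),
      smul_ae (1 : M →ₘ[m] ℝ) (ec N K₁ δ t), add_ae w (δ • (1 : M →ₘ[m] ℝ)),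
      smul_ae (1 : M →ₘ[m] ℝ) δ, hV.e_nonneg hC hB ht.le,
      eW_ae (C := C) (K₁ := K₁) (w := w) t, hV.wd,
      nonneg_iff_ae.1 (hcen.nonneg s hs0)]
      with x a1 a2 a3 a4 a5 a6 a7 a8 a9 a10 a11 a12 a13 a14 a15 a16 a17 a18 a19 a20
    rw [a1, a2, a3, a4, a5, a6, a7, a8, a9, a10, a11, a12, a13, a14, a15, a16, a6, mul_one,
      mul_one, mul_one]
    have b0 : w x - C.P t w x + N * t = (eW C K₁ w t x + ec N K₁ δ t)
        - (G - 1) * (w x + δ) - N * ((G - 1) / K₁ - t) := by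
      rw [a18]
      unfold ec
      rw [← hG]
      field_simp
      ring
    have b1 : 0 ≤ (G - 1) * (w x + δ) := mul_nonneg (by linarith) a19.1
    have b2 : 0 ≤ N * ((G - 1) / K₁ - t) := mul_nonneg hN.le c2
    have b3 : (G - 1) * (w x + δ) ≤ K₁ * t * Real.exp K₁ * (w x + δ) :=
      mul_le_mul_of_nonneg_right c1 a19.1
    have b4 : N * ((G - 1) / K₁ - t) ≤ c4 := mul_le_mul_of_nonneg_left c3 hN.le
    have b5 : |w x - C.P t w x + N * t| ≤ (eW C K₁ w t x + ec N K₁ δ t)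
        + (K₁ * t * Real.exp K₁ * (w x + δ) + c4) := by
      rw [b0, abs_le]
      constructor <;> linarith
    calc φ s x * |w x - C.P t w x + N * t|
        ≤ φ s x * ((eW C K₁ w t x + ec N K₁ δ t)
          + (K₁ * t * Real.exp K₁ * (w x + δ) + c4)) := mul_le_mul_of_nonneg_left b5 a20
      _ = _ := by ring
  refine h6.trans ?_
  rw [hcen.mass s hs0, mul_one]
  have d1 : K₁ * t * Real.exp K₁ * I (φ s * (w + δ • (1 : M →ₘ[m] ℝ)))
      ≤ K₁ * t * Real.exp K₁ * (D * B) := by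
    refine mul_le_mul_of_nonneg_left (h5.trans ?_) (by positivity)
    exact mul_le_mul_of_nonneg_right htD hB0
  have d2 : c4 ≤ N * (K₁ * (t * D) * Real.exp K₁) := by
    rw [hc4]
    refine mul_le_mul_of_nonneg_left (mul_le_mul_of_nonneg_right
      (mul_le_mul_of_nonneg_left ?_ hK.le) (Real.exp_pos _).le) hN.le
    rw [sq]
    exact mul_le_mul_of_nonneg_left htD ht.le
  refine (add_le_add h4 (add_le_add d1 d2)).trans (le_of_eq ?_)
  ring

end Vx

end Vale.Agent.P242.H254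

end
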