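import Vale.Agent.P242.H254.E1i

/-! # P242 / H254 / E1j : all averaged estimates (E1) together, abstract form -/

set_option linter.all false

open MeasureTheory Filter Topology Set
open scoped ENNReal NNReal

noncomputable section

namespace Vale.Agent.P242.H254

open Vale.Agent.P233

variable {M : Type*} [MeasurableSpace M] {m : Measure M} {C : Calc m}
variable {N K₁ δ κ : ℝ} {g : M → ℝ} {w : M →ₘ[m] ℝ} {s T D A B lo hi Q : ℝ}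
variable {φ : ℝ → M →ₘ[m] ℝ}

def c6 (N K₁ δ κ B : ℝ) : ℝ :=
  4 * Real.exp (2 * |κ|) * Real.exp K₁ * (1 + N) * B * cq N K₁ δ κ B

def c10 (N K₁ B : ℝ) : ℝ := 1 + K₁ * Real.exp K₁ * (1 + N) * B

def c12 (N K₁ κ B : ℝ) : ℝ := 2 * Real.exp (2 * |κ|) * Real.exp K₁ * (1 + N) * B

def cb (N K₁ B : ℝ) : ℝ := Real.exp K₁ * (1 + N) * B

def c13 (N K₁ B : ℝ) : ℝ := Real.exp K₁ * (1 + K₁ * B + N * K₁)

/-- the sum of all constants -/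
def cS (N K₁ δ κ B Q : ℝ) : ℝ :=
  1 + cq N K₁ δ κ B + c6 N K₁ δ κ B + cQ N K₁ δ κ B Q + N * cQ N K₁ δ κ B Q + c10 N K₁ B
    + c11 K₁ B + c12 N K₁ κ B + cb N K₁ B + c13 N K₁ B

theorem cS_le (hN : 0 < N) (hK : 0 < K₁) (hδ : 0 < δ) (hB : 0 ≤ B) (hQ : 0 ≤ Q) :
    1 ≤ cS N K₁ δ κ B Q ∧ cq N K₁ δ κ B ≤ cS N K₁ δ κ B Q ∧ c6 N K₁ δ κ B ≤ cS N K₁ δ κ B Q ∧
    cQ N K₁ δ κ B Q ≤ cS N K₁ δ κ B Q ∧ N * cQ N K₁ δ κ B Q ≤ cS N K₁ δ κ B Q ∧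
    c10 N K₁ B ≤ cS N K₁ δ κ B Q ∧ c11 K₁ B ≤ cS N K₁ δ κ B Q ∧ c12 N K₁ κ B ≤ cS N K₁ δ κ B Q ∧
    cb N K₁ B ≤ cS N K₁ δ κ B Q ∧ c13 N K₁ B ≤ cS N K₁ δ κ B Q := by
  have h1 : 0 ≤ cq N K₁ δ κ B := by unfold cq; positivity
  have h2 : 0 ≤ c6 N K₁ δ κ B := by unfold c6; positivity
  have h3 : 0 ≤ cQ N K₁ δ κ B Q := by unfold cQ; positivity
  have h4 : 0 ≤ N * cQ N K₁ δ κ B Q := mul_nonneg hN.le h3
  have h5 : 0 ≤ c10 N K₁ B := by unfold c10; positivity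
  have h6 : 0 ≤ c11 K₁ B := by unfold c11; positivity
  have h7 : 0 ≤ c12 N K₁ κ B := by unfold c12; positivity
  have h8 : 0 ≤ cb N K₁ B := by unfold cb; positivity
  have h9 : 0 ≤ c13 N K₁ B := by unfold c13; positivity
  unfold cS
  refine ⟨?_, ?_, ?_, ?_, ?_, ?_, ?_, ?_, ?_, ?_⟩ <;> linarith

/-- the estimates (E1), abstract form; `φ` is the class of `p_s(x,·)` -/
structure E1Y (C : Calc m) (φ : M →ₘ[m] ℝ) (w : M →ₘ[m] ℝ) (N δ κ S D T : ℝ) : Prop where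
  mu : I (φ * |N • (1 : M →ₘ[m] ℝ) - C.lap (C.P T w)|) ≤ S * D
  mu2 : I (φ * (C.lap (C.P T w) - N • (1 : M →ₘ[m] ℝ)) ^ 2) ≤ S * D
  q : I (φ * |qc C N δ w T|) ≤ S * (T * D)
  q2 : I (φ * qc C N δ w T ^ 2) ≤ S * (T ^ 2 * D)
  qq : H363.QQ C κ N (C.P T w) (C.P T w) φ ≤ S * D
  sc : ∀ t', 0 < t' → t' ≤ T → I (φ * C.gr (C.P t' w - C.P T w)) ≤ S * (√T * D)
  gb : I (φ * C.Γ (C.P T w) (C.P T w)) ≤ S * T
  bb : I (φ * (C.P T w + δ • (1 : M →ₘ[m] ℝ))) ≤ S * T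
  w : I (φ * |w - C.P T w + (N * T) • (1 : M →ₘ[m] ℝ)|) ≤ S * (T * D)

theorem e1_abs (hV : Vx C N K₁ δ g w) (hC : IsGamma C) (hBE : C.BE κ N) [SigmaFinite m]
    (hW : Win C φ w δ A B T lo hi) (hlo : 0 < lo) (hA : 1 ≤ A) (hB0 : 0 ≤ B)
    (hκ : 0 ≤ κ + K₁) (hD0 : 0 ≤ D)
    (hD : ∀ σ, lo ≤ σ → σ ≤ hi → nuP C N K₁ δ w (φ σ) ≤ D)
    (ht : 0 < T) (ht1 : T ≤ 1) (htD : T ≤ D) (hs : lo ≤ s) (hQ : 0 ≤ Q) (htQ : T ≤ Q * s)
    (hwin : A * (A * (A * s) + T) + T ≤ hi) :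
    E1Y C (φ s) w N δ κ (cS N K₁ δ κ B Q) D T := by
  obtain ⟨k0, k1, k2, k3, k4, k5, k6, k7, k8, k9⟩ :=
    cS_le (N := N) (K₁ := K₁) (δ := δ) (κ := κ) (B := B) (Q := Q) hV.N_pos hV.K₁_pos hV.δ_pos
      hB0 hQ
  have hs0 : 0 < s := hlo.trans_le hs
  have hAs : s ≤ A * s := by nlinarith
  have hAAs : A * s ≤ A * (A * s) := by nlinarith
  have hAAAs : A * (A * s) ≤ A * (A * (A * s)) := mul_le_mul_of_nonneg_left hAAs (by linarith)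
  have hAT : 0 ≤ A * T := by positivity
  have e1 : A * (A * (A * s) + T) = A * (A * (A * s)) + A * T := by ring
  have e2 : A * (A * s + T) = A * (A * s) + A * T := by ring
  have e3 : A * (s + T) = A * s + A * T := by ring
  have w6 : A * (A * s + T) + T ≤ hi := by rw [e2]; rw [e1] at hwin; linarith
  have w5 : A * s + T ≤ hi := by rw [e1] at hwin; linarith
  have w3 : A * s ≤ hi := by linarith
  have w4 : s + T ≤ hi := by linarith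
  have w2 : A * (s + T) + T ≤ hi := by rw [e3]; rw [e1] at hwin; linarith
  have hTD : 0 ≤ T * D := mul_nonneg ht.le hD0
  have r9 := hV.L9 hC hBE hW hlo hA hB0 hκ hD0 hD ht ht1 htD hs htQ hwin
  refine ⟨?_, ?_, ?_, ?_, ?_, ?_, ?_, ?_, ?_⟩
  · exact (hV.L10 hC hBE hW hlo hA hB0 hD0 hD ht ht1 htD hs w5).trans
      (mul_le_mul_of_nonneg_right k5 hD0)
  · exact r9.2.trans (mul_le_mul_of_nonneg_right k4 hD0)
  · exact (hV.L5 hC hBE hW hlo hA hB0 hD0 hD ht ht1 htD hs w6).trans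
      (mul_le_mul_of_nonneg_right k1 hTD)
  · exact (hV.L6 hC hBE hW hlo hA hB0 hD0 hD ht ht1 htD hs hwin).trans
      (mul_le_mul_of_nonneg_right k2 (by positivity))
  · exact r9.1.trans (mul_le_mul_of_nonneg_right k3 hD0)
  · intro t' ht' htT'
    exact (hV.L11 hC hBE hW hlo hA hB0 hD0 hD ht' htT' ht1 htD hs w2).trans
      (mul_le_mul_of_nonneg_right k6 (by positivity))
  · exact (hV.L12 hC hBE hW hlo hA hB0 ht ht1 hs w3).trans (mul_le_mul_of_nonneg_right k7 ht.le)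
  · exact (hV.Lb hC hBE hW hlo hA hB0 ht ht1 hs w3).trans (mul_le_mul_of_nonneg_right k8 ht.le)
  · exact (hV.L13 hC hBE hW hlo hA hB0 hD0 hD ht ht1 htD hs w3 w4).trans
      (mul_le_mul_of_nonneg_right k9 hTD)

end Vale.Agent.P242.H254

end
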