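import Vale.Agent.P242.H254.E1k
import Vale.Agent.P242.H254.E1j

/-! # P242 / H254 / E1l : (E1) in the frozen vocabulary -/

set_option linter.all false

open MeasureTheory Filter Topology Set
open scoped ENNReal NNReal

noncomputable section

universe u

namespace Vale.Agent.P242.H254

open Vale.Agent.P233 Vale.Agent.P233.RA Vale.Agent.P242.H990 Vale.Agent.P242.H520

variable {M : Type u} [MetricSpace M] [CompleteSpace M] [SecondCountableTopology M]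
  [MeasurableSpace M] [BorelSpace M] {m : Measure M} {n : ℕ} {K A : ℝ} {o : M}
  {p : ℝ → M → M → ℝ}

/-- (E1) for `b = b_{y,T}` at the centre `x` and the time `s`; `D` is the drop at the vertex `y` -/
structure E1X (m : Measure M) (n : ℕ) (K : ℝ) (p : ℝ → M → M → ℝ) (B D T s : ℝ) (x y : M) :
    Prop where
  nu : H71.nu m n K p y s x ≤ B * D
  mu : H71.PP m p s x |(n : ℝ) • 1 - (sob m).lap (H71.bb m y T)| ≤ B * D
  mu2 : H71.PP m p s x (((sob m).lap (H71.bb m y T) - (n : ℝ) • 1) ^ 2) ≤ B * D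
  q : H71.PP m p s x |(sob m).Γ (H71.bb m y T) (H71.bb m y T)
      - (2 : ℝ) • (H71.bb m y T + (1 / 2 - n * T) • 1)| ≤ B * (T * D)
  q2 : H71.PP m p s x (((sob m).Γ (H71.bb m y T) (H71.bb m y T)
      - (2 : ℝ) • (H71.bb m y T + (1 / 2 - n * T) • 1)) ^ 2) ≤ B * (T ^ 2 * D)
  qq : H71.QQ m n K p s x (H71.bb m y T) (H71.bb m y T) ≤ B * D
  sc : ∀ t', 0 < t' → t' ≤ T →
    H71.PP m p s x ((sob m).gr (H71.bb m y t' - H71.bb m y T)) ≤ B * (√T * D)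
  gb : H71.PP m p s x ((sob m).Γ (H71.bb m y T) (H71.bb m y T)) ≤ B * T
  bb : H71.PP m p s x (H71.bb m y T + (1 / 2 : ℝ) • 1) ≤ B * T
  w : H71.PP m p s x |cl m (ww (1 / 2) y) - H71.bb m y T + (n * T) • 1| ≤ B * (T * D)

/-- the elementary floor `t ≤ D_t` -/
theorem t_le_Dt (e : H71.Env m n K o A p) {Q A₀ ρ t : ℝ} (hρ : 0 < ρ) (hQ : 1 ≤ Q)
    (hA₀ : Q * ρ ^ 2 ≤ A₀) (ht : 0 < t) (htQ : t ≤ Q * ρ ^ 2) (y : M) :
    t ≤ H71.Dt m n K p Q A₀ ρ t y := by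
  have hA0 : 0 < A₀ := lt_of_lt_of_le (by positivity) hA₀
  refine le_trans ?_ (H196.Dt_ge_floor e ht htQ)
  have hρ2 : 0 < ρ ^ 2 := by positivity
  rcases le_total t (ρ ^ 2) with h | h
  · have h1 : t / ρ ^ 2 ≤ 1 := (div_le_one hρ2).2 h
    have h2 : t / ρ ^ 2 ≤ (t / ρ ^ 2) ^ (1 / 8 : ℝ) := by
      have := Real.rpow_le_rpow_of_exponent_ge (x := t / ρ ^ 2) (by positivity) h1
        (by norm_num : (1 / 8 : ℝ) ≤ 1)
      rwa [Real.rpow_one] at this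
    calc t = ρ ^ 2 * (t / ρ ^ 2) := by field_simp
      _ ≤ A₀ * (t / ρ ^ 2) := by
          refine mul_le_mul_of_nonneg_right ?_ (by positivity)
          nlinarith
      _ ≤ A₀ * (t / ρ ^ 2) ^ (1 / 8 : ℝ) := mul_le_mul_of_nonneg_left h2 hA0.le
  · have h1 : 1 ≤ t / ρ ^ 2 := (one_le_div hρ2).2 h
    have h2 : 1 ≤ (t / ρ ^ 2) ^ (1 / 8 : ℝ) := Real.one_le_rpow h1 (by norm_num)
    calc t ≤ A₀ := htQ.trans hA₀
      _ = A₀ * 1 := (mul_one _).symm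
      _ ≤ _ := mul_le_mul_of_nonneg_left h2 hA0.le

/-- arithmetic of the window -/
theorem win_arith {a Λ t T s : ℝ} (ha1 : 1 ≤ a) (hΛ : 1 ≤ Λ) (ht : 0 < t) (htT : t ≤ T)
    (hs0 : 0 < s) (hs1 : t / Λ ≤ s) (hs2 : s ≤ Λ * t) (hTt : T ≤ Λ * t) :
    a * (a * (a * s) + T) + T ≤ 3 * a ^ 3 * Λ * T ∧ T ≤ Λ ^ 2 * s := by
  have hT : 0 < T := ht.trans_le htT
  have hΛ0 : 0 < Λ := by linarith
  have hsT : s ≤ Λ * T := hs2.trans (mul_le_mul_of_nonneg_left htT hΛ0.le)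
  have ha3 : 1 ≤ a ^ 3 := one_le_pow₀ ha1
  have ha13 : a ≤ a ^ 3 := by
    have : a ^ 1 ≤ a ^ 3 := pow_le_pow_right₀ ha1 (by norm_num)
    rwa [pow_one] at this
  constructor
  · have e1 : a * (a * (a * s) + T) + T = a ^ 3 * s + a * T + T := by ring
    have e2 : 3 * a ^ 3 * Λ * T = a ^ 3 * (Λ * T) + a ^ 3 * (Λ * T) + a ^ 3 * (Λ * T) := by ring
    have hTΛ : T ≤ Λ * T := by nlinarith
    have h1 : a ^ 3 * s ≤ a ^ 3 * (Λ * T) := mul_le_mul_of_nonneg_left hsT (by linarith)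
    have h2 : a * T ≤ a ^ 3 * (Λ * T) := mul_le_mul ha13 hTΛ hT.le (by linarith)
    have h3 : 1 * T ≤ a ^ 3 * (Λ * T) := mul_le_mul ha3 hTΛ hT.le (by linarith)
    rw [e1, e2]; linarith
  · have h1 : t ≤ Λ * s := by rw [div_le_iff₀ hΛ0] at hs1; linarith
    have h2 : Λ * t ≤ Λ * (Λ * s) := mul_le_mul_of_nonneg_left h1 hΛ0.le
    calc T ≤ Λ * t := hTt
      _ ≤ Λ * (Λ * s) := h2
      _ = _ := by ring

/-- the parameter `Γ₂` of the window -/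
def gW (A Λ : ℝ) : ℝ := 3 * (512 * A ^ 2) ^ 3 * Λ

theorem gW_ge {A Λ : ℝ} (hA : 1 ≤ A) (hΛ : 1 ≤ Λ) : 1 ≤ gW A Λ := by
  have hA2 : 1 ≤ A ^ 2 := one_le_pow₀ hA
  have h1 : 1 ≤ (512 * A ^ 2) ^ 3 := one_le_pow₀ (by linarith)
  have h2 := one_le_mul_of_one_le_of_one_le h1 hΛ
  unfold gW; linarith

theorem cWin_ge (n : ℕ) (K : ℝ) {A : ℝ} (R₀ C₀ Γ₂ : ℝ) (hA : 1 ≤ A) :
    1 ≤ cWin n K A R₀ C₀ Γ₂ := by
  have c1 := cA1_nonneg n A R₀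
  have c3 := cA3_nonneg n K R₀ hA
  have c4 := cA4_nonneg n R₀ C₀ Γ₂ hA
  unfold cWin; linarith

/-- the constant of the abstract estimates -/
def cE1 (n : ℕ) (K A R₀ C₀ Λ : ℝ) : ℝ :=
  cS n (|K| + 1) (1 / 2) (-|K|) (cWin n K A R₀ C₀ (gW A Λ)) (Λ ^ 2)

/-- (E1) from a bound of `ν` on the window -/
theorem e1_of_nu (e : H71.Env m n K o A p) {R₀ C₀ Λ D t T s : ℝ} {x y : M} (hΛ : 1 ≤ Λ)
    (hC₀ : 0 ≤ C₀) (hx : dist x o ≤ R₀) (ht : 0 < t) (hxy : dist x y ≤ C₀ * √t) (htT : t ≤ T)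
    (hTt : T ≤ Λ * t) (hs1 : t / Λ ≤ s) (hs2 : s ≤ Λ * t) (hw : gW A Λ * T ≤ 1 / 2)
    (hD : ∀ σ, t / Λ ≤ σ → σ ≤ gW A Λ * T → H71.nu m n K p y σ x ≤ D) (hTD : T ≤ D) :
    E1Y (sob m) (ph m p s x) (cl m (ww (1 / 2) y)) n (1 / 2) (-|K|) (cE1 n K A R₀ C₀ Λ) D T := by
  have hC := e_gamma e
  have hA := e.kb.one_le
  have hBE := (H744.be_abs e.hyp).1
  haveI : SigmaFinite m := by
    obtain ⟨θ, t⟩ := e_nsp2 e
    exact sigmaFinite_of_ball t.fin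
  have hA2 : 1 ≤ A ^ 2 := one_le_pow₀ hA
  have hT : 0 < T := ht.trans_le htT
  have hΛ0 : 0 < Λ := by linarith
  have hlo0 : 0 < t / Λ := by positivity
  have hs0 : 0 < s := hlo0.trans_le hs1
  have hg := gW_ge hA hΛ
  have hT1 : T ≤ 1 := by nlinarith
  have hxyT : dist x y ≤ C₀ * √T :=
    hxy.trans (mul_le_mul_of_nonneg_left (Real.sqrt_le_sqrt htT) hC₀)
  have hWin := win_of e (R₀ := R₀) (C₀ := C₀) (Γ₂ := gW A Λ) (by linarith) hx hT hxyT hlo0 hw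
  have hb1 := cWin_ge n K R₀ C₀ (gW A Λ) hA
  obtain ⟨h1, h2⟩ := win_arith (a := 512 * A ^ 2) (by linarith) hΛ ht htT hs0 hs1 hs2 hTt
  exact e1_abs (vx_of e.hyp y) hC hBE hWin hlo0 (by linarith) (by linarith) (by linarith)
    (hT.le.trans hTD) (fun σ a b => by rw [← nuF_eq]; exact hD σ a b) hT hT1 hTD hs1
    (by positivity) h2 h1

/-- **(E1)** -/
theorem E1_env (e : H71.Env m n K o A p) (R₀ C₀ Λ : ℝ) (hC₀ : 0 ≤ C₀) (hΛ : 1 ≤ Λ) :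
    ∃ B, 1 ≤ B ∧ ∃ Γ, 1 ≤ Γ ∧ ∀ Q A₀ ρ t T s : ℝ, ∀ x y : M, 0 < ρ → 1 ≤ Q → Q * ρ ^ 2 ≤ A₀ →
      dist x o ≤ R₀ → 0 < t → dist x y ≤ C₀ * √t → t ≤ T → T ≤ Λ * t → t / Λ ≤ s → s ≤ Λ * t →
      Γ * t ≤ Q * ρ ^ 2 → Γ * t ≤ 1 / 2 →
      t ≤ H71.Dt m n K p Q A₀ ρ t y ∧
        E1X m n K p B (H71.Dt m n K p Q A₀ ρ t y) T s x y := by
  have hA := e.kb.one_le
  have hA2 : 1 ≤ A ^ 2 := one_le_pow₀ hA
  have hg := gW_ge hA hΛ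
  have hgΛ := one_le_mul_of_one_le_of_one_le hg hΛ
  obtain ⟨Bν, hBν, hν⟩ := H196.nu_le_Dt e R₀ C₀ (gW A Λ * Λ) hgΛ hC₀
  have hn : (0 : ℝ) < n := by
    have := e.hyp.two_le
    exact_mod_cast (by omega : 0 < n)
  have hb1 := cWin_ge n K R₀ C₀ (gW A Λ) hA
  have hS : 1 ≤ cE1 n K A R₀ C₀ Λ := (cS_le hn (by positivity) (by norm_num) (by linarith)
    (by positivity)).1
  have hLB : 1 ≤ Λ * Bν := one_le_mul_of_one_le_of_one_le hΛ hBν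
  refine ⟨Λ * Bν * cE1 n K A R₀ C₀ Λ, one_le_mul_of_one_le_of_one_le hLB hS,
    8 * A ^ 2 * (gW A Λ * Λ), by nlinarith, ?_⟩
  intro Q A₀ ρ t T s x y hρ hQ hA₀ hx ht hxy htT hTt hs1 hs2 hw1 hw2
  have hT : 0 < T := ht.trans_le htT
  have hΛ0 : 0 < Λ := by linarith
  have hA0' : 0 ≤ A₀ := le_trans (by positivity) hA₀
  have hΓΛ : gW A Λ * T ≤ gW A Λ * Λ * t := by
    have := mul_le_mul_of_nonneg_left hTt (by linarith : 0 ≤ gW A Λ)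
    linarith
  have hbig : gW A Λ * Λ * t ≤ 8 * A ^ 2 * (gW A Λ * Λ) * t := by
    have h1 : 0 ≤ gW A Λ * Λ * t := by positivity
    nlinarith
  have htQ : t ≤ Q * ρ ^ 2 := by nlinarith
  have htD := t_le_Dt e hρ hQ hA₀ ht htQ y
  refine ⟨htD, ?_⟩
  have hD₀0 : 0 ≤ H71.Dt m n K p Q A₀ ρ t y := ht.le.trans htD
  have hBD : Bν * H71.Dt m n K p Q A₀ ρ t y ≤ Λ * Bν * H71.Dt m n K p Q A₀ ρ t y := by
    have : 0 ≤ Bν * H71.Dt m n K p Q A₀ ρ t y := by positivity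
    nlinarith
  have hTD : T ≤ Λ * Bν * H71.Dt m n K p Q A₀ ρ t y := by
    have h1 : Λ * t ≤ Λ * H71.Dt m n K p Q A₀ ρ t y := mul_le_mul_of_nonneg_left htD hΛ0.le
    have h2 : Λ * H71.Dt m n K p Q A₀ ρ t y * 1 ≤ Λ * H71.Dt m n K p Q A₀ ρ t y * Bν :=
      mul_le_mul_of_nonneg_left hBν (by positivity)
    linarith
  have hnu : ∀ σ, t / Λ ≤ σ → σ ≤ gW A Λ * T →
      H71.nu m n K p y σ x ≤ Λ * Bν * H71.Dt m n K p Q A₀ ρ t y := by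
    intro σ h1 h2
    refine (hν Q A₀ ρ t σ x y hA0' hx ht hxy ?_ (h2.trans hΓΛ) hw1 hw2).trans hBD
    refine le_trans ?_ h1
    refine div_le_div_of_nonneg_left ht.le hΛ0 ?_
    nlinarith
  have hY := e1_of_nu e hΛ hC₀ hx ht hxy htT hTt hs1 hs2 (by linarith) hnu hTD
  have hs2' : s ≤ gW A Λ * T := by
    have h1 : s ≤ Λ * T := hs2.trans (mul_le_mul_of_nonneg_left htT hΛ0.le)
    have h2 : Λ ≤ gW A Λ := by
      have h3 : 1 ≤ (512 * A ^ 2) ^ 3 := one_le_pow₀ (by linarith)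
      unfold gW
      nlinarith
    exact h1.trans (mul_le_mul_of_nonneg_right h2 hT.le)
  have r7 := hnu s hs1 hs2'
  have eqc : (sob m).Γ (H71.bb m y T) (H71.bb m y T)
      - (2 : ℝ) • (H71.bb m y T + (1 / 2 - n * T) • (1 : M →ₘ[m] ℝ))
      = qc (sob m) n (1 / 2) (cl m (ww (1 / 2) y)) T := by
    unfold qc H71.bb
    rw [smul_add, smul_smul, sub_add_eq_sub_sub]
  have eD : ∀ D₀ : ℝ, Λ * Bν * cE1 n K A R₀ C₀ Λ * D₀
      = cE1 n K A R₀ C₀ Λ * (Λ * Bν * D₀) := fun D₀ => by ring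
  have eD2 : ∀ X D₀ : ℝ, Λ * Bν * cE1 n K A R₀ C₀ Λ * (X * D₀)
      = cE1 n K A R₀ C₀ Λ * (X * (Λ * Bν * D₀)) := fun X D₀ => by ring
  have eT : cE1 n K A R₀ C₀ Λ * T ≤ Λ * Bν * cE1 n K A R₀ C₀ Λ * T := by
    have h1 : 0 ≤ cE1 n K A R₀ C₀ Λ * T := by positivity
    nlinarith
  refine ⟨?_, ?_, ?_, ?_, ?_, ?_, ?_, ?_, ?_, ?_⟩
  · rw [eD]
    have h1 : 0 ≤ Λ * Bν * H71.Dt m n K p Q A₀ ρ t y := by positivity
    exact r7.trans (by nlinarith)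
  · rw [eD]; exact hY.mu
  · rw [eD]; exact hY.mu2
  · rw [eqc, eD2]; exact hY.q
  · rw [eqc, eD2]; exact hY.q2
  · rw [eD]; exact hY.qq
  · intro t' h1 h2
    rw [eD2]; exact hY.sc t' h1 h2
  · exact hY.gb.trans eT
  · exact hY.bb.trans eT
  · rw [eD2]; exact hY.w

end Vale.Agent.P242.H254

end
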