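import Vale.Agent.P242.H254.E1l
import Vale.Agent.P242.H771.Sub

/-! # P242 / H254 / E1m : the block `SB_E1` -/

set_option linter.all false

open MeasureTheory Filter Topology Set
open scoped ENNReal NNReal

noncomputable section

universe u

namespace Vale.Agent.P242.H254

open Vale.Agent.P233 Vale.Agent.P233.RA Vale.Agent.P242.H990 Vale.Agent.P242.H520

variable {M : Type u} [MetricSpace M] [CompleteSpace M] [SecondCountableTopology M]
  [MeasurableSpace M] [BorelSpace M] {m : Measure M} {n : ℕ} {K A : ℝ} {o : M}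
  {p : ℝ → M → M → ℝ}

/-- (E1) at all vertices: the block `SB_E1` -/
theorem sb_E1 (e : H71.Env m n K o A p) : H771.SB_E1 m n K o p := by
  obtain ⟨B, hB, Γ, hΓ, h⟩ := E1_env e 1 0 1 le_rfl le_rfl
  refine ⟨Γ, hΓ, fun Q hQ => ⟨1, le_rfl, fun R hR => ⟨16, le_rfl, fun Λ hΛ => ⟨B, hB, 1, one_pos,
    fun A₀ h0 h1 => ⟨1, le_rfl, fun M' hM => ⟨min 1 (A₀ / Q), ?_, ?_⟩⟩⟩⟩⟩⟩
  · have : 0 < Q := by linarith
    exact lt_min one_pos (by positivity)
  intro ε η δ ρ h2 h3 h4 h5 h6 h7 u uu hu hdr hT y hy t ht htρ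
  have hρ := hu.ρ_pos
  have hQ0 : 0 < Q := by linarith
  have hρ1 : ρ ≤ 1 := h7.trans (min_le_left _ _)
  have hρA : ρ ≤ A₀ / Q := h7.trans (min_le_right _ _)
  have hA₀ : Q * ρ ^ 2 ≤ A₀ := by
    rw [le_div_iff₀ hQ0] at hρA
    nlinarith
  have hyo : dist y o ≤ 1 := by
    have h8 : dist y o < R / 2 * ρ := Metric.mem_ball.1 hy
    have h9 := hu.Rρ
    have h10 : 0 ≤ R * ρ := by positivity
    linarith
  have hw : Γ * t ≤ Q * ρ ^ 2 := mul_le_mul hQ htρ ht.le hQ0.le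
  have hX := (h Q A₀ ρ t t t y y hρ (hΓ.trans hQ) hA₀ hyo ht (by rw [dist_self, zero_mul])
    le_rfl (by rw [one_mul]) (by rw [div_one]) (by rw [one_mul]) hw (hw.trans hu.Qρ)).2
  exact ⟨hX.mu, hX.q, hX.qq⟩

end Vale.Agent.P242.H254

end
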