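import Vale.Agent.P242.H254.E1l

/-! # P242 / H254 / E1n : the difference `b_q - b_x` against `w_q - w_x` -/

set_option linter.all false

open MeasureTheory Filter Topology Set
open scoped ENNReal NNReal

noncomputable section

universe u

namespace Vale.Agent.P242.H254

open Vale.Agent.P233 Vale.Agent.P233.RA Vale.Agent.P242.H990 Vale.Agent.P242.H520

variable {M : Type u} [MetricSpace M] [CompleteSpace M] [SecondCountableTopology M]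
  [MeasurableSpace M] [BorelSpace M] {m : Measure M} {n : ℕ} {K A : ℝ} {o : M}
  {p : ℝ → M → M → ℝ}

/-- the vertex function is a test function of the calculus -/
theorem bb_mem2 (e : H71.Env m n K o A p) (y : M) (T : ℝ) :
    MemLp (H71.bb m y T) 2 m ∧ MemLp (cl m (ww (1 / 2) y)) 2 m := by
  have hC := e_gamma e
  have h := hC.memLp _ (vx_of e.hyp y).mem
  exact ⟨hC.toIsDir.P_mem2 T h, h⟩

/-- `P_s |F| (x)` for `F` an `L²` class plus a constant is an integral of an integrable class -/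
theorem abs_shift_int (e : H71.Env m n K o A p) {s : ℝ} (hs : 0 < s) (x : M) {F : M →ₘ[m] ℝ}
    (hF : MemLp F 2 m) (c : ℝ) :
    MemLp (ph m p s x * |F + c • (1 : M →ₘ[m] ℝ)| : M →ₘ[m] ℝ) 1 m := by
  have h1 : MemLp (ph m p s x * (F + c • (1 : M →ₘ[m] ℝ)) : M →ₘ[m] ℝ) 1 m := by
    rw [mul_add, mul_smul_comm, mul_one]
    exact mem_add (mem_mul_22 (ph_mem2 e.ker hs x) hF) (mem_smul _ (ph_mem1 e.ker hs x))
  have e0 : ph m p s x * |F + c • (1 : M →ₘ[m] ℝ)|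
      = |ph m p s x * (F + c • (1 : M →ₘ[m] ℝ))| := by
    rw [eq_iff_ae]
    filter_upwards [mul_ae (ph m p s x) |F + c • (1 : M →ₘ[m] ℝ)|,
      abs_ae' (F + c • (1 : M →ₘ[m] ℝ)),
      abs_ae' (ph m p s x * (F + c • (1 : M →ₘ[m] ℝ))),
      mul_ae (ph m p s x) (F + c • (1 : M →ₘ[m] ℝ)),
      nonneg_iff_ae.1 (ph_nonneg e.ker hs x)] with z a1 a2 a3 a4 a5
    rw [a1, a2, a3, a4, abs_mul, abs_of_nonneg a5]
  rw [e0]
  exact abs_mem h1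

/-- `∫ p_s(x,·) |b_{q,T} - b_{x,T} - (w_q - w_x)| ≤ B T (D_t(x) + D_t(q))` -/
theorem w_diff (e : H71.Env m n K o A p) (R₀ C₀ Λ : ℝ) (hC₀ : 0 ≤ C₀) (hΛ : 1 ≤ Λ) :
    ∃ B, 1 ≤ B ∧ ∃ Γ, 1 ≤ Γ ∧ ∀ Q A₀ ρ t T s : ℝ, ∀ x q : M, 0 < ρ → 1 ≤ Q → Q * ρ ^ 2 ≤ A₀ →
      dist x o ≤ R₀ → 0 < t → dist x q ≤ C₀ * √t → t ≤ T → T ≤ Λ * t → t / Λ ≤ s → s ≤ Λ * t →
      Γ * t ≤ Q * ρ ^ 2 → Γ * t ≤ 1 / 2 →
      H71.PP m p s x |(H71.bb m q T - H71.bb m x T) - (cl m (ww (1 / 2) q) - cl m (ww (1 / 2) x))|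
        ≤ B * (T * (H71.Dt m n K p Q A₀ ρ t x + H71.Dt m n K p Q A₀ ρ t q)) := by
  obtain ⟨B, hB, Γ, hΓ, h⟩ := E1_env e R₀ C₀ Λ hC₀ hΛ
  refine ⟨B, hB, Γ, hΓ, ?_⟩
  intro Q A₀ ρ t T s x q hρ hQ hA₀ hx ht hxq htT hTt hs1 hs2 hw1 hw2
  have hs0 : 0 < s := lt_of_lt_of_le (by positivity) hs1
  have h1 := (h Q A₀ ρ t T s x q hρ hQ hA₀ hx ht hxq htT hTt hs1 hs2 hw1 hw2).2.w
  have h2 := (h Q A₀ ρ t T s x x hρ hQ hA₀ hx ht (by rw [dist_self]; positivity) htT hTt hs1 hs2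
    hw1 hw2).2.w
  have i1 : MemLp (ph m p s x * |cl m (ww (1 / 2) q) - H71.bb m q T
      + ((n : ℝ) * T) • (1 : M →ₘ[m] ℝ)| : M →ₘ[m] ℝ) 1 m :=
    abs_shift_int e hs0 x (mem_sub (bb_mem2 e q T).2 (bb_mem2 e q T).1) _
  have i2 : MemLp (ph m p s x * |cl m (ww (1 / 2) x) - H71.bb m x T
      + ((n : ℝ) * T) • (1 : M →ₘ[m] ℝ)| : M →ₘ[m] ℝ) 1 m :=
    abs_shift_int e hs0 x (mem_sub (bb_mem2 e x T).2 (bb_mem2 e x T).1) _
  have i3 : MemLp (ph m p s x * |(H71.bb m q T - H71.bb m x T)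
      - (cl m (ww (1 / 2) q) - cl m (ww (1 / 2) x))| : M →ₘ[m] ℝ) 1 m := by
    have := abs_shift_int e hs0 x (F := (H71.bb m q T - H71.bb m x T)
      - (cl m (ww (1 / 2) q) - cl m (ww (1 / 2) x)))
      (mem_sub (mem_sub (bb_mem2 e q T).1 (bb_mem2 e x T).1)
        (mem_sub (bb_mem2 e q T).2 (bb_mem2 e x T).2)) 0
    rwa [zero_smul, add_zero] at this
  have key : H71.PP m p s x |(H71.bb m q T - H71.bb m x T)
      - (cl m (ww (1 / 2) q) - cl m (ww (1 / 2) x))|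
      ≤ H71.PP m p s x |cl m (ww (1 / 2) q) - H71.bb m q T + ((n : ℝ) * T) • (1 : M →ₘ[m] ℝ)|
        + H71.PP m p s x |cl m (ww (1 / 2) x) - H71.bb m x T
          + ((n : ℝ) * T) • (1 : M →ₘ[m] ℝ)| := by
    unfold H71.PP
    rw [← I_add i1 i2]
    refine I_mono i3 (mem_add i1 i2) ?_
    rw [← mul_add, le_iff_ae]
    filter_upwards [mul_ae (ph m p s x) |(H71.bb m q T - H71.bb m x T)
        - (cl m (ww (1 / 2) q) - cl m (ww (1 / 2) x))|,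
      mul_ae (ph m p s x) (|cl m (ww (1 / 2) q) - H71.bb m q T
        + ((n : ℝ) * T) • (1 : M →ₘ[m] ℝ)|
        + |cl m (ww (1 / 2) x) - H71.bb m x T + ((n : ℝ) * T) • (1 : M →ₘ[m] ℝ)|),
      add_ae |cl m (ww (1 / 2) q) - H71.bb m q T + ((n : ℝ) * T) • (1 : M →ₘ[m] ℝ)|
        |cl m (ww (1 / 2) x) - H71.bb m x T + ((n : ℝ) * T) • (1 : M →ₘ[m] ℝ)|,
      abs_ae' ((H71.bb m q T - H71.bb m x T) - (cl m (ww (1 / 2) q) - cl m (ww (1 / 2) x))),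
      abs_ae' (cl m (ww (1 / 2) q) - H71.bb m q T + ((n : ℝ) * T) • (1 : M →ₘ[m] ℝ)),
      abs_ae' (cl m (ww (1 / 2) x) - H71.bb m x T + ((n : ℝ) * T) • (1 : M →ₘ[m] ℝ)),
      sub_ae (H71.bb m q T - H71.bb m x T) (cl m (ww (1 / 2) q) - cl m (ww (1 / 2) x)),
      sub_ae (H71.bb m q T) (H71.bb m x T),
      sub_ae (cl m (ww (1 / 2) q)) (cl m (ww (1 / 2) x)),
      add_ae (cl m (ww (1 / 2) q) - H71.bb m q T) (((n : ℝ) * T) • (1 : M →ₘ[m] ℝ)),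
      add_ae (cl m (ww (1 / 2) x) - H71.bb m x T) (((n : ℝ) * T) • (1 : M →ₘ[m] ℝ)),
      sub_ae (cl m (ww (1 / 2) q)) (H71.bb m q T),
      sub_ae (cl m (ww (1 / 2) x)) (H71.bb m x T),
      nonneg_iff_ae.1 (ph_nonneg e.ker hs0 x)] with z a1 a2 a3 a4 a5 a6 a7 a8 a9 b1 b2 b3 b4 b5
    rw [a1, a2, a3, a4, a5, a6, a7, a8, a9, b1, b2, b3, b4]
    refine mul_le_mul_of_nonneg_left ?_ b5
    set c := (((n : ℝ) * T) • (1 : M →ₘ[m] ℝ)) z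
    have e1 : (H71.bb m q T z - H71.bb m x T z)
        - ((cl m (ww (1 / 2) q)) z - (cl m (ww (1 / 2) x)) z)
        = ((cl m (ww (1 / 2) x)) z - H71.bb m x T z + c)
          - ((cl m (ww (1 / 2) q)) z - H71.bb m q T z + c) := by ring
    rw [e1]
    refine (abs_sub _ _).trans ?_
    rw [add_comm]
  refine key.trans ((add_le_add h1 h2).trans (le_of_eq ?_))
  ring

end Vale.Agent.P242.H254

end
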