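import Vale.Agent.P242.H254.E1c

/-! # P242 / H254 / E1w : window of kernel facts at a centre, used by (E1)

`φ s` is the class of `p_s(x,·)`, `w = min (d_y²/2, δ) - δ`, `d(x,y) ≤ C₀ √t`; the times `s` run in
`[lo, hi]`, comparable with `t`. -/

set_option linter.all false

open MeasureTheory Filter Topology Set
open scoped ENNReal NNReal

noncomputable section

namespace Vale.Agent.P242.H254

open Vale.Agent.P233

variable {M : Type*} [MeasurableSpace M] {m : Measure M} {C : Calc m}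

/-- The facts on the heat kernel used by (E1). -/
structure Win (C : Calc m) (φ : ℝ → M →ₘ[m] ℝ) (w : M →ₘ[m] ℝ) (δ A B t lo hi : ℝ) : Prop where
  cen : Cen C φ
  /-- polynomial weights -/
  K4 : ∀ s, lo ≤ s → A * s ≤ hi → ∀ᵐ z ∂m, φ s z * ((w z + δ + t) / t) ^ 2 ≤ B * φ (A * s) z
  /-- gradient of the heat flow, also of a function plus a constant -/
  K1a : ∀ s τ, lo ≤ s → 0 < τ → A * (s + τ) ≤ hi → ∀ F : M →ₘ[m] ℝ, MemLp F 2 m → MemLp F ∞ m →
    ∀ c : ℝ, I (φ s * C.gr (C.P τ F)) ≤ B / √τ * ∫ z, φ (A * (s + τ)) z * |F z + c| ∂m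
  /-- the Laplacian of the kernel -/
  K3 : ∀ s, lo ≤ s → A * s ≤ hi → ∀ᵐ z ∂m, |C.lap (φ s) z| ≤ B / s * φ (A * s) z

end Vale.Agent.P242.H254

end
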