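import Mathlib

/-! # P242 / H254 / Layer : layer cake bounds for decreasing functions (Mathlib only) -/

open MeasureTheory Set Filter Topology
open scoped ENNReal

noncomputable section

namespace Vale.Agent.P242.H254

variable {M : Type*} [MeasurableSpace M] {m : Measure M}

/-- layer cake for a decreasing function `ψ` with `ψ' = -p` -/
theorem layer {s : M → ℝ} (hs : Measurable s) (hs0 : ∀ x, 0 ≤ s x) {b : ℝ} (hb : 0 < b)
    (hfin : m {x | s x < b} < ∞) {ψ p B : ℝ → ℝ}
    (hψ : ∀ t ∈ Icc 0 b, HasDerivWithinAt ψ (-p t) (Icc 0 b) t) (hp : Continuous p)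
    (hp0 : ∀ t ∈ Icc 0 b, 0 ≤ p t) (hB : ContinuousOn B (Icc 0 b))
    (hU : ∀ t ∈ Icc 0 b, (m {x | s x < t}).toReal ≤ B t) :
    ∫ x in {x | s x < b}, ψ (s x) ∂m ≤
      ψ b * (m {x | s x < b}).toReal + ∫ t in (0 : ℝ)..b, p t * B t := by
  set S : Set M := {x | s x < b} with hS
  have hSm : MeasurableSet S := measurableSet_lt hs measurable_const
  have fS : IsFiniteMeasure (m.restrict S) := ⟨by rw [Measure.restrict_apply_univ]; exact hfin⟩
  have hψc : ContinuousOn ψ (Icc 0 b) := fun t ht => (hψ t ht).continuousWithinAt
  -- the fundamental theorem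
  have h1 : ∀ x ∈ S, ψ (s x) = ψ b + ∫ t in (0 : ℝ)..b, (if s x < t then p t else 0) := by
    intro x hx
    have hx' : s x ≤ b := le_of_lt hx
    have e1 : ∫ t in (s x)..b, -p t = ψ b - ψ (s x) := by
      refine intervalIntegral.integral_eq_sub_of_hasDeriv_right_of_le hx'
        (hψc.mono (Icc_subset_Icc_left (hs0 x))) (fun t ht => ?_) (hp.neg.intervalIntegrable _ _)
      have ht' : t ∈ Icc 0 b := ⟨(hs0 x).trans ht.1.le, ht.2.le⟩
      have ht2 : Icc 0 b ∈ 𝓝 t := Icc_mem_nhds (lt_of_le_of_lt (hs0 x) ht.1) ht.2
      exact ((hψ t ht').hasDerivAt ht2).hasDerivWithinAt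
    have e2 : ∫ t in (0 : ℝ)..b, (if s x < t then p t else 0) = ∫ t in (s x)..b, p t := by
      rw [← intervalIntegral.integral_add_adjacent_intervals (a := 0) (b := s x) (c := b)]
      · have z1 : ∫ t in (0 : ℝ)..(s x), (if s x < t then p t else 0) = 0 := by
          rw [intervalIntegral.integral_of_le (hs0 x)]
          refine (setIntegral_congr_fun measurableSet_Ioc fun t ht => ?_).trans (integral_zero _ _)
          rw [if_neg (not_lt.2 ht.2)]
        have z2 : ∫ t in (s x)..b, (if s x < t then p t else 0) = ∫ t in (s x)..b, p t := by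
          rw [intervalIntegral.integral_of_le hx', intervalIntegral.integral_of_le hx']
          refine setIntegral_congr_fun measurableSet_Ioc fun t ht => ?_
          rw [if_pos ht.1]
        rw [z1, z2, zero_add]
      · rw [intervalIntegrable_iff_integrableOn_Ioc_of_le (hs0 x)]
        refine (integrableOn_zero (μ := volume)).congr_fun (fun t ht => ?_) measurableSet_Ioc
        rw [if_neg (not_lt.2 ht.2)]
      · rw [intervalIntegrable_iff_integrableOn_Ioc_of_le hx']
        have := (hp.intervalIntegrable (μ := volume) (s x) b)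
        rw [intervalIntegrable_iff_integrableOn_Ioc_of_le hx'] at this
        refine this.congr_fun (fun t ht => ?_) measurableSet_Ioc
        rw [if_pos ht.1]
    rw [e2]
    rw [intervalIntegral.integral_neg] at e1
    linarith
  obtain ⟨L, hL⟩ := isCompact_Icc (a := (0 : ℝ)) (b := b) |>.exists_bound_of_continuousOn
    hp.continuousOn
  -- joint integrability
  have hmeas : Measurable (Function.uncurry fun (x : M) (t : ℝ) => if s x < t then p t else 0) := by
    refine Measurable.ite (measurableSet_lt (hs.comp measurable_fst) measurable_snd)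
      (hp.measurable.comp measurable_snd) measurable_const
  have hint : Integrable (Function.uncurry fun (x : M) (t : ℝ) => if s x < t then p t else 0)
      ((m.restrict S).prod (volume.restrict (Ioc 0 b))) := by
    refine Integrable.mono' (g := fun _ => L) (integrable_const _) hmeas.aestronglyMeasurable ?_
    have : ∀ᵐ z : M × ℝ ∂((m.restrict S).prod (volume.restrict (Ioc 0 b))), z.2 ∈ Ioc 0 b := by
      have := Measure.quasiMeasurePreserving_snd (μ := m.restrict S)
        (ν := volume.restrict (Ioc (0 : ℝ) b))
      exact this.ae (ae_restrict_mem measurableSet_Ioc)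
    filter_upwards [this] with z hz
    have h3 := hL z.2 ⟨hz.1.le, hz.2⟩
    change ‖(if s z.1 < z.2 then p z.2 else 0)‖ ≤ L
    split_ifs
    · exact h3
    · rw [norm_zero]; exact (norm_nonneg _).trans h3
  have h2 : ∫ x in S, ψ (s x) ∂m = ψ b * (m S).toReal +
      ∫ t in (0 : ℝ)..b, p t * (m {x | s x < t}).toReal := by
    rw [setIntegral_congr_fun hSm (fun x hx => h1 x hx), integral_add (integrable_const _)]
    · rw [integral_const, Measure.real, Measure.restrict_apply_univ, smul_eq_mul, mul_comm]
      congr 1
      have e1 : ∀ x : M, ∫ t in (0 : ℝ)..b, (if s x < t then p t else 0) =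
          ∫ t in Ioc 0 b, (if s x < t then p t else 0) := fun x =>
        intervalIntegral.integral_of_le hb.le
      simp_rw [e1]
      rw [integral_integral_swap hint, intervalIntegral.integral_of_le hb.le]
      refine setIntegral_congr_fun measurableSet_Ioc fun t ht => ?_
      have e2 : ∀ x : M, (if s x < t then p t else 0) = {x | s x < t}.indicator (fun _ => p t) x := by
        intro x
        rw [indicator_apply]
        rfl
      simp_rw [e2]
      rw [integral_indicator (measurableSet_lt hs measurable_const),
        Measure.restrict_restrict (measurableSet_lt hs measurable_const), integral_const,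
        Measure.real, Measure.restrict_apply_univ, smul_eq_mul, mul_comm]
      congr 3
      ext x
      simp only [mem_inter_iff, mem_ofPred_eq, hS]
      exact ⟨fun h => h.1, fun h => ⟨h, h.trans_le ht.2⟩⟩
    · have e1 : ∀ x : M, ∫ t in (0 : ℝ)..b, (if s x < t then p t else 0) =
          ∫ t in Ioc 0 b, (if s x < t then p t else 0) := fun x =>
        intervalIntegral.integral_of_le hb.le
      simp_rw [e1]
      exact hint.integral_prod_left
  rw [h2]
  refine add_le_add le_rfl ?_
  have hmon : Monotone fun t : ℝ => m {x | s x < t} := fun t t' h =>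
    measure_mono fun x (hx : s x < t) => lt_of_lt_of_le hx h
  refine intervalIntegral.integral_mono_on hb.le ?_ ?_ fun t ht =>
    mul_le_mul_of_nonneg_left (hU t ht) (hp0 t ht)
  · rw [intervalIntegrable_iff_integrableOn_Ioc_of_le hb.le]
    refine Integrable.mono' (g := fun _ => L * (m S).toReal) (integrable_const _)
      (hp.measurable.mul hmon.measurable.ennreal_toReal).aestronglyMeasurable ?_
    filter_upwards [ae_restrict_mem measurableSet_Ioc] with t ht
    rw [norm_mul]
    refine mul_le_mul (hL t ⟨ht.1.le, ht.2⟩) ?_ (norm_nonneg _)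
      ((norm_nonneg _).trans (hL t ⟨ht.1.le, ht.2⟩))
    rw [Real.norm_eq_abs, abs_of_nonneg ENNReal.toReal_nonneg]
    exact ENNReal.toReal_mono hfin.ne (hmon ht.2)
  · exact (hp.continuousOn.mul (by rwa [uIcc_of_le hb.le])).intervalIntegrable

end Vale.Agent.P242.H254

end
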